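import Vale.Agent.P153C.Defs

/-! Sum rule. For 0 <= t <= 1: HasSum (fun n => s^n/n * 2(1 - t^n cos(n psi))) (log (nq (s t) psi) - 2 log(1-s))
(Complex.hasSum_taylorSeries_neg_log, real parts, nq = normSq). W d n = int 2(1 - ch) in the four directions
(n,n): t=r, psi=3phi; (0,n): t=r, psi=phi; (-n,2n): t=r^2, psi=0; (n,0): t=1, psi=2phi. rot: V(n,n) = V(-n,2n),
V(n,0) = V(0,n), so W1 + W4 = W2 + W3 (A cancels). Terms are nonnegative and W <= C n^2 since
1 - r^y cos(k phi) <= (y + 2k^2) gp: hasSum_integral_of_summable_integral_norm and integrability of the sums. -/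

open MeasureTheory Filter Topology Set
open scoped InnerProductSpace ComplexConjugate

noncomputable section

namespace Vale.Agent.P153C

theorem A1_int {α : Type*} [MeasurableSpace α] {ν : Measure α} {F : ℕ → α → ℝ} {G : α → ℝ}
    (hi : ∀ n, Integrable (F n) ν) (h0 : ∀ n, ∀ᵐ m ∂ν, 0 ≤ F n m)
    (hs : Summable fun n => ∫ m, F n m ∂ν) (hG : ∀ᵐ m ∂ν, HasSum (fun n => F n m) (G m))
    (hm : AEStronglyMeasurable G ν) :
    Integrable G ν ∧ HasSum (fun n => ∫ m, F n m ∂ν) (∫ m, G m ∂ν) := by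
  have e : ∀ n, ∫ m, ‖F n m‖ ∂ν = ∫ m, F n m ∂ν := fun n =>
    integral_congr_ae ((h0 n).mono fun m hm => Real.norm_of_nonneg hm)
  constructor
  · refine ⟨hm, ?_⟩
    have h1 : ∫⁻ m, ‖G m‖ₑ ∂ν = ∫⁻ m, ∑' n, ENNReal.ofReal (F n m) ∂ν := by
      refine lintegral_congr_ae ?_
      filter_upwards [hG, ae_all_iff.2 h0] with m a1 a2
      rw [← ENNReal.ofReal_tsum_of_nonneg a2 a1.summable, a1.tsum_eq,
        Real.enorm_eq_ofReal (a1.nonneg a2)]
    rw [HasFiniteIntegral, h1, lintegral_tsum fun n => (hi n).1.aemeasurable.ennreal_ofReal]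
    simp only [← ofReal_integral_eq_lintegral_ofReal (hi _) (h0 _)]
    rw [← ENNReal.ofReal_tsum_of_nonneg (fun n => integral_nonneg_of_ae (h0 n)) hs]
    exact ENNReal.ofReal_lt_top
  · have h1 := hasSum_integral_of_summable_integral_norm hi (by simpa only [e] using hs)
    rwa [integral_congr_ae (hG.mono fun m hm => hm.tsum_eq)] at h1

theorem A1_log {t : ℝ} (h0 : 0 ≤ t) (h1 : t < 1) (ψ : ℝ) :
    HasSum (fun n : ℕ => t ^ n / n * (2 * Real.cos (n * ψ))) (-Real.log (nq t ψ)) := by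
  have hz : ‖(t : ℂ) * Complex.exp (ψ * Complex.I)‖ < 1 := by
    rwa [norm_mul, Complex.norm_exp_ofReal_mul_I, mul_one, Complex.norm_real,
      Real.norm_of_nonneg h0]
  have h2 := (Complex.hasSum_re (Complex.hasSum_taylorSeries_neg_log hz)).mul_left 2
  have e1 : ∀ n : ℕ, 2 * (((t : ℂ) * Complex.exp (ψ * Complex.I)) ^ n / n).re =
      t ^ n / n * (2 * Real.cos (n * ψ)) := by
    intro n
    have e : ((t : ℂ) * Complex.exp (ψ * Complex.I)) ^ n =
        ((t ^ n : ℝ) : ℂ) * Complex.exp (((n * ψ : ℝ) : ℂ) * Complex.I) := by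
      rw [mul_pow, ← Complex.exp_nat_mul]
      push_cast
      rw [mul_assoc]
    rw [Complex.div_natCast_re, e, Complex.re_ofReal_mul, Complex.exp_ofReal_mul_I_re]
    ring
  have e2 : ‖1 - (t : ℂ) * Complex.exp (ψ * Complex.I)‖ ^ 2 = nq t ψ := by
    rw [Complex.sq_norm, Complex.normSq_apply]
    simp only [Complex.sub_re, Complex.sub_im, Complex.one_re, Complex.one_im,
      Complex.re_ofReal_mul, Complex.im_ofReal_mul, Complex.exp_ofReal_mul_I_re,
      Complex.exp_ofReal_mul_I_im, nq]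
    linear_combination t ^ 2 * Real.sin_sq_add_cos_sq ψ
  simp only [e1] at h2
  rw [← e2, Real.log_pow]
  rw [Complex.neg_re, Complex.log_re] at h2
  simpa only [mul_neg, Nat.cast_ofNat] using h2

theorem A1_sum {s t : ℝ} (hs : s ∈ Ioo (0 : ℝ) 1) (h0 : 0 ≤ t) (h1 : t ≤ 1) (ψ : ℝ) :
    HasSum (fun n : ℕ => s ^ n / n * (2 * (1 - t ^ n * Real.cos (n * ψ))))
      (Real.log (nq (s * t) ψ) - Real.log (nq s 0)) := by
  have a1 := A1_log hs.1.le hs.2 0
  have a2 := A1_log (mul_nonneg hs.1.le h0) ((mul_le_of_le_one_right hs.1.le h1).trans_lt hs.2) ψ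
  have a3 := a1.sub a2
  have e : ∀ n : ℕ, s ^ n / n * (2 * Real.cos (n * 0)) - (s * t) ^ n / n * (2 * Real.cos (n * ψ)) =
      s ^ n / n * (2 * (1 - t ^ n * Real.cos (n * ψ))) := by
    intro n
    rw [mul_zero, Real.cos_zero, mul_pow]
    ring
  simp only [e] at a3
  rwa [neg_sub_neg] at a3

theorem A1_grow {V : ℤ × ℤ → ℝ} (h : RPV V) (p : ℤ × ℤ) (n : ℕ) :
    V (n • p) ≤ (2 * n ^ 2 - n) * V p := by
  induction n using Nat.strong_induction_on with
  | _ n ih =>
    have h0 := h.nonneg p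
    rcases Nat.lt_or_ge n 2 with hn | hn
    · interval_cases n
      · simp [h.zero]
      · norm_num
    · obtain ⟨k, rfl | rfl⟩ := Nat.even_or_odd' n
      · have a1 := ih k (by omega)
        have a2 := h.sub (k • p) (k • p)
        rw [← add_nsmul, ← two_mul] at a2
        have a3 : (0 : ℝ) ≤ k * V p := by positivity
        push_cast
        nlinarith
      · have a1 := ih k (by omega)
        have a4 := ih (k + 1) (by omega)
        have a2 := h.sub (k • p) ((k + 1) • p)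
        rw [← add_nsmul, ← add_assoc, ← two_mul] at a2
        have a5 : (1 : ℝ) ≤ k := by exact_mod_cast (by omega : 1 ≤ k)
        have a3 : (0 : ℝ) ≤ (k - 1) * V p := mul_nonneg (by linarith) h0
        push_cast at a4 ⊢
        nlinarith

theorem A1_dir {V : ℤ × ℤ → ℝ} (h : RPV V) {ν : Measure (ℝ × ℝ)} {A : ℝ} (hR : Rep V ν A)
    {s : ℝ} (hs : s ∈ Ioo (0 : ℝ) 1) (a : ℤ) (b : ℕ) :
    Integrable (fun m : ℝ × ℝ =>
      Real.log (nq (s * m.1 ^ b) ((2 * a + b) * m.2)) - Real.log (nq s 0)) ν ∧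
    HasSum (fun n : ℕ => s ^ n / n * (V (n * a, n * b) - A * (n * b)))
      (∫ m, (Real.log (nq (s * m.1 ^ b) ((2 * a + b) * m.2)) - Real.log (nq s 0)) ∂ν) := by
  have e : ∀ n : ℕ, ∫ m, s ^ n / n * (2 * (1 - ch (n * a) (n * b) m)) ∂ν =
      s ^ n / n * (V (n * a, n * b) - A * (n * b)) := by
    intro n
    have a1 := (hR.eq (n * a) (n * b)).2
    push_cast at a1
    rw [integral_const_mul, a1]
    ring
  have hp : ∀ n : ℕ, 0 ≤ s ^ n / n := fun n => by have := hs.1; positivity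
  have h0 : ∀ n : ℕ, ∀ᵐ m ∂ν, 0 ≤ s ^ n / n * (2 * (1 - ch (n * a) (n * b) m)) := by
    intro n
    filter_upwards [hR.supp] with m hm
    refine mul_nonneg (hp n) (mul_nonneg zero_le_two (sub_nonneg.2 ?_))
    exact (mul_le_of_le_one_right (pow_nonneg hm.1.1 _) (Real.cos_le_one _)).trans
      (pow_le_one₀ hm.1.1 hm.1.2)
  have key := A1_int (F := fun (n : ℕ) m => s ^ n / n * (2 * (1 - ch (n * a) (n * b) m)))
    (G := fun m : ℝ × ℝ => Real.log (nq (s * m.1 ^ b) ((2 * a + b) * m.2)) - Real.log (nq s 0))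
    (fun n => ((hR.eq (n * a) (n * b)).1.const_mul 2).const_mul _) h0 ?_ ?_ ?_
  · simpa only [e] using key
  · refine Summable.of_nonneg_of_le (fun n => integral_nonneg_of_ae (h0 n)) (fun n => ?_)
      ((summable_pow_mul_geometric_of_norm_lt_one 1 (r := s)
        (by rw [Real.norm_of_nonneg hs.1.le]; exact hs.2)).mul_right (2 * V (a, b)))
    rw [e]
    have a1 := A1_grow h (a, b) n
    have a2 : n • ((a, (b : ℤ)) : ℤ × ℤ) = (n * a, (n : ℤ) * b) := by simp
    rw [a2] at a1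
    have a3 : 0 ≤ A * (n * b) := mul_nonneg hR.A0 (by positivity)
    have a4 : (0 : ℝ) ≤ n * V (a, b) := mul_nonneg (by positivity) (h.nonneg _)
    have a5 : V (n * a, n * b) - A * (n * b) ≤ n * (n * (2 * V (a, b))) := by nlinarith
    refine (mul_le_mul_of_nonneg_left a5 (hp n)).trans (le_of_eq ?_)
    rcases Nat.eq_zero_or_pos n with rfl | hn
    · simp
    · have : (n : ℝ) ≠ 0 := by positivity
      field_simp
  · filter_upwards [hR.supp] with m hm
    have a1 := A1_sum hs (pow_nonneg hm.1.1 b) (pow_le_one₀ hm.1.1 hm.1.2) ((2 * a + b) * m.2)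
    have a2 : ∀ n : ℕ, (m.1 ^ b) ^ n * Real.cos (n * ((2 * a + b) * m.2)) =
        ch (n * a) (n * b) m := by
      intro n
      rw [ch, ← pow_mul, mul_comm b n]
      congr 2
      push_cast
      ring
    simpa only [a2] using a1
  · refine Measurable.aestronglyMeasurable ?_
    unfold nq
    fun_prop

theorem sumrule {V : ℤ × ℤ → ℝ} (h : RPV V) {ν : Measure (ℝ × ℝ)} {A : ℝ} (hR : Rep V ν A) :
    Ana ν := by
  refine ⟨hR.supp, hR.int, fun s hs => ?_⟩
  obtain ⟨i1, s1⟩ := A1_dir h hR hs 1 1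
  obtain ⟨i2, s2⟩ := A1_dir h hR hs 0 1
  obtain ⟨i3, s3⟩ := A1_dir h hR hs (-1) 2
  obtain ⟨i4, s4⟩ := A1_dir h hR hs 1 0
  have e : Is s = fun m : ℝ × ℝ =>
      (Real.log (nq (s * m.1 ^ 1) ((2 * (1 : ℤ) + (1 : ℕ)) * m.2)) - Real.log (nq s 0)) +
      (Real.log (nq (s * m.1 ^ 1) ((2 * (0 : ℤ) + (1 : ℕ)) * m.2)) - Real.log (nq s 0)) -
      (Real.log (nq (s * m.1 ^ 2) ((2 * (-1 : ℤ) + (2 : ℕ)) * m.2)) - Real.log (nq s 0)) -
      (Real.log (nq (s * m.1 ^ 0) ((2 * (1 : ℤ) + (0 : ℕ)) * m.2)) - Real.log (nq s 0)) := by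
    funext m
    norm_num [Is]
    ring
  rw [e]
  refine ⟨((i1.add i2).sub i3).sub i4, ?_⟩
  refine (integral_sub ((i1.add i2).sub i3) i4).trans ?_
  have j1 := integral_sub' (i1.add i2) i3
  have j2 := integral_add' i1 i2
  rw [j1, j2]
  refine (((s1.add s2).sub s3).sub s4).unique ?_
  have z : ∀ n : ℕ, s ^ n / n * (V (n * (1 : ℤ), n * (1 : ℕ)) - A * (n * (1 : ℕ))) +
      s ^ n / n * (V (n * (0 : ℤ), n * (1 : ℕ)) - A * (n * (1 : ℕ))) -
      s ^ n / n * (V (n * (-1 : ℤ), n * (2 : ℕ)) - A * (n * (2 : ℕ))) -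
      s ^ n / n * (V (n * (1 : ℤ), n * (0 : ℕ)) - A * (n * (0 : ℕ))) = 0 := by
    intro n
    have a1 := h.rot n n
    have a2 := h.rot n 0
    have b1 : ((n : ℤ) * (-1 : ℤ), (n : ℤ) * (2 : ℕ)) = (-(n : ℤ), (n : ℤ) + n) := by
      ext
      · simp
      · push_cast; ring
    rw [b1, a1]
    simp only [neg_zero, add_zero] at a2
    push_cast
    simp only [mul_one, mul_zero, a2]
    ring
  simp only [z]
  exact hasSum_zero

end Vale.Agent.P153C
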