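import Vale.Agent.P153C.A4

/-! The lemma of Fatou applied to the sum rule. -/

open MeasureTheory Filter Topology Set
open scoped InnerProductSpace ComplexConjugate

noncomputable section

namespace Vale.Agent.P153C

theorem A5_gp {m : ℝ × ℝ} (h : m ∈ Dom) : 0 ≤ gp m := by
  have h1 := h.1.1
  have h2 := h.1.2
  have h3 := Real.cos_le_one m.2
  unfold gp
  nlinarith

theorem A5_mem (k : ℕ) : 1 - 1 / ((k : ℝ) + 2) ∈ Ico (1 / 2 : ℝ) 1 := by
  have h0 : (0 : ℝ) ≤ k := Nat.cast_nonneg k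
  have h1 : 1 / ((k : ℝ) + 2) ≤ 1 / 2 := one_div_le_one_div_of_le two_pos (by linarith)
  have h2 : 0 < 1 / ((k : ℝ) + 2) := by positivity
  constructor <;> linarith

theorem A5_tend : Tendsto (fun k : ℕ => 1 - 1 / ((k : ℝ) + 2)) atTop (𝓝[<] 1) := by
  refine tendsto_nhdsWithin_iff.2 ⟨?_, Eventually.of_forall fun k => (A5_mem k).2⟩
  have h : Tendsto (fun k : ℕ => 1 / ((k : ℝ) + 2)) atTop (𝓝 0) :=
    tendsto_const_nhds.div_atTop (tendsto_atTop_add_const_right _ _ tendsto_natCast_atTop_atTop)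
  simpa using h.const_sub 1

theorem fatou {ν : Measure (ℝ × ℝ)} (h : Ana ν) : Ana2 ν := by
  obtain ⟨C, hC⟩ := Is_low
  have mg : Measurable gp := by unfold gp; fun_prop
  let g : ℕ → ℝ × ℝ → ℝ := fun k m => Is (1 - 1 / ((k : ℝ) + 2)) m + C * gp m
  have hs : ∀ k : ℕ, 1 - 1 / ((k : ℝ) + 2) ∈ Ioo (0 : ℝ) 1 := fun k =>
    ⟨by linarith [(A5_mem k).1], (A5_mem k).2⟩
  have g0 : ∀ k, ∀ m ∈ Dom, 0 ≤ g k m := fun k m hm => by
    have := hC _ (A5_mem k) m hm
    simp only [g]
    linarith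
  have gm : ∀ k, Measurable fun m => ENNReal.ofReal (g k m) := fun k =>
    ((Is_meas _).add (mg.const_mul C)).ennreal_ofReal
  have gi : ∀ k, ∫⁻ m, ENNReal.ofReal (g k m) ∂ν = ENNReal.ofReal (C * ∫ m, gp m ∂ν) := fun k => by
    rw [← ofReal_integral_eq_lintegral_ofReal (f := g k)
      ((h.sum _ (hs k)).1.add (h.int.const_mul C))
      (h.supp.mono fun m hm => g0 k m hm)]
    congr 1
    exact (integral_add (h.sum _ (hs k)).1 (h.int.const_mul C)).trans
      (by rw [(h.sum _ (hs k)).2, zero_add, integral_const_mul])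
  have hF : ∫⁻ m, liminf (fun k => ENNReal.ofReal (g k m)) atTop ∂ν ≠ ⊤ := by
    refine ne_top_of_le_ne_top (ENNReal.ofReal_ne_top (r := C * ∫ m, gp m ∂ν))
      ((lintegral_liminf_le gm).trans_eq ?_)
    simp only [gi, liminf_const]
  have hG : ∀ᵐ m ∂ν, m ∈ Good := by
    filter_upwards [h.supp, ae_lt_top (Measurable.liminf gm) hF] with m hm hl
    by_contra hg
    have h1 : Tendsto (fun k => g k m) atTop atTop :=
      tendsto_atTop_add_const_right _ _ ((Is_top hm hg).comp A5_tend)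
    exact hl.ne (ENNReal.tendsto_ofReal_atTop.comp h1).liminf_eq
  have hT : ∀ m ∈ Dom, m ∈ Good → Tendsto (fun k => g k m) atTop (𝓝 (Is 1 m + C * gp m)) :=
    fun m hm hg => ((Is_tend hm hg).comp A5_tend).add_const _
  have hI : Integrable (fun m => Is 1 m + C * gp m) ν := by
    refine (lintegral_ofReal_ne_top_iff_integrable
      ((Is_meas 1).add (mg.const_mul C)).aestronglyMeasurable ?_).1 ?_
    · filter_upwards [h.supp, hG] with m hm hg
      exact ge_of_tendsto' (hT m hm hg) fun k => g0 k m hm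
    · refine fun k => hF ((lintegral_congr_ae ?_).trans k)
      filter_upwards [h.supp, hG] with m hm hg
      exact (ENNReal.tendsto_ofReal (hT m hm hg)).liminf_eq
  have h1 : Integrable (Is 1) ν :=
    (hI.sub (h.int.const_mul C)).congr (Eventually.of_forall fun m => add_sub_cancel_right _ _)
  refine ⟨hG, h1, fun ε hε => ?_⟩
  obtain ⟨c, hc, η, hη, hoff⟩ := Is_off hε.1 hε.2
  have k1 := h.int.measure_ge_lt_top hη
  have k2 := (h1.add (h.int.const_mul 12)).measure_ge_lt_top hc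
  refine ne_top_of_le_ne_top (ENNReal.add_lt_top.2 ⟨k1, k2⟩).ne
    ((measure_mono_ae ?_).trans (measure_union_le _ _))
  filter_upwards [h.supp, hG] with m hm hg hn
  by_cases k : η ≤ gp m
  · exact .inl k
  · have := hoff m hm hg (not_le.1 k).le hn
    exact .inr (show c ≤ Is 1 m + 12 * gp m by linarith)

end Vale.Agent.P153C
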