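import Vale.Agent.P153C.A4

/-! Mass per scale. Shell bound nu (Near inter {d <= ca <= 2d}) <= B0 for all d > 0 (Is_shell, Is_low, sum; empty
for d > 1/10; exp(-d) >= 1/2). Then mn (a/delta) <= sum over k : Z of 2 * 2^(-|k|) * indicator [2^k delta, 2^(k+1) delta] a;
use lintegral_tsum; transfer to rho by lintegral_map. -/

open MeasureTheory Filter Topology Set
open scoped InnerProductSpace ComplexConjugate

noncomputable section

namespace Vale.Agent.P153C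

theorem a6_gp {m : ℝ × ℝ} (hm : m ∈ Dom) : 0 ≤ gp m := by
  have h1 := hm.1.1
  have h2 := hm.1.2
  have h3 := Real.cos_le_one m.2
  unfold gp
  nlinarith

theorem a6_shell {ν : Measure (ℝ × ℝ)} (h : Ana ν) :
    ∃ B : ENNReal, B ≠ ⊤ ∧ ∀ d > (0 : ℝ), rho ν (Icc d (2 * d)) ≤ B := by
  obtain ⟨C, hC⟩ := Is_low
  obtain ⟨c, c0, hc⟩ := Is_shell
  have c1 : ENNReal.ofReal c ≠ 0 := (ENNReal.ofReal_pos.2 c0).ne'
  refine ⟨ENNReal.ofReal (max C 12 * ∫ m, gp m ∂ν) / ENNReal.ofReal c,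
    ENNReal.div_ne_top ENNReal.ofReal_ne_top c1, fun d d0 => ?_⟩
  rw [rho, Measure.map_apply ca_meas measurableSet_Icc,
    Measure.restrict_apply (ca_meas measurableSet_Icc)]
  by_cases hd : d ≤ 1 / 10
  · have s1 : Real.exp (-d) < 1 := Real.exp_lt_one_iff.2 (by linarith)
    have s2 : 1 / 2 ≤ Real.exp (-d) := by linarith [Real.add_one_le_exp (-d)]
    obtain ⟨i1, i2⟩ := h.sum _ ⟨Real.exp_pos _, s1⟩
    have i3 := h.int.const_mul (max C 12)
    have g0 : 0 ≤ᵐ[ν] fun m => Is (Real.exp (-d)) m + max C 12 * gp m := by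
      filter_upwards [h.supp] with m hm
      have a1 := hC _ ⟨s2, s1⟩ m hm
      have a2 := mul_le_mul_of_nonneg_right (le_max_left C 12) (a6_gp hm)
      change (0 : ℝ) ≤ _
      linarith
    have e : max C 12 * ∫ m, gp m ∂ν = ∫ m, (Is (Real.exp (-d)) m + max C 12 * gp m) ∂ν := by
      rw [integral_add i1 i3, i2, zero_add, integral_const_mul]
    have i4 : Integrable (fun m => Is (Real.exp (-d)) m + max C 12 * gp m) ν := i1.add i3
    rw [e, ofReal_integral_eq_lintegral_ofReal i4 g0]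
    refine le_trans (measure_mono_ae ?_) (meas_ge_le_lintegral_div
      i4.aemeasurable.ennreal_ofReal c1 ENNReal.ofReal_ne_top)
    filter_upwards [h.supp] with m hm k
    have a1 := hc d ⟨d0, hd⟩ m k.2 k.1.1 k.1.2
    have a2 := mul_le_mul_of_nonneg_right (le_max_right C 12) (a6_gp hm)
    refine ENNReal.ofReal_le_ofReal ?_
    change c ≤ Is (Real.exp (-d)) m + max C 12 * gp m
    linarith
  · have : ca ⁻¹' Icc d (2 * d) ∩ Near = ∅ :=
      eq_empty_of_forall_notMem fun m k => hd (k.1.1.trans k.2.2.2.1)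
    rw [this, measure_empty]
    exact zero_le

theorem a6_pt {δ a : ℝ} (hδ : 0 < δ) (ha : 0 < a) : ∃ k : ℕ, mn (a / δ) ≤ 2⁻¹ ^ k ∧
    (a ∈ Icc (2 ^ k * δ) (2 * (2 ^ k * δ)) ∨
      a ∈ Icc (2⁻¹ ^ (k + 1) * δ) (2 * (2⁻¹ ^ (k + 1) * δ))) := by
  have x0 := div_pos ha hδ
  rcases le_total 1 (a / δ) with hx | hx
  · obtain ⟨k, k1, k2⟩ := exists_nat_pow_near hx (one_lt_two (α := ℝ))
    refine ⟨k, (min_le_right _ _).trans ?_, Or.inl ⟨(le_div_iff₀ hδ).1 k1, ?_⟩⟩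
    · rw [inv_pow]
      exact inv_anti₀ (by positivity) k1
    · have := (div_lt_iff₀ hδ).1 k2
      rw [pow_succ] at this
      linarith
  · obtain ⟨k, k1, k2⟩ := exists_nat_pow_near_of_lt_one x0 hx (y := (2⁻¹ : ℝ)) (by norm_num)
      (by norm_num)
    refine ⟨k, (min_le_left _ _).trans k2, Or.inr ⟨(le_div_iff₀ hδ).1 k1.le, ?_⟩⟩
    have := (div_le_iff₀ hδ).1 k2
    rw [pow_succ]
    linarith

theorem a6_lint {ρ : Measure ℝ} {B : ENNReal} (h0 : ∀ᵐ a ∂ρ, 0 < a)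
    (h : ∀ d > (0 : ℝ), ρ (Icc d (2 * d)) ≤ B) {δ : ℝ} (hδ : 0 < δ) :
    ∫⁻ a, ENNReal.ofReal (mn (a / δ)) ∂ρ ≤ 2 * (B + B) := by
  set S : ℕ → Set ℝ := fun k => Icc (2 ^ k * δ) (2 * (2 ^ k * δ)) ∪
    Icc (2⁻¹ ^ (k + 1) * δ) (2 * (2⁻¹ ^ (k + 1) * δ)) with hS
  have hm : ∀ k, MeasurableSet (S k) := fun k => measurableSet_Icc.union measurableSet_Icc
  calc ∫⁻ a, ENNReal.ofReal (mn (a / δ)) ∂ρ
      ≤ ∫⁻ a, ∑' k : ℕ, (S k).indicator (fun _ => (2⁻¹ : ENNReal) ^ k) a ∂ρ := by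
        refine lintegral_mono_ae (h0.mono fun a ha => ?_)
        obtain ⟨k, k1, k2⟩ := a6_pt hδ ha
        refine le_trans ?_ (ENNReal.le_tsum k)
        rw [indicator_of_mem (show a ∈ S k from k2)]
        refine (ENNReal.ofReal_le_ofReal k1).trans_eq ?_
        rw [ENNReal.ofReal_pow (by norm_num), ENNReal.ofReal_inv_of_pos two_pos,
          ENNReal.ofReal_ofNat]
    _ = ∑' k : ℕ, (2⁻¹ : ENNReal) ^ k * ρ (S k) := by
        rw [lintegral_tsum fun k => (measurable_const.indicator (hm k)).aemeasurable]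
        exact tsum_congr fun k => lintegral_indicator_const (hm k) _
    _ ≤ ∑' k : ℕ, (2⁻¹ : ENNReal) ^ k * (B + B) :=
        ENNReal.tsum_le_tsum fun k => mul_le_mul_right ((measure_union_le _ _).trans
          (add_le_add (h _ (by positivity)) (h _ (by positivity)))) _
    _ = 2 * (B + B) := by rw [ENNReal.tsum_mul_right, ENNReal.tsum_geometric_two]

theorem mass {ν : Measure (ℝ × ℝ)} (h : Ana ν) : ∃ B, Mass (rho ν) B := by
  obtain ⟨B, B0, hB⟩ := a6_shell h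
  have h0 : ∀ᵐ a ∂rho ν, 0 < a :=
    (ae_map_iff ca_meas.aemeasurable measurableSet_Ioi).2
      ((ae_restrict_iff' (cone_meas _)).2 (Eventually.of_forall fun m hm => hm.2.1))
  have hT : 2 * (B + B) ≠ ⊤ := ENNReal.mul_ne_top ENNReal.ofNat_ne_top (ENNReal.add_ne_top.2 ⟨B0, B0⟩)
  refine ⟨(2 * (B + B)).toReal, h0, fun δ hδ => ?_⟩
  have h1 := a6_lint h0 hB hδ
  have h2 : AEStronglyMeasurable (fun a => mn (a / δ)) (rho ν) :=
    (show Measurable fun a : ℝ => mn (a / δ) by unfold mn; fun_prop).aestronglyMeasurable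
  have h3 : 0 ≤ᵐ[rho ν] fun a => mn (a / δ) := h0.mono fun a ha =>
    le_min (div_pos ha hδ).le (inv_pos.2 (div_pos ha hδ)).le
  refine ⟨(lintegral_ofReal_ne_top_iff_integrable h2 h3).1 (ne_top_of_le_ne_top hT h1), ?_⟩
  rw [integral_eq_lintegral_of_nonneg_ae h3 h2]
  exact ENNReal.toReal_mono hT h1

end Vale.Agent.P153C
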