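import Vale.Agent.P153C.Defs

/-! No linear term. A n <= V(0,n) = V(n,0) = int 2(1 - cos(2 n phi)); divide by n: dominated by 4 off Near (finite
measure) and by 4|phi| <= C gp on Near (1 - cos t <= |t|, |phi| <= ca, ca <= C (1-r) <= C gp); pointwise limit 0. -/

open MeasureTheory Filter Topology Set
open scoped InnerProductSpace ComplexConjugate

noncomputable section

namespace Vale.Agent.P153C

theorem a7_near {m : ℝ × ℝ} (hm : m ∈ Near) : 4 * |m.2| ≤ 7 * gp m := by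
  obtain ⟨h0, h1, h2, h3⟩ := hm
  have s1 : (1 : ℝ) ≤ √3 := Real.one_le_sqrt.2 (by norm_num)
  have s2 : √3 ≤ (2 : ℝ) := Real.sqrt_le_iff.2 (by norm_num)
  have c1 : (1 : ℝ) ≤ 2 / √3 := (one_le_div (by positivity)).2 s2
  have c2 : 2 / √3 ≤ (2 : ℝ) := div_le_self (by norm_num) s1
  obtain ⟨L, hL⟩ : ∃ L, Real.log m.1 = -L := ⟨_, (neg_neg _).symm⟩
  have e : ca m = 2 / √3 * L := by
    unfold ca
    rw [hL]
    ring
  have l1 := Real.add_one_le_exp (Real.log m.1)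
  have l2 := mul_le_mul_of_nonneg_left (Real.one_sub_inv_le_log_of_pos h0) h0.le
  rw [mul_sub, mul_inv_cancel₀ h0.ne', mul_one, hL] at l2
  rw [Real.exp_log h0, hL] at l1
  have hL0 : 0 < L := (mul_pos_iff_of_pos_left (zero_lt_one.trans_le c1)).1 (e ▸ h1)
  have a1 : L ≤ ca m := e ▸ le_mul_of_one_le_left hL0.le c1
  have a2 : ca m ≤ 2 * L := e ▸ mul_le_mul_of_nonneg_right c2 hL0.le
  have a3 : 9 / 10 * L ≤ m.1 * L := mul_le_mul_of_nonneg_right (by linarith) hL0.le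
  have a4 : m.1 * Real.cos m.2 ≤ m.1 := mul_le_of_le_one_right h0.le (Real.cos_le_one _)
  have a5 := (abs_le.1 h3).2
  unfold gp
  linarith

theorem a7_ch {m : ℝ × ℝ} (hm : m ∈ Dom) (x : ℤ) (y : ℕ) : ch x y m ≤ 1 :=
  (mul_le_of_le_one_right (pow_nonneg hm.1.1 _) (Real.cos_le_one _)).trans
    (pow_le_one₀ hm.1.1 hm.1.2)

theorem a7_abs (n : ℕ) (m : ℝ × ℝ) : 0 ≤ 1 - ch n 0 m ∧ 1 - ch n 0 m ≤ 2 ∧
    1 - ch n 0 m ≤ n * (2 * |m.2|) := by
  have e : ch n 0 m = Real.cos (2 * n * m.2) := by simp [ch]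
  have h1 := Real.cos_le_one (2 * n * m.2)
  have h2 := Real.neg_one_le_cos (2 * n * m.2)
  have h3 := (abs_le.1 (Real.abs_cos_sub_cos_le 0 (2 * n * m.2))).2
  rw [Real.cos_zero, zero_sub, abs_neg, abs_mul, abs_of_nonneg (by positivity : (0 : ℝ) ≤ 2 * n)]
    at h3
  rw [e]
  exact ⟨by linarith, by linarith, by linarith⟩

theorem lin_zero {V : ℤ × ℤ → ℝ} (h : RPV V) {ν : Measure (ℝ × ℝ)} {A : ℝ} (hR : Rep V ν A)
    (h2 : Ana2 ν) : A = 0 := by
  have hle : ∀ n : ℕ, A ≤ ∫ m, 2 * (1 - ch (n + 1 : ℕ) 0 m) / ((n + 1 : ℕ) : ℝ) ∂ν := fun n => by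
    have e1 := (hR.eq 0 (n + 1)).2
    have e2 := (hR.eq (n + 1 : ℕ) 0).2
    have e3 := h.rot (n + 1 : ℕ) 0
    have e4 : 0 ≤ ∫ m, 2 * (1 - ch 0 (n + 1) m) ∂ν :=
      integral_nonneg_of_ae (hR.supp.mono fun m hm =>
        mul_nonneg zero_le_two (sub_nonneg.2 (a7_ch hm _ _)))
    rw [neg_zero, add_zero] at e3
    rw [Nat.cast_zero, Nat.cast_zero, mul_zero, zero_add] at e2
    rw [integral_div, le_div_iff₀ (by positivity), ← e2, ← e3, e1]
    linarith
  have hN : MeasurableSet (Near)ᶜ := (cone_meas _).compl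
  have hb : Integrable (fun m => (Near)ᶜ.indicator (fun _ => (4 : ℝ)) m + 7 * |gp m|) ν :=
    ((integrable_indicator_iff hN).2
      (integrableOn_const (h2.fin (1 / 10) ⟨by norm_num, le_rfl⟩))).add (hR.int.abs.const_mul 7)
  have ht := tendsto_integral_of_dominated_convergence (μ := ν)
    (F := fun (n : ℕ) m => 2 * (1 - ch (n + 1 : ℕ) 0 m) / ((n + 1 : ℕ) : ℝ)) (f := fun _ => 0) _
    (fun n => (((hR.eq (n + 1 : ℕ) 0).1.const_mul 2).div_const _).aestronglyMeasurable) hb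
    (fun n => Eventually.of_forall fun m => ?_) (Eventually.of_forall fun m => ?_)
  · rw [integral_zero] at ht
    exact le_antisymm (ge_of_tendsto' ht hle) hR.A0
  · obtain ⟨b1, b2, b3⟩ := a7_abs (n + 1) m
    have hn : (1 : ℝ) ≤ ((n + 1 : ℕ) : ℝ) := by exact_mod_cast Nat.le_add_left 1 n
    rw [Real.norm_eq_abs, abs_of_nonneg (by positivity), div_le_iff₀ (by positivity)]
    by_cases hm : m ∈ Near
    · rw [indicator_of_notMem (not_not.2 hm), zero_add]
      have b4 := mul_le_mul_of_nonneg_left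
        ((a7_near hm).trans (mul_le_mul_of_nonneg_left (le_abs_self _) (by norm_num)))
        (zero_le_one.trans hn)
      linarith
    · rw [indicator_of_mem (show m ∈ (Near)ᶜ from hm)]
      have b4 : 0 ≤ 7 * |gp m| * ((n + 1 : ℕ) : ℝ) := by positivity
      linarith
  · refine squeeze_zero (g := fun n : ℕ => 4 / ((n + 1 : ℕ) : ℝ)) (fun n => ?_) (fun n => ?_)
      ((tendsto_const_div_atTop_nhds_zero_nat 4).comp (tendsto_add_atTop_nat 1))
    · have := (a7_abs (n + 1) m).1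
      positivity
    · have := (a7_abs (n + 1) m).2.1
      gcongr
      linarith

end Vale.Agent.P153C
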