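import Vale.Agent.P153C.Defs

/-! The comparison function. x exp(-x) <= mn x; |exp(-x) - exp(i x z)| <= C(z) mn x.
hasDerivAt_integral_of_dominated_loc_of_deriv_le; norm bound: (1/y) int t exp(-t), t = a/(delta/y). -/

open MeasureTheory Filter Topology Set
open scoped InnerProductSpace ComplexConjugate

noncomputable section

namespace Vale.Agent.P153C

theorem b1_xe {x : ℝ} (hx : 0 < x) : x * Real.exp (-x) ≤ mn x := by
  refine le_min (mul_le_of_le_one_right hx.le (Real.exp_le_one_iff.2 (by linarith))) ?_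
  have h1 := Real.quadratic_le_exp_of_nonneg (x := x / 2) (by positivity)
  have h2 : x ≤ Real.exp (x / 2) := by nlinarith [sq_nonneg (x - 2)]
  have h3 : x * x ≤ Real.exp x := by
    have e : Real.exp x = Real.exp (x / 2) * Real.exp (x / 2) := by
      rw [← Real.exp_add, add_halves]
    rw [e]
    exact mul_self_le_mul_self hx.le h2
  rw [Real.exp_neg, ← div_eq_mul_inv, div_le_iff₀ (Real.exp_pos _), ← div_eq_inv_mul,
    le_div_iff₀ hx]
  exact h3

theorem b1_sub_one {w : ℂ} (hw : w.re ≤ 0) : ‖Complex.exp w - 1‖ ≤ 2 * ‖w‖ := by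
  rcases le_total ‖w‖ 1 with h | h
  · exact Complex.norm_exp_sub_one_le h
  · have h1 : ‖Complex.exp w‖ ≤ 1 := by
      rw [Complex.norm_exp]
      exact Real.exp_le_one_iff.2 hw
    have h2 := norm_sub_le (Complex.exp w) 1
    rw [norm_one] at h2
    linarith

theorem b1_inv {x : ℝ} (hx : 0 < x) : Real.exp (-x) ≤ x⁻¹ := by
  rw [Real.exp_neg]
  exact inv_anti₀ hx (by linarith [Real.add_one_le_exp x])

theorem b1_nexp (x : ℝ) (z : ℂ) :
    ‖Complex.exp (Complex.I * x * z)‖ = Real.exp (-(x * z.im)) := by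
  rw [Complex.norm_exp]
  simp

theorem b1_diff {x : ℝ} (hx : 0 < x) {z : ℂ} (hz : 0 < z.im) :
    ‖Complex.exp (-(x : ℝ)) - Complex.exp (Complex.I * x * z)‖ ≤
      (2 + 2 * ‖z‖ + z.im⁻¹) * mn x := by
  have hn := norm_nonneg z
  have hi : 0 < z.im⁻¹ := inv_pos.2 hz
  unfold mn
  rw [mul_min_of_nonneg _ _ (by positivity)]
  refine le_min ?_ ?_
  · have h1 := b1_sub_one (w := -(x : ℂ)) (by simpa using hx.le)
    have h2 := b1_sub_one (w := Complex.I * x * z) (by simpa using (mul_pos hx hz).le)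
    have h3 := norm_sub_le (Complex.exp (-(x : ℂ)) - 1) (Complex.exp (Complex.I * x * z) - 1)
    rw [sub_sub_sub_cancel_right] at h3
    simp only [norm_neg, norm_mul, Complex.norm_I, Complex.norm_real, Real.norm_eq_abs,
      abs_of_pos hx, one_mul] at h1 h2
    nlinarith [mul_pos hi hx]
  · have h1 : ‖Complex.exp (-(x : ℂ))‖ ≤ x⁻¹ := by
      rw [Complex.norm_exp]
      simpa using b1_inv hx
    have h2 : ‖Complex.exp (Complex.I * x * z)‖ ≤ x⁻¹ * z.im⁻¹ := by
      rw [b1_nexp, ← mul_inv]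
      exact b1_inv (mul_pos hx hz)
    have h3 := norm_sub_le (Complex.exp (-(x : ℂ))) (Complex.exp (Complex.I * x * z))
    have h4 : 0 < x⁻¹ := inv_pos.2 hx
    nlinarith [mul_nonneg hn h4.le]

theorem b1_norm {a δ y : ℝ} (ha : 0 < a) (hδ : 0 < δ) (hy : 0 < y) {w : ℂ} (hw : y ≤ w.im) :
    ‖-(Complex.I * (a / δ : ℝ)) * Complex.exp (Complex.I * (a / δ : ℝ) * w)‖ ≤
      y⁻¹ * mn (a / (δ / y)) := by
  have hx : 0 < a / δ := div_pos ha hδ
  have e : a / (δ / y) = a / δ * y := by field_simp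
  rw [norm_mul, b1_nexp, norm_neg, norm_mul, Complex.norm_I, one_mul, Complex.norm_real,
    Real.norm_eq_abs, abs_of_pos hx, e]
  refine le_trans ?_ (mul_le_mul_of_nonneg_left (b1_xe (mul_pos hx hy)) (inv_pos.2 hy).le)
  have e2 : y⁻¹ * (a / δ * y * Real.exp (-(a / δ * y))) = a / δ * Real.exp (-(a / δ * y)) := by
    field_simp
  rw [e2]
  exact mul_le_mul_of_nonneg_left (Real.exp_le_exp.2
    (neg_le_neg (mul_le_mul_of_nonneg_left hw hx.le))) hx.le

theorem F_int {ρ : Measure ℝ} {B δ : ℝ} (h : Mass ρ B) (hδ : 0 < δ) {z : ℂ} (hz : 0 < z.im) :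
    Integrable (fun a : ℝ => Complex.exp (-(a / δ : ℝ)) -
      Complex.exp (Complex.I * (a / δ : ℝ) * z)) ρ := by
  refine ((h.le δ hδ).1.const_mul (2 + 2 * ‖z‖ + z.im⁻¹)).mono'
    (Continuous.aestronglyMeasurable (by fun_prop)) ?_
  filter_upwards [h.pos] with a ha
  exact b1_diff (div_pos ha hδ) hz

theorem F_deriv {ρ : Measure ℝ} {B δ : ℝ} (h : Mass ρ B) (hδ : 0 < δ) {z : ℂ} (hz : 0 < z.im) :
    HasDerivAt (F ρ δ) (F1 ρ δ z) z ∧ ‖F1 ρ δ z‖ ≤ B / z.im := by
  refine ⟨?_, ?_⟩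
  · have hy : 0 < z.im / 2 := by positivity
    have hs : {w : ℂ | z.im / 2 < w.im} ∈ 𝓝 z :=
      (isOpen_lt continuous_const Complex.continuous_im).mem_nhds (by
        show z.im / 2 < z.im
        linarith)
    refine (hasDerivAt_integral_of_dominated_loc_of_deriv_le
      (F := fun (w : ℂ) (a : ℝ) => Complex.exp (-(a / δ : ℝ)) -
        Complex.exp (Complex.I * (a / δ : ℝ) * w))
      (F' := fun (w : ℂ) (a : ℝ) => -(Complex.I * (a / δ : ℝ)) *
        Complex.exp (Complex.I * (a / δ : ℝ) * w))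
      (bound := fun a => (z.im / 2)⁻¹ * mn (a / (δ / (z.im / 2)))) hs
      (Eventually.of_forall fun w => Continuous.aestronglyMeasurable (by fun_prop))
      (F_int h hδ hz) (Continuous.aestronglyMeasurable (by fun_prop)) ?_
      ((h.le _ (div_pos hδ hy)).1.const_mul _) ?_).2
    · filter_upwards [h.pos] with a ha w hw
      exact b1_norm ha hδ hy (le_of_lt hw)
    · refine Eventually.of_forall fun a w _ => ?_
      have h1 := (((hasDerivAt_id w).const_mul (Complex.I * (a / δ : ℝ))).cexp).const_sub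
        (Complex.exp (-(a / δ : ℝ)))
      refine h1.congr_deriv ?_
      simp only [id]
      ring
  · have h1 := h.le _ (div_pos hδ hz)
    refine (norm_integral_le_of_norm_le (h1.1.const_mul z.im⁻¹) ?_).trans ?_
    · filter_upwards [h.pos] with a ha
      exact b1_norm ha hδ hz le_rfl
    · rw [integral_const_mul, div_eq_inv_mul B]
      exact mul_le_mul_of_nonneg_left h1.2 (inv_pos.2 hz).le

theorem F_I (ρ : Measure ℝ) (δ : ℝ) : F ρ δ Complex.I = 0 := by
  unfold F
  refine integral_eq_zero_of_ae (Eventually.of_forall fun a => ?_)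
  have e : Complex.I * (a / δ : ℝ) * Complex.I = -(a / δ : ℝ) := by
    linear_combination ((a / δ : ℝ) : ℂ) * Complex.I_mul_I
  simp only [e, sub_self, Pi.zero_apply]

theorem F1_I (ρ : Measure ℝ) (δ t : ℝ) : (t * Complex.I) * F1 ρ δ (t * Complex.I) =
    ((t * ∫ a, a / δ * Real.exp (-(t * (a / δ))) ∂ρ : ℝ) : ℂ) := by
  unfold F1
  rw [← integral_const_mul, ← integral_const_mul, ← integral_complex_ofReal]
  refine integral_congr_ae (Eventually.of_forall fun a => ?_)
  have e : Complex.I * (a / δ : ℝ) * (t * Complex.I) = ((-(t * (a / δ)) : ℝ) : ℂ) := by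
    rw [Complex.ofReal_neg, Complex.ofReal_mul]
    linear_combination (t * (a / δ : ℝ) : ℂ) * Complex.I_mul_I
  simp only [e, Complex.ofReal_mul, Complex.ofReal_exp]
  linear_combination (-(t * (a / δ : ℝ) : ℂ) * Complex.exp ((-(t * (a / δ)) : ℝ) : ℂ)) *
    Complex.I_mul_I

theorem cf_le {ρ : Measure ℝ} {B δ : ℝ} (h : Mass ρ B) (hδ : 0 < δ) :
    0 ≤ cf ρ δ ∧ cf ρ δ ≤ B := by
  have h0 : 0 ≤ᵐ[ρ] fun a => a / δ * Real.exp (-(a / δ)) := by
    filter_upwards [h.pos] with a ha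
    have := div_pos ha hδ
    show (0 : ℝ) ≤ _
    positivity
  refine ⟨integral_nonneg_of_ae h0, (integral_mono_of_nonneg h0 (h.le δ hδ).1 ?_).trans
    (h.le δ hδ).2⟩
  filter_upwards [h.pos] with a ha
  exact b1_xe (div_pos ha hδ)

end Vale.Agent.P153C
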