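import Vale.Agent.P153C.Defs

/-! Far and near modes. -/

open MeasureTheory Filter Topology Set
open scoped InnerProductSpace ComplexConjugate

noncomputable section

namespace Vale.Agent.P153C

theorem d1_cos {φ : ℝ} (h : Real.cos (3 * φ) = 1) (k : ℤ) :
    Real.cos (k * φ) = if (3 : ℤ) ∣ k then 1 else Real.cos φ := by
  obtain ⟨n, hn⟩ := (Real.cos_eq_one_iff _).1 h
  have key : ∀ q : ℤ, ∀ t : ℝ, Real.cos (((3 * q : ℤ) : ℝ) * φ + t) = Real.cos t := by
    intro q t
    have e : ((3 * q : ℤ) : ℝ) * φ + t = t + ((q * n : ℤ) : ℝ) * (2 * Real.pi) := by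
      push_cast
      linear_combination (-(q : ℝ)) * hn
    rw [e, Real.cos_add_int_mul_two_pi]
  have h3 : k % 3 = 0 ∨ k % 3 = 1 ∨ k % 3 = 2 := by omega
  rcases h3 with h0 | h1 | h2
  · have hd : (3 : ℤ) ∣ k := by omega
    rw [if_pos hd]
    have e : k = 3 * (k / 3) := by omega
    have := key (k / 3) 0
    rw [← e, add_zero, Real.cos_zero] at this
    exact this
  · have hd : ¬ (3 : ℤ) ∣ k := by omega
    rw [if_neg hd]
    have e : k = 3 * (k / 3) + 1 := by omega
    have := key (k / 3) φ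
    rw [← this]
    congr 1
    conv_lhs => rw [e]
    push_cast
    ring
  · have hd : ¬ (3 : ℤ) ∣ k := by omega
    rw [if_neg hd]
    have e : k = 3 * (k / 3 + 1) - 1 := by omega
    have := key (k / 3 + 1) (-φ)
    rw [Real.cos_neg] at this
    rw [← this]
    congr 1
    conv_lhs => rw [e]
    push_cast
    ring

theorem d1_ch_meas (x : ℤ) (y : ℕ) : Measurable (ch x y) := by
  unfold ch
  fun_prop

theorem d1_ch_le (x : ℤ) (y : ℕ) {m : ℝ × ℝ} (h0 : 0 ≤ m.1) : |ch x y m| ≤ m.1 ^ y := by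
  unfold ch
  rw [abs_mul, abs_of_nonneg (pow_nonneg h0 _)]
  exact mul_le_of_le_one_right (pow_nonneg h0 _) (Real.abs_cos_le_one _)

theorem d1_ch_one (x : ℤ) (y : ℕ) {m : ℝ × ℝ} (h1 : m.1 = 1) (h : Real.cos (3 * m.2) = 1) :
    ch x y m = if (3 : ℤ) ∣ x - y then 1 else Real.cos m.2 := by
  unfold ch
  have e := d1_cos h (2 * x + y)
  push_cast at e
  rw [h1, one_pow, one_mul, e]
  have : (3 : ℤ) ∣ 2 * x + y ↔ (3 : ℤ) ∣ x - y := by omega
  simp only [this]

theorem far {ν : Measure (ℝ × ℝ)} (h : Ana ν) (h2 : Ana2 ν) {ι : Type} {l : Filter ι}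
    [l.IsCountablyGenerated] {x x' : ι → ℤ} {y y' : ι → ℕ} (hy : Tendsto y l atTop)
    (hy' : Tendsto y' l atTop) (hc : ∀ i, (3 : ℤ) ∣ x i - y i ↔ (3 : ℤ) ∣ x' i - y' i) :
    Tendsto (fun i => ∫ m in Nearᶜ, (ch (x i) (y i) m - ch (x' i) (y' i) m) ∂ν) l (𝓝 0) := by
  have hfin : ν Nearᶜ ≠ ⊤ := h2.fin (1 / 10) ⟨by norm_num, le_rfl⟩
  haveI : IsFiniteMeasure (ν.restrict Nearᶜ) := isFiniteMeasure_restrict.2 hfin
  have key := tendsto_integral_filter_of_dominated_convergence (μ := ν.restrict Nearᶜ) (l := l)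
    (F := fun i m => ch (x i) (y i) m - ch (x' i) (y' i) m) (f := fun _ => (0 : ℝ))
    (fun _ => (2 : ℝ))
    (Eventually.of_forall fun i =>
      ((d1_ch_meas _ _).sub (d1_ch_meas _ _)).aestronglyMeasurable)
    (Eventually.of_forall fun i => by
      filter_upwards [ae_restrict_of_ae h.supp] with m hm
      have a1 := d1_ch_le (x i) (y i) hm.1.1
      have a2 := d1_ch_le (x' i) (y' i) hm.1.1
      have b1 : m.1 ^ y i ≤ 1 := pow_le_one₀ hm.1.1 hm.1.2
      have b2 : m.1 ^ y' i ≤ 1 := pow_le_one₀ hm.1.1 hm.1.2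
      rw [Real.norm_eq_abs]
      have := abs_sub (ch (x i) (y i) m) (ch (x' i) (y' i) m)
      linarith)
    (integrable_const _)
    (by
      filter_upwards [ae_restrict_of_ae h.supp, ae_restrict_of_ae h2.good] with m hm hg
      rcases hg with ⟨hr, -⟩ | ⟨hr, hcos⟩
      · have t0 := tendsto_pow_atTop_nhds_zero_of_lt_one hm.1.1 hr
        have t1 : Tendsto (fun i => ch (x i) (y i) m) l (𝓝 0) :=
          squeeze_zero_norm (fun i => d1_ch_le _ _ hm.1.1) (t0.comp hy)
        have t2 : Tendsto (fun i => ch (x' i) (y' i) m) l (𝓝 0) :=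
          squeeze_zero_norm (fun i => d1_ch_le _ _ hm.1.1) (t0.comp hy')
        simpa using t1.sub t2
      · have e : ∀ i, ch (x i) (y i) m - ch (x' i) (y' i) m = 0 := fun i => by
          rw [d1_ch_one _ _ hr hcos, d1_ch_one _ _ hr hcos]
          simp only [hc i, sub_self]
        simp only [e]
        exact tendsto_const_nhds)
  simpa using key

/-- The difference of the two characters. -/
def d1D (x : ℤ) (y : ℕ) (m : ℝ × ℝ) : ℝ :=
  ch x y m - (Complex.exp (Complex.I * ca m * pos (x, y))).re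

theorem d1D_meas (x : ℤ) (y : ℕ) : Measurable (d1D x y) := by
  have h := ca_meas
  have h1 : Measurable fun m : ℝ × ℝ => Complex.I * (ca m : ℂ) * pos (x, y) :=
    ((Complex.measurable_ofReal.comp h).const_mul _).mul_const _
  exact (d1_ch_meas x y).sub (Complex.measurable_re.comp (Complex.measurable_exp.comp h1))

theorem d1D_eq (x : ℤ) (y : ℕ) {m : ℝ × ℝ} (h0 : 0 < m.1) :
    d1D x y m = Real.exp (-(ca m * (pos (x, y)).im)) *
      (Real.cos (2 * |m.2| * (pos (x, y)).re) - Real.cos (ca m * (pos (x, y)).re)) := by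
  have s3 : (√3 : ℝ) ≠ 0 := by positivity
  have e1 : m.1 ^ y = Real.exp (-(ca m * (pos (x, y)).im)) := by
    have : -(ca m * (pos (x, y)).im) = y * Real.log m.1 := by
      unfold ca pos
      simp only [Int.cast_natCast]
      field_simp
    rw [this, Real.exp_nat_mul, Real.exp_log h0]
  have e2 : Real.cos ((2 * x + y) * m.2) = Real.cos (2 * |m.2| * (pos (x, y)).re) := by
    have e : (pos (x, y)).re = x + y / 2 := by
      unfold pos
      simp only [Int.cast_natCast]
    rw [e]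
    rcases abs_cases m.2 with ⟨h, -⟩ | ⟨h, -⟩
    · rw [h]
      congr 1
      ring
    · rw [h, ← Real.cos_neg]
      congr 1
      ring
  have e3 : (Complex.exp (Complex.I * ca m * pos (x, y))).re =
      Real.exp (-(ca m * (pos (x, y)).im)) * Real.cos (ca m * (pos (x, y)).re) := by
    rw [Complex.exp_re]
    simp
  unfold d1D ch
  rw [e1, e2, e3]
  ring

theorem d1D_le2 (x : ℤ) (y : ℕ) {m : ℝ × ℝ} (h0 : 0 < m.1) :
    |d1D x y m| ≤ 2 * Real.exp (-(ca m * (pos (x, y)).im)) := by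
  rw [d1D_eq x y h0, abs_mul, abs_of_pos (Real.exp_pos _), mul_comm]
  refine mul_le_mul_of_nonneg_right ?_ (Real.exp_pos _).le
  have a1 := Real.abs_cos_le_one (2 * |m.2| * (pos (x, y)).re)
  have a2 := Real.abs_cos_le_one (ca m * (pos (x, y)).re)
  have := abs_sub (Real.cos (2 * |m.2| * (pos (x, y)).re)) (Real.cos (ca m * (pos (x, y)).re))
  linarith

theorem d1_mn {t : ℝ} (ht : 0 < t) : t * Real.exp (-t) ≤ 2 * mn t := by
  have h1 := Real.quadratic_le_exp_of_nonneg ht.le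
  have h2 : Real.exp (-t) * Real.exp t = 1 := by rw [← Real.exp_add]; simp
  have h3 := Real.exp_pos (-t)
  have h4 : Real.exp (-t) ≤ 1 := by nlinarith [Real.exp_pos t]
  unfold mn
  rcases le_total t t⁻¹ with h | h
  · rw [min_eq_left h]
    nlinarith
  · rw [min_eq_right h, ← div_eq_mul_inv, le_div_iff₀ ht]
    nlinarith

theorem d1D_le {x : ℤ} {y : ℕ} {m : ℝ × ℝ} {ε L : ℝ} (hε : 0 ≤ ε) (hm : m ∈ Cone ε)
    (hY : 0 < (pos (x, y)).im) (hL : |(pos (x, y)).re| ≤ L * (pos (x, y)).im) :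
    |d1D x y m| ≤ 2 * ε * |L| * mn (ca m / ((pos (x, y)).im)⁻¹) := by
  obtain ⟨h0, ha, -, hc⟩ := hm
  rw [d1D_eq x y h0, abs_mul, abs_of_pos (Real.exp_pos _), div_inv_eq_mul]
  set X := (pos (x, y)).re
  set Y := (pos (x, y)).im
  have b1 := Real.abs_cos_sub_cos_le (2 * |m.2| * X) (ca m * X)
  rw [← sub_mul, abs_mul] at b1
  have b2 : |X| ≤ |L| * Y := hL.trans (mul_le_mul_of_nonneg_right (le_abs_self L) hY.le)
  have b3 : |2 * |m.2| - ca m| * |X| ≤ ε * ca m * (|L| * Y) :=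
    mul_le_mul hc b2 (abs_nonneg _) (by positivity)
  have b4 := d1_mn (mul_pos ha hY)
  have b5 : 0 ≤ ε * |L| := by positivity
  calc Real.exp (-(ca m * Y)) * |Real.cos (2 * |m.2| * X) - Real.cos (ca m * X)|
      ≤ Real.exp (-(ca m * Y)) * (ε * ca m * (|L| * Y)) :=
        mul_le_mul_of_nonneg_left (b1.trans b3) (Real.exp_pos _).le
    _ = ε * |L| * (ca m * Y * Real.exp (-(ca m * Y))) := by ring
    _ ≤ ε * |L| * (2 * mn (ca m * Y)) := mul_le_mul_of_nonneg_left b4 b5
    _ = 2 * ε * |L| * mn (ca m * Y) := by ring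

theorem d1_mass {ν : Measure (ℝ × ℝ)} {B : ℝ} (hm : Mass (rho ν) B) {δ : ℝ} (hδ : 0 < δ) :
    IntegrableOn (fun m => mn (ca m / δ)) Near ν ∧ ∫ m in Near, mn (ca m / δ) ∂ν ≤ B := by
  obtain ⟨h1, h2⟩ := hm.le δ hδ
  unfold rho at h1 h2
  refine ⟨h1.comp_measurable ca_meas, ?_⟩
  rwa [integral_map ca_meas.aemeasurable h1.aestronglyMeasurable] at h2

theorem d1_im {ι : Type} {l : Filter ι} {x : ι → ℤ} {y : ι → ℕ} (hy : Tendsto y l atTop) :
    Tendsto (fun i => (pos (x i, y i)).im) l atTop := by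
  have e : ∀ i, (pos (x i, y i)).im = (y i : ℝ) * (√3 / 2) := fun i => by
    unfold pos
    simp only [Int.cast_natCast]
    ring
  simp only [e]
  exact (tendsto_natCast_atTop_atTop.comp hy).atTop_mul_const (by positivity)

theorem near {ν : Measure (ℝ × ℝ)} {B : ℝ} (h2 : Ana2 ν) (hm : Mass (rho ν) B) {ι : Type}
    {l : Filter ι} [l.IsCountablyGenerated] {x : ι → ℤ} {y : ι → ℕ} (hy : Tendsto y l atTop)
    {L : ℝ} (hL : ∀ᶠ i in l, |(pos (x i, y i)).re| ≤ L * (pos (x i, y i)).im) :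
    Tendsto (fun i => ∫ m in Near, |ch (x i) (y i) m -
      (Complex.exp (Complex.I * ca m * pos (x i, y i))).re| ∂ν) l (𝓝 0) ∧
    ∀ᶠ i in l, IntegrableOn (fun m => ch (x i) (y i) m -
      (Complex.exp (Complex.I * ca m * pos (x i, y i))).re) Near ν := by
  have hY := d1_im (x := x) hy
  have hY0 : ∀ᶠ i in l, 0 < (pos (x i, y i)).im := hY.eventually_gt_atTop 0
  have hN : MeasurableSet Near := cone_meas _
  have hint : ∀ᶠ i in l, IntegrableOn (d1D (x i) (y i)) Near ν := by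
    filter_upwards [hY0, hL] with i h0 h1
    refine ((d1_mass hm (inv_pos.2 h0)).1.const_mul (2 * (1 / 10) * |L|)).mono'
      (d1D_meas _ _).aestronglyMeasurable ?_
    filter_upwards [ae_restrict_mem hN] with m hmN
    exact d1D_le (by norm_num) hmN h0 h1
  refine ⟨?_, hint⟩
  change Tendsto (fun i => ∫ m in Near, |d1D (x i) (y i) m| ∂ν) l (𝓝 0)
  refine Metric.tendsto_nhds.2 fun η hη => ?_
  have hK : 0 < 2 * |L| * |B| + 1 := by positivity
  set ε : ℝ := min (1 / 10) (η / 2 / (2 * |L| * |B| + 1)) with hε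
  have hε0 : 0 < ε := lt_min (by norm_num) (by positivity)
  have hε1 : ε * (2 * |L| * |B| + 1) ≤ η / 2 := (le_div_iff₀ hK).1 (min_le_right _ _)
  have hfin : ν (Near \ Cone ε) ≠ ⊤ :=
    ne_top_of_le_ne_top (h2.fin ε ⟨hε0, min_le_left _ _⟩) (measure_mono fun m hm => hm.2)
  haveI : IsFiniteMeasure (ν.restrict (Near \ Cone ε)) := isFiniteMeasure_restrict.2 hfin
  have hD : MeasurableSet (Near \ Cone ε) := hN.diff (cone_meas _)
  have key := tendsto_integral_filter_of_dominated_convergence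
    (μ := ν.restrict (Near \ Cone ε)) (l := l)
    (F := fun i m => |d1D (x i) (y i) m|) (f := fun _ => (0 : ℝ)) (fun _ => (2 : ℝ))
    (Eventually.of_forall fun i => (d1D_meas _ _).abs.aestronglyMeasurable)
    (by
      filter_upwards [hY0] with i h0
      filter_upwards [ae_restrict_mem hD] with m hmD
      have a1 := d1D_le2 (x i) (y i) hmD.1.1
      have a2 : Real.exp (-(ca m * (pos (x i, y i)).im)) ≤ 1 :=
        Real.exp_le_one_iff.2 (neg_nonpos.2 (mul_pos hmD.1.2.1 h0).le)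
      rw [Real.norm_eq_abs, abs_abs]
      linarith)
    (integrable_const _)
    (by
      filter_upwards [ae_restrict_mem hD] with m hmD
      have t1 : Tendsto (fun i => Real.exp (-(ca m * (pos (x i, y i)).im))) l (𝓝 0) :=
        Real.tendsto_exp_neg_atTop_nhds_zero.comp (hY.const_mul_atTop hmD.1.2.1)
      have t2 := t1.const_mul 2
      rw [mul_zero] at t2
      exact squeeze_zero (fun i => abs_nonneg _) (fun i => d1D_le2 _ _ hmD.1.1) t2)
  rw [integral_zero] at key
  filter_upwards [hY0, hL, hint, key.eventually_lt_const (half_pos hη)] with i h0 h1 hi hk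
  have hi' : IntegrableOn (fun m => |d1D (x i) (y i) m|) Near ν := hi.abs
  have sp := integral_inter_add_sdiff (cone_meas ε) hi'
  obtain ⟨m1, m2⟩ := d1_mass hm (inv_pos.2 h0)
  have hC : MeasurableSet (Near ∩ Cone ε) := hN.inter (cone_meas _)
  have c1 : ∫ m in Near ∩ Cone ε, |d1D (x i) (y i) m| ∂ν ≤
      ∫ m in Near ∩ Cone ε, 2 * ε * |L| * mn (ca m / ((pos (x i, y i)).im)⁻¹) ∂ν :=
    setIntegral_mono_on (hi'.mono_set inter_subset_left)
      ((m1.mono_set inter_subset_left).const_mul _) hC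
      fun m hmC => d1D_le hε0.le hmC.2 h0 h1
  have c2 : ∫ m in Near ∩ Cone ε, mn (ca m / ((pos (x i, y i)).im)⁻¹) ∂ν ≤
      ∫ m in Near, mn (ca m / ((pos (x i, y i)).im)⁻¹) ∂ν := by
    refine setIntegral_mono_set m1 ?_ inter_subset_left.eventuallyLE
    filter_upwards [ae_restrict_mem hN] with m hmN
    have : 0 < ca m / ((pos (x i, y i)).im)⁻¹ := div_pos hmN.2.1 (inv_pos.2 h0)
    exact le_min this.le (inv_pos.2 this).le
  rw [integral_const_mul] at c1
  have c3 : 2 * ε * |L| * ∫ m in Near ∩ Cone ε, mn (ca m / ((pos (x i, y i)).im)⁻¹) ∂ν ≤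
      2 * ε * |L| * |B| :=
    mul_le_mul_of_nonneg_left ((c2.trans m2).trans (le_abs_self B)) (by positivity)
  have c4 : 0 ≤ ∫ m in Near, |d1D (x i) (y i) m| ∂ν := integral_nonneg fun m => abs_nonneg _
  rw [Real.dist_eq, sub_zero, abs_of_nonneg c4]
  nlinarith

end Vale.Agent.P153C
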