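import Vale.Agent.P153C.Defs

/-! All directions and the growth rate. For z != 0 some om^k z (k < 6) has positive imaginary part; pos (-y,x+y) =
om * pos (x,y); rot keeps V and divisibility of x - y by 3. Growth: V(3*2^(k+1),0) - V(3*2^k,0) -> c log 2
(delta = 2^-k), then Filter.Tendsto.cesaro. -/

open MeasureTheory Filter Topology Set
open scoped InnerProductSpace ComplexConjugate

noncomputable section

namespace Vale.Agent.P153C

/-- Rotation by `π / 3`. -/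
def D4_rot (p : ℤ × ℤ) : ℤ × ℤ := (-p.2, p.1 + p.2)

theorem D4_pos (p : ℤ × ℤ) : pos (D4_rot p) = om * pos p := by
  have h3 : √3 * √3 = (3 : ℝ) := Real.mul_self_sqrt (by norm_num)
  apply Complex.ext
  · simp only [pos, D4_rot, om, Complex.mul_re, Int.cast_neg, Int.cast_add]
    linear_combination ((p.2 : ℝ) / 4) * h3
  · simp only [pos, D4_rot, om, Complex.mul_im, Int.cast_add]
    ring

theorem D4_pos_it (k : ℕ) (p : ℤ × ℤ) : pos (D4_rot^[k] p) = om ^ k * pos p := by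
  induction k with
  | zero => simp
  | succ k ih => rw [Function.iterate_succ_apply', D4_pos, ih, pow_succ]; ring

theorem D4_V_it {V : ℤ × ℤ → ℝ} (h : RPV V) (k : ℕ) (p : ℤ × ℤ) : V (D4_rot^[k] p) = V p := by
  induction k with
  | zero => rfl
  | succ k ih => rw [Function.iterate_succ_apply', ← ih]; exact h.rot _ _

theorem D4_dvd_it (k : ℕ) (p : ℤ × ℤ) :
    (3 : ℤ) ∣ (D4_rot^[k] p).1 - (D4_rot^[k] p).2 ↔ (3 : ℤ) ∣ p.1 - p.2 := by
  induction k with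
  | zero => rfl
  | succ k ih =>
    rw [Function.iterate_succ_apply', ← ih]
    simp only [D4_rot]
    omega

theorem D4_norm : ‖om‖ = 1 := by
  have h3 : √3 * √3 = (3 : ℝ) := Real.mul_self_sqrt (by norm_num)
  rw [Complex.norm_def, Complex.normSq_apply]
  have h1 : om.re * om.re + om.im * om.im = 1 := by
    simp only [om]
    linear_combination (1 / 4 : ℝ) * h3
  rw [h1, Real.sqrt_one]

theorem D4_cube : om ^ 3 = -1 := by
  have h3 : √3 * √3 = (3 : ℝ) := Real.mul_self_sqrt (by norm_num)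
  apply Complex.ext
  · simp only [om, pow_succ, pow_zero, one_mul, Complex.mul_re, Complex.mul_im, Complex.neg_re,
      Complex.one_re]
    linear_combination (-3 / 8 : ℝ) * h3
  · simp only [om, pow_succ, pow_zero, one_mul, Complex.mul_re, Complex.mul_im, Complex.neg_im,
      Complex.one_im]
    linear_combination (-(√3) / 8 : ℝ) * h3

theorem D4_up {z : ℂ} (hz : z ≠ 0) : ∃ k : ℕ, 0 < (om ^ k * z).im := by
  have h3 : (0 : ℝ) < √3 := Real.sqrt_pos.2 (by norm_num)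
  rcases lt_trichotomy z.im 0 with h | h | h
  · refine ⟨3, ?_⟩
    rw [D4_cube]
    simpa using h
  · rcases lt_trichotomy z.re 0 with h' | h' | h'
    · refine ⟨4, ?_⟩
      rw [pow_succ, D4_cube]
      simp only [om, neg_mul, one_mul, Complex.neg_im, Complex.mul_im, h]
      nlinarith
    · exact absurd (Complex.ext h' h) hz
    · refine ⟨1, ?_⟩
      simp only [om, pow_one, Complex.mul_im, h]
      nlinarith
  · exact ⟨0, by simpa using h⟩

theorem D4_tend {δ : ℕ → ℝ} {p : ℕ → ℤ × ℤ} {z : ℂ} (k : ℕ)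
    (hp : Tendsto (fun i => (δ i : ℂ) * pos (p i)) atTop (𝓝 z)) :
    Tendsto (fun i => (δ i : ℂ) * pos (D4_rot^[k] (p i))) atTop (𝓝 (om ^ k * z)) := by
  refine (hp.const_mul (om ^ k)).congr fun i => ?_
  rw [D4_pos_it]
  ring

theorem D4_ces {a : ℕ → ℝ} {c : ℝ}
    (h : Tendsto (fun k => a (k + 1) - a k) atTop (𝓝 (c * Real.log 2))) :
    Tendsto (fun k : ℕ => a k / Real.log (2 ^ k)) atTop (𝓝 c) := by
  have h2 : Real.log 2 ≠ 0 := (Real.log_pos (by norm_num)).ne'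
  have h1 := ((h.cesaro.add ((tendsto_inv_atTop_nhds_zero_nat (𝕜 := ℝ)).mul_const
    (a 0))).div_const (Real.log 2))
  have h3 : (c * Real.log 2 + 0 * a 0) / Real.log 2 = c := by
    rw [zero_mul, add_zero, mul_div_assoc, div_self h2, mul_one]
  rw [h3] at h1
  refine h1.congr fun k => ?_
  rw [Finset.sum_range_sub, Real.log_pow, div_mul_eq_div_div, div_eq_inv_mul (a k)]
  ring

theorem whole {V : ℤ × ℤ → ℝ} (h : RPV V) {c : ℝ}
    (hu : ∀ (δ : ℕ → ℝ) (p q : ℕ → ℤ × ℤ) (z w : ℂ), 0 < z.im → 0 < w.im →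
      Tendsto δ atTop (𝓝[>] 0) → Tendsto (fun i => (δ i : ℂ) * pos (p i)) atTop (𝓝 z) →
      Tendsto (fun i => (δ i : ℂ) * pos (q i)) atTop (𝓝 w) →
      (∀ i, (3 : ℤ) ∣ (p i).1 - (p i).2 ↔ (3 : ℤ) ∣ (q i).1 - (q i).2) →
      Tendsto (fun i => V (p i) - V (q i)) atTop (𝓝 (c * Real.log (‖z‖ / ‖w‖)))) :
    (∀ (δ : ℕ → ℝ) (p q : ℕ → ℤ × ℤ) (z w : ℂ), z ≠ 0 → w ≠ 0 →
      Tendsto δ atTop (𝓝[>] 0) → Tendsto (fun i => (δ i : ℂ) * pos (p i)) atTop (𝓝 z) →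
      Tendsto (fun i => (δ i : ℂ) * pos (q i)) atTop (𝓝 w) →
      (∀ i, (3 : ℤ) ∣ (p i).1 - (p i).2 ↔ (3 : ℤ) ∣ (q i).1 - (q i).2) →
      Tendsto (fun i => V (p i) - V (q i)) atTop (𝓝 (c * Real.log (‖z‖ / ‖w‖)))) ∧
    Tendsto (fun k : ℕ => V (3 * 2 ^ k, 0) / Real.log (2 ^ k)) atTop (𝓝 c) := by
  have h1 : ∀ (δ : ℕ → ℝ) (p q : ℕ → ℤ × ℤ) (z w : ℂ), z ≠ 0 → w ≠ 0 →
      Tendsto δ atTop (𝓝[>] 0) → Tendsto (fun i => (δ i : ℂ) * pos (p i)) atTop (𝓝 z) →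
      Tendsto (fun i => (δ i : ℂ) * pos (q i)) atTop (𝓝 w) →
      (∀ i, (3 : ℤ) ∣ (p i).1 - (p i).2 ↔ (3 : ℤ) ∣ (q i).1 - (q i).2) →
      Tendsto (fun i => V (p i) - V (q i)) atTop (𝓝 (c * Real.log (‖z‖ / ‖w‖))) := by
    intro δ p q z w hz hw hδ hp hq hc
    obtain ⟨k, hk⟩ := D4_up hz
    obtain ⟨l, hl⟩ := D4_up hw
    have h2 := hu δ (fun i => D4_rot^[k] (p i)) (fun i => D4_rot^[l] (q i)) _ _ hk hl hδ
      (D4_tend k hp) (D4_tend l hq) (fun i => by rw [D4_dvd_it, D4_dvd_it]; exact hc i)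
    simpa only [D4_V_it h, norm_mul, norm_pow, D4_norm, one_pow, one_mul] using h2
  refine ⟨h1, D4_ces (a := fun k => V (3 * 2 ^ k, 0)) ?_⟩
  have hδ : Tendsto (fun k : ℕ => (1 / 2 : ℝ) ^ k) atTop (𝓝[>] 0) :=
    tendsto_pow_atTop_nhdsWithin_zero_of_lt_one (by norm_num) (by norm_num)
  have e : ∀ (a : ℤ) (k : ℕ), (((1 / 2 : ℝ) ^ k : ℝ) : ℂ) * pos (a * 2 ^ k, 0) = (a : ℂ) := by
    intro a k
    have e1 : pos (a * 2 ^ k, 0) = (((a : ℝ) * 2 ^ k : ℝ) : ℂ) := by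
      apply Complex.ext
      · rw [Complex.ofReal_re]
        simp [pos]
      · rw [Complex.ofReal_im]
        simp [pos]
    have e2 : (1 / 2 : ℝ) ^ k * ((a : ℝ) * 2 ^ k) = a := by
      rw [one_div, inv_pow]
      field_simp
    rw [e1, ← Complex.ofReal_mul, e2, Complex.ofReal_intCast]
  have h2 := h1 (fun k => (1 / 2 : ℝ) ^ k) (fun k => (6 * 2 ^ k, 0)) (fun k => (3 * 2 ^ k, 0))
    ((6 : ℤ) : ℂ) ((3 : ℤ) : ℂ) (by norm_num) (by norm_num) hδ
    (tendsto_const_nhds.congr fun k => (e 6 k).symm)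
    (tendsto_const_nhds.congr fun k => (e 3 k).symm)
    (fun k => ⟨fun _ => ⟨2 ^ k, by ring⟩, fun _ => ⟨2 * 2 ^ k, by ring⟩⟩)
  have h3 : ‖((6 : ℤ) : ℂ)‖ / ‖((3 : ℤ) : ℂ)‖ = 2 := by
    rw [Complex.norm_intCast, Complex.norm_intCast]
    norm_num
  rw [h3] at h2
  refine h2.congr fun k => ?_
  rw [show (6 * 2 ^ k : ℤ) = 3 * 2 ^ (k + 1) by ring]

end Vale.Agent.P153C
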