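import Vale.Agent.P153C.Defs

/-! The kernel. N - D = 3x^2 + 2 sqrt3 x^3 > 0, 0 < log(N/D) <= (N-D)/D <= 7 mn x. Integrability of J x / x on Ioi 0:
bounded by 14/(1+x^2). setIntegral_pos_iff_support_of_nonneg_ae. -/

open MeasureTheory Filter Topology Set
open scoped InnerProductSpace ComplexConjugate

noncomputable section

namespace Vale.Agent.P153C

theorem b6_bd {x : ℝ} (hx : 0 < x) : 0 < J x ∧ J x ≤ 2 * (x * (1 + x ^ 2)⁻¹) := by
  have hs : (0 : ℝ) < √3 := Real.sqrt_pos.2 (by norm_num)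
  have h3 : (√3 : ℝ) ^ 2 = 3 := Real.sq_sqrt (by norm_num)
  have h1 : (1 : ℝ) ≤ √3 := by nlinarith
  have h2 : (√3 : ℝ) ≤ 2 := by nlinarith
  have hA : 0 < 1 + 2 * √3 * x + 3 * x ^ 2 := by positivity
  have hB : 0 < 1 + x ^ 2 := by positivity
  have e : (1 + √3 * x + 3 * x ^ 2) * (1 + √3 * x + x ^ 2) /
      ((1 + 2 * √3 * x + 3 * x ^ 2) * (1 + x ^ 2)) =
      1 + (3 * x + 2 * √3 * x ^ 2) / (1 + 2 * √3 * x + 3 * x ^ 2) * (x * (1 + x ^ 2)⁻¹) := by
    field_simp
    linear_combination x ^ 2 * h3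
  have hp : 0 < (3 * x + 2 * √3 * x ^ 2) / (1 + 2 * √3 * x + 3 * x ^ 2) * (x * (1 + x ^ 2)⁻¹) := by
    positivity
  unfold J
  rw [e]
  refine ⟨Real.log_pos (by linarith), (Real.log_le_sub_one_of_pos (by linarith)).trans ?_⟩
  rw [add_sub_cancel_left]
  refine mul_le_mul_of_nonneg_right ?_ (by positivity)
  rw [div_le_iff₀ hA]
  nlinarith [mul_pos hx hx, mul_le_mul_of_nonneg_right h1 hx.le,
    mul_le_mul_of_nonneg_right h2 (sq_nonneg x)]

theorem J_cont : ContinuousOn J (Ioi 0) := by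
  unfold J
  refine ContinuousOn.log (ContinuousOn.div (by fun_prop) (by fun_prop) fun x hx => ?_)
    fun x hx => ?_
  · have hx : 0 < x := hx
    positivity
  · have hx : 0 < x := hx
    positivity

theorem J_le : ∃ C : ℝ, ∀ x > 0, |J x| ≤ C * mn x := by
  refine ⟨2, fun x hx => ?_⟩
  rw [abs_of_pos (b6_bd hx).1]
  refine (b6_bd hx).2.trans (mul_le_mul_of_nonneg_left (le_min ?_ ?_) (by norm_num))
  · exact mul_le_of_le_one_right hx.le (inv_le_one_of_one_le₀ (by nlinarith))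
  · rw [← div_eq_mul_inv, ← one_div, div_le_div_iff₀ (by positivity) hx]
    nlinarith

theorem J_pos : 0 < ∫ x in Ioi (0 : ℝ), J x / x := by
  have hi : IntegrableOn (fun x => J x / x) (Ioi (0 : ℝ)) := by
    refine ((integrable_inv_one_add_sq.const_mul 2).integrableOn (s := Ioi 0)).mono'
      ((J_cont.div continuousOn_id fun x hx => ne_of_gt hx).aestronglyMeasurable measurableSet_Ioi)
      ((ae_restrict_mem measurableSet_Ioi).mono fun x hx => ?_)
    have hx : 0 < x := hx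
    rw [Real.norm_eq_abs, abs_of_pos (div_pos (b6_bd hx).1 hx), div_le_iff₀ hx]
    refine (b6_bd hx).2.trans_eq ?_
    ring
  rw [setIntegral_pos_iff_support_of_nonneg_ae ((ae_restrict_mem measurableSet_Ioi).mono
    fun x hx => (div_pos (b6_bd hx).1 hx).le) hi]
  refine lt_of_lt_of_le ?_ (measure_mono (s := Ioi (0 : ℝ)) fun x hx =>
    ⟨(div_pos (b6_bd hx).1 hx).ne', hx⟩)
  simp

end Vale.Agent.P153C
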