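import Vale.Agent.P153C.Defs

/-! Pointwise bounds of the integrand on the fixed cone. -/

open MeasureTheory Filter Topology Set
open scoped InnerProductSpace ComplexConjugate

noncomputable section

namespace Vale.Agent.P153C

lemma c1_norm (t ρ ψ : ℝ) :
    nq (t * ρ) ψ = ‖(1 : ℂ) - t * ⟨ρ * Real.cos ψ, ρ * Real.sin ψ⟩‖ ^ 2 := by
  rw [Complex.sq_norm, Complex.normSq_apply, nq]
  simp only [Complex.sub_re, Complex.one_re, Complex.mul_re, Complex.ofReal_re, Complex.ofReal_im,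
    Complex.sub_im, Complex.one_im, Complex.mul_im]
  linear_combination (-(t * ρ) ^ 2) * Real.sin_sq_add_cos_sq ψ

lemma c1_w {ρ : ℝ} (h0 : 0 ≤ ρ) (h1 : ρ ≤ 1) (ψ : ℝ) :
    ‖(⟨ρ * Real.cos ψ, ρ * Real.sin ψ⟩ : ℂ)‖ ≤ 1 := by
  refine (sq_le_one_iff₀ (norm_nonneg _)).1 ?_
  rw [Complex.sq_norm, Complex.normSq_apply]
  have e : ρ * Real.cos ψ * (ρ * Real.cos ψ) + ρ * Real.sin ψ * (ρ * Real.sin ψ) = ρ ^ 2 := by
    linear_combination ρ ^ 2 * Real.sin_sq_add_cos_sq ψ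
  exact e.le.trans (pow_le_one₀ h0 h1)

lemma c1_tri {s : ℝ} (s0 : 0 < s) (s1 : s < 1) {w : ℂ} (hw : ‖w‖ ≤ 1) :
    1 - s ≤ ‖1 - s * w‖ ∧ |‖1 - s * w‖ - ‖1 - w‖| ≤ 1 - s := by
  constructor
  · have h1 := norm_sub_norm_le (1 : ℂ) (s * w)
    rw [norm_one, norm_mul, Complex.norm_real, Real.norm_of_nonneg s0.le] at h1
    nlinarith
  · refine (abs_norm_sub_norm_le _ _).trans ?_
    have e : (1 : ℂ) - s * w - (1 - w) = ((1 - s : ℝ) : ℂ) * w := by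
      push_cast
      ring
    rw [e, norm_mul, Complex.norm_real, Real.norm_of_nonneg (by linarith)]
    nlinarith

lemma c1_log {x y : ℝ} (hx : 0 < x) (hy : 0 < y) : Real.log x - Real.log y ≤ (x - y) / y := by
  rw [← Real.log_div hx.ne' hy.ne', sub_div, div_self hy.ne']
  exact Real.log_le_sub_one_of_pos (div_pos hx hy)

lemma c1_small {s ρ ψ E : ℝ} (s0 : 0 < s) (s1 : s < 1) (h0 : 0 ≤ ρ) (h1 : ρ ≤ 1) (hE : 0 ≤ E)
    (h : nq ρ ψ ≤ E ^ 2) :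
    |Real.log (nq (s * ρ) ψ) - 2 * Real.log (1 - s)| ≤ 2 * (E / (1 - s)) := by
  obtain ⟨k1, k2⟩ := c1_tri s0 s1 (c1_w h0 h1 ψ)
  rw [← one_mul ρ, c1_norm, Complex.ofReal_one, one_mul] at h
  have k3 := (pow_le_pow_iff_left₀ (norm_nonneg _) hE two_ne_zero).1 h
  have t0 : 0 < 1 - s := by linarith
  rw [c1_norm, Real.log_pow]
  have k4 := Real.log_le_log t0 k1
  have k5 := (c1_log (t0.trans_le k1) t0).trans
    (div_le_div_of_nonneg_right (c := 1 - s) (b := E) (by linarith [(abs_le.1 k2).2]) t0.le)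
  push_cast
  rw [abs_of_nonneg (by linarith)]
  linarith

lemma c1_large {s ρ ψ e : ℝ} (s0 : 0 < s) (s1 : s < 1) (h0 : 0 ≤ ρ) (h1 : ρ ≤ 1) (he : 0 < e)
    (h : e ^ 2 ≤ nq ρ ψ) :
    |Real.log (nq (s * ρ) ψ) - Real.log (nq (1 * ρ) ψ)| ≤ 4 * ((1 - s) / e) := by
  obtain ⟨k1, k2⟩ := c1_tri s0 s1 (c1_w h0 h1 ψ)
  rw [← one_mul ρ, c1_norm, Complex.ofReal_one, one_mul] at h
  have k3 := (pow_le_pow_iff_left₀ he.le (norm_nonneg _) two_ne_zero).1 h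
  rw [c1_norm, c1_norm, Complex.ofReal_one, one_mul, Real.log_pow, Real.log_pow]
  generalize ‖(1 : ℂ) - s * ⟨ρ * Real.cos ψ, ρ * Real.sin ψ⟩‖ = x at *
  generalize ‖(1 : ℂ) - ⟨ρ * Real.cos ψ, ρ * Real.sin ψ⟩‖ = y at *
  obtain ⟨k4, k5⟩ := abs_le.1 k2
  have t0 : 0 < 1 - s := by linarith
  have x0 : 0 < x := by linarith
  have y0 : 0 < y := by linarith
  have k6 : (x - y) / y ≤ (1 - s) / e := div_le_div₀ t0.le k5 he k3
  have k7 : (y - x) / x ≤ (1 - s) / (e / 2) :=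
    div_le_div₀ t0.le (by linarith) (by linarith) (by linarith)
  have k8 : (1 - s) / (e / 2) = 2 * ((1 - s) / e) := by field_simp
  have k9 : 0 ≤ (1 - s) / e := div_nonneg t0.le he.le
  push_cast
  rw [abs_le]
  constructor <;> linarith [c1_log x0 y0, c1_log y0 x0]

lemma c1_exp {x : ℝ} (h0 : 0 < x) (h1 : x ≤ 1) :
    x / 2 ≤ 1 - Real.exp (-x) ∧ 1 - Real.exp (-x) ≤ x := by
  have k1 := Real.add_one_le_exp x
  have k2 := Real.add_one_le_exp (-x)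
  have k3 : Real.exp (-x) * Real.exp x = 1 := by rw [← Real.exp_add, neg_add_cancel, Real.exp_zero]
  have k4 := Real.exp_pos (-x)
  constructor
  · nlinarith [mul_le_mul_of_nonneg_left k1 k4.le]
  · linarith

lemma c1_nq {ρ : ℝ} (h0 : 0 ≤ ρ) (h1 : ρ ≤ 1) (ψ : ℝ) :
    (1 - ρ) ^ 2 ≤ nq ρ ψ ∧ nq ρ ψ ≤ (1 - ρ) ^ 2 + ψ ^ 2 := by
  have k1 := Real.cos_le_one ψ
  have k2 := Real.one_sub_sq_div_two_le_cos (x := ψ)
  unfold nq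
  constructor
  · nlinarith
  · nlinarith [mul_le_mul_of_nonneg_left k2 h0, mul_le_mul_of_nonneg_right h1 (sq_nonneg ψ)]

lemma c1_four {a r φ : ℝ} (h1 : 0 < a) (h0 : 0 ≤ r) (u1 : a / 4 ≤ 1 - r) (u2 : 1 - r ≤ a)
    (p3 : φ ^ 2 ≤ a ^ 2) (p4 : a ^ 2 / 5 ≤ φ ^ 2) (c1 : |2 * φ| ≤ Real.pi) :
    ((a / 10) ^ 2 ≤ nq r (3 * φ) ∧ nq r (3 * φ) ≤ (4 * a) ^ 2) ∧
    ((a / 10) ^ 2 ≤ nq r φ ∧ nq r φ ≤ (4 * a) ^ 2) ∧
    ((a / 10) ^ 2 ≤ nq (r ^ 2) 0 ∧ nq (r ^ 2) 0 ≤ (4 * a) ^ 2) ∧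
    ((a / 10) ^ 2 ≤ nq 1 (2 * φ) ∧ nq 1 (2 * φ) ≤ (4 * a) ^ 2) := by
  have r1 : r ≤ 1 := by linarith
  have v1 : (a / 10) ^ 2 ≤ (1 - r) ^ 2 := pow_le_pow_left₀ (by linarith) (by linarith) 2
  have v2 : (1 - r) ^ 2 ≤ a ^ 2 := pow_le_pow_left₀ (by linarith) u2 2
  have w1 : r ^ 2 ≤ r := by nlinarith
  have w2 : 1 - r ^ 2 ≤ 2 * a := by nlinarith
  have v3 : (a / 10) ^ 2 ≤ (1 - r ^ 2) ^ 2 := pow_le_pow_left₀ (by linarith) (by linarith) 2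
  have v4 : (1 - r ^ 2) ^ 2 ≤ (2 * a) ^ 2 := pow_le_pow_left₀ (by linarith) w2 2
  have n1 := c1_nq h0 r1 (3 * φ)
  have n2 := c1_nq h0 r1 φ
  have n3 := c1_nq (sq_nonneg r) (w1.trans r1) 0
  have n4 := c1_nq zero_le_one le_rfl (2 * φ)
  have c2 := Real.cos_le_one_sub_mul_cos_sq c1
  have c3 : (1 : ℝ) / 8 ≤ 2 / Real.pi ^ 2 := by
    rw [le_div_iff₀ (by positivity)]
    nlinarith [Real.pi_le_four, Real.pi_pos]
  have c4 := mul_le_mul_of_nonneg_right c3 (sq_nonneg (2 * φ))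
  have a2 := sq_nonneg a
  have e : nq 1 (2 * φ) = 2 - 2 * Real.cos (2 * φ) := by
    unfold nq
    ring
  simp only [mul_pow, div_pow] at *
  exact ⟨⟨by linarith [n1.1], by linarith [n1.2]⟩, ⟨by linarith [n2.1], by linarith [n2.2]⟩,
    ⟨by linarith [n3.1], by linarith [n3.2]⟩, by linarith, by linarith [n4.2]⟩

lemma c1_near {m : ℝ × ℝ} (hm : m ∈ Near) : 0 < ca m ∧ 0 ≤ m.1 ∧ m.1 ≤ 1 ∧
    ((ca m / 10) ^ 2 ≤ nq m.1 (3 * m.2) ∧ nq m.1 (3 * m.2) ≤ (4 * ca m) ^ 2) ∧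
    ((ca m / 10) ^ 2 ≤ nq m.1 m.2 ∧ nq m.1 m.2 ≤ (4 * ca m) ^ 2) ∧
    ((ca m / 10) ^ 2 ≤ nq (m.1 ^ 2) 0 ∧ nq (m.1 ^ 2) 0 ≤ (4 * ca m) ^ 2) ∧
    ((ca m / 10) ^ 2 ≤ nq 1 (2 * m.2) ∧ nq 1 (2 * m.2) ≤ (4 * ca m) ^ 2) := by
  obtain ⟨h0, h1, h2, h3⟩ := hm
  have q0 : (0 : ℝ) < √3 := by positivity
  have q1 : √3 * √3 = 3 := Real.mul_self_sqrt (by norm_num)
  have q2 : 1 ≤ √3 := by nlinarith
  have q3 : √3 ≤ 2 := by nlinarith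
  have e : Real.exp (-(√3 / 2 * ca m)) = m.1 := by
    have : -(√3 / 2 * ca m) = Real.log m.1 := by
      unfold ca
      field_simp
    rw [this, Real.exp_log h0]
  generalize ca m = a at *
  have q4 := mul_le_mul_of_nonneg_right q2 h1.le
  have q5 := mul_le_mul_of_nonneg_right q3 h1.le
  obtain ⟨k1, k2⟩ := c1_exp (x := √3 / 2 * a) (by positivity) (by linarith)
  rw [e] at k1 k2
  obtain ⟨p1, p2⟩ := abs_le.1 h3
  have p3 : |m.2| ^ 2 ≤ a ^ 2 := pow_le_pow_left₀ (abs_nonneg _) (by linarith) 2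
  have p4 : (9 / 20 * a) ^ 2 ≤ |m.2| ^ 2 := pow_le_pow_left₀ (by linarith) (by linarith) 2
  rw [sq_abs] at p3 p4
  refine ⟨h1, h0.le, by linarith, c1_four h1 h0.le (by linarith) (by linarith) p3
    (by nlinarith [sq_nonneg a]) ?_⟩
  rw [abs_mul, abs_two]
  linarith [Real.pi_gt_three]

theorem Is_small : ∃ C : ℝ, ∀ δ ∈ Ioc (0 : ℝ) 1, ∀ m ∈ Near,
    |Is (Real.exp (-δ)) m| ≤ C * (ca m / δ) := by
  refine ⟨64, fun δ hδ m hm => ?_⟩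
  obtain ⟨a0, r0, r1, h1, h2, h3, h4⟩ := c1_near hm
  obtain ⟨t1, -⟩ := c1_exp hδ.1 hδ.2
  have s0 := Real.exp_pos (-δ)
  have s1 : Real.exp (-δ) < 1 := by linarith [hδ.1]
  have hE : 0 ≤ 4 * ca m := by linarith
  have k1 := abs_le.1 (c1_small s0 s1 r0 r1 hE h1.2)
  have k2 := abs_le.1 (c1_small s0 s1 r0 r1 hE h2.2)
  have k3 := abs_le.1 (c1_small s0 s1 (sq_nonneg _) (pow_le_one₀ r0 r1) hE h3.2)
  have k4 := abs_le.1 (c1_small s0 s1 zero_le_one le_rfl hE h4.2)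
  have k5 : 4 * ca m / (1 - Real.exp (-δ)) ≤ 4 * ca m / (δ / 2) :=
    div_le_div_of_nonneg_left hE (half_pos hδ.1) t1
  have k6 : 4 * ca m / (δ / 2) = 8 * (ca m / δ) := by
    field_simp
    norm_num
  rw [mul_one] at k4
  unfold Is
  rw [abs_le]
  constructor <;> linarith [k1.1, k1.2, k2.1, k2.2, k3.1, k3.2, k4.1, k4.2]

theorem Is_large : ∃ C : ℝ, ∀ δ ∈ Ioc (0 : ℝ) 1, ∀ m ∈ Near,
    |Is (Real.exp (-δ)) m - Is 1 m| ≤ C * (δ / ca m) := by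
  refine ⟨160, fun δ hδ m hm => ?_⟩
  obtain ⟨a0, r0, r1, h1, h2, h3, h4⟩ := c1_near hm
  obtain ⟨t1, t2⟩ := c1_exp hδ.1 hδ.2
  have s0 := Real.exp_pos (-δ)
  have s1 : Real.exp (-δ) < 1 := by linarith [hδ.1]
  have he : 0 < ca m / 10 := by linarith
  have k1 := abs_le.1 (c1_large s0 s1 r0 r1 he h1.1)
  have k2 := abs_le.1 (c1_large s0 s1 r0 r1 he h2.1)
  have k3 := abs_le.1 (c1_large s0 s1 (sq_nonneg _) (pow_le_one₀ r0 r1) he h3.1)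
  have k4 := abs_le.1 (c1_large s0 s1 zero_le_one le_rfl he h4.1)
  have k5 : (1 - Real.exp (-δ)) / (ca m / 10) ≤ δ / (ca m / 10) :=
    div_le_div_of_nonneg_right t2 he.le
  have k6 : δ / (ca m / 10) = 10 * (δ / ca m) := by field_simp
  rw [mul_one, mul_one] at k4
  unfold Is
  rw [abs_le]
  constructor <;> linarith [k1.1, k1.2, k2.1, k2.2, k3.1, k3.2, k4.1, k4.2]

end Vale.Agent.P153C
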