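import Vale.Agent.P153C.Defs

/-! The middle range. Write a = d x, 2|phi| = d x t. nq (e^(-d A)) (d P) = 2 e^(-dA) (cosh(dA) - cos(dP)) =
d^2 * k(d,A,P) with k continuous, k(0,A,P) = A^2+P^2 (cosh y - 1 = y^2/2 * sinhc(y/2)^2, or Taylor bounds
|cosh y - 1 - y^2/2| <= y^4, |1 - cos y - y^2/2| <= y^4). The powers of d cancel in Is. Uniform continuity on the compact
[0,1] x [1/M,M] x [1/2,2] of Phi(d,x,t) = Is - Is 1, and Phi(0,x,1) = J x. -/

open MeasureTheory Filter Topology Set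
open scoped InnerProductSpace ComplexConjugate

noncomputable section

namespace Vale.Agent.P153C

/-- The slope of the exponential. -/
def C2_g : ℝ → ℝ := dslope (fun y => -Real.exp (-y)) 0

theorem C2_gc : Continuous C2_g := continuous_iff_continuousAt.2 fun y => by
  by_cases h : y = 0
  · rw [h]
    exact continuousAt_dslope_same.2 (by fun_prop)
  · exact (continuousAt_dslope_of_ne h).2 (by fun_prop)

theorem C2_g0 : C2_g 0 = 1 := by
  have h := ((hasDerivAt_neg (0 : ℝ)).exp.neg).deriv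
  rw [C2_g, dslope_same]
  simpa using h

theorem C2_gm (y : ℝ) : y * C2_g y = 1 - Real.exp (-y) := by
  have h := sub_smul_dslope (fun y : ℝ => -Real.exp (-y)) 0 y
  rw [sub_zero, smul_eq_mul, neg_zero, Real.exp_zero] at h
  rw [C2_g, h]
  ring

/-- The rescaled form of `nq`. -/
def C2_k (d A P : ℝ) : ℝ :=
  (A * C2_g (d * A)) ^ 2 + Real.exp (-(d * A)) * (P * Real.sinc (d * P / 2)) ^ 2

theorem C2_k0 (A P : ℝ) : C2_k 0 A P = A ^ 2 + P ^ 2 := by simp [C2_k, C2_g0]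

theorem C2_nq (d A P : ℝ) : nq (Real.exp (-(d * A))) (d * P) = d ^ 2 * C2_k d A P := by
  have h1 := C2_gm (d * A)
  have h2 : d * P / 2 * Real.sinc (d * P / 2) = Real.sin (d * P / 2) := by
    by_cases h : d * P / 2 = 0
    · rw [h, zero_mul, Real.sin_zero]
    · rw [Real.sinc_of_ne_zero h, mul_div_cancel₀ _ h]
  have h3 : Real.cos (d * P) = 1 - 2 * Real.sin (d * P / 2) ^ 2 := by
    have h := Real.cos_two_mul (d * P / 2)
    rw [mul_div_cancel₀ _ two_ne_zero, Real.cos_sq'] at h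
    linarith
  have e : d ^ 2 * C2_k d A P = (d * A * C2_g (d * A)) ^ 2 +
      Real.exp (-(d * A)) * (4 * (d * P / 2 * Real.sinc (d * P / 2)) ^ 2) := by
    rw [C2_k]
    ring
  rw [e, h1, h2, nq, h3]
  ring

theorem C2_kc {Y : Type} [TopologicalSpace Y] {d A P : Y → ℝ} (hd : Continuous d)
    (hA : Continuous A) (hP : Continuous P) : Continuous fun y => C2_k (d y) (A y) (P y) := by
  have := C2_gc
  have := Real.continuous_sinc
  unfold C2_k
  fun_prop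

/-- The rescaled form of `Is`. -/
def C2_L (s d t x : ℝ) : ℝ :=
  Real.log (C2_k d (s + √3 / 2 * x) (3 * (x * t / 2))) +
    Real.log (C2_k d (s + √3 / 2 * x) (x * t / 2)) - Real.log (C2_k d (s + √3 * x) 0) -
      Real.log (C2_k d s (x * t))

/-- The four factors do not vanish. -/
def C2_N (s d t x : ℝ) : Prop :=
  (C2_k d (s + √3 / 2 * x) (3 * (x * t / 2)) ≠ 0 ∧ C2_k d (s + √3 / 2 * x) (x * t / 2) ≠ 0) ∧
    C2_k d (s + √3 * x) 0 ≠ 0 ∧ C2_k d s (x * t) ≠ 0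

theorem C2_Is {s d t x : ℝ} (hd : d ≠ 0) (h : C2_N s d t x) {m : ℝ × ℝ}
    (h1 : m.1 = Real.exp (-(d * (√3 / 2 * x)))) (h2 : |m.2| = d * (x * t / 2)) :
    Is (Real.exp (-(d * s))) m = C2_L s d t x := by
  have a : ∀ (r c : ℝ), 0 ≤ c → nq r (c * m.2) = nq r (d * (c * (x * t / 2))) := fun r c hc => by
    rw [nq, nq, ← Real.cos_abs, abs_mul, abs_of_nonneg hc, h2, mul_left_comm c]
  have a1 : ∀ r, nq r m.2 = nq r (d * (x * t / 2)) := fun r => by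
    simpa only [one_mul] using a r 1 zero_le_one
  have e1 : Real.exp (-(d * s)) * m.1 = Real.exp (-(d * (s + √3 / 2 * x))) := by
    rw [h1, ← Real.exp_add]
    ring_nf
  have e2 : Real.exp (-(d * s)) * m.1 ^ 2 = Real.exp (-(d * (s + √3 * x))) := by
    rw [h1, sq, ← Real.exp_add, ← Real.exp_add]
    ring_nf
  have e3 : 2 * (x * t / 2) = x * t := by ring
  have e4 := C2_nq d (s + √3 * x) 0
  rw [mul_zero] at e4
  have d2 : d ^ 2 ≠ 0 := pow_ne_zero 2 hd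
  rw [Is, a _ 3 (by norm_num), a1, a _ 2 (by norm_num), e1, e2, e3, e4, C2_nq, C2_nq, C2_nq,
    Real.log_mul d2 h.1.1, Real.log_mul d2 h.1.2, Real.log_mul d2 h.2.1, Real.log_mul d2 h.2.2,
    C2_L]
  ring

theorem C2_near {s x : ℝ} (hs : 0 ≤ s) (hx : 0 < x) :
    ContinuousAt (fun p : (ℝ × ℝ) × ℝ => C2_L s p.1.1 p.1.2 p.2) ((0, 1), x) ∧
    ContinuousAt (fun p : (ℝ × ℝ) × ℝ => C2_L s 0 1 p.2) ((0, 1), x) ∧
    ∀ᶠ p : (ℝ × ℝ) × ℝ in 𝓝 ((0, 1), x), C2_N s p.1.1 p.1.2 p.2 := by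
  have c1 : Continuous fun p : (ℝ × ℝ) × ℝ =>
    C2_k p.1.1 (s + √3 / 2 * p.2) (3 * (p.2 * p.1.2 / 2)) :=
    C2_kc (by fun_prop) (by fun_prop) (by fun_prop)
  have c2 : Continuous fun p : (ℝ × ℝ) × ℝ => C2_k p.1.1 (s + √3 / 2 * p.2) (p.2 * p.1.2 / 2) :=
    C2_kc (by fun_prop) (by fun_prop) (by fun_prop)
  have c3 : Continuous fun p : (ℝ × ℝ) × ℝ => C2_k p.1.1 (s + √3 * p.2) 0 :=
    C2_kc (by fun_prop) (by fun_prop) (by fun_prop)
  have c4 : Continuous fun p : (ℝ × ℝ) × ℝ => C2_k p.1.1 s (p.2 * p.1.2) :=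
    C2_kc (by fun_prop) (by fun_prop) (by fun_prop)
  have n1 : C2_k 0 (s + √3 / 2 * x) (3 * (x * 1 / 2)) ≠ 0 := by rw [C2_k0]; positivity
  have n2 : C2_k 0 (s + √3 / 2 * x) (x * 1 / 2) ≠ 0 := by rw [C2_k0]; positivity
  have n3 : C2_k 0 (s + √3 * x) 0 ≠ 0 := by rw [C2_k0]; positivity
  have n4 : C2_k 0 s (x * 1) ≠ 0 := by rw [C2_k0]; positivity
  have h : ContinuousAt (fun p : (ℝ × ℝ) × ℝ => C2_L s p.1.1 p.1.2 p.2) ((0, 1), x) :=
    (((c1.continuousAt.log n1).add (c2.continuousAt.log n2)).sub (c3.continuousAt.log n3)).sub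
      (c4.continuousAt.log n4)
  exact ⟨h, ContinuousAt.comp (f := fun p : (ℝ × ℝ) × ℝ => (((0 : ℝ), (1 : ℝ)), p.2))
    (x := ((0, 1), x)) h (by fun_prop),
    ((c1.continuousAt.eventually_ne n1).and (c2.continuousAt.eventually_ne n2)).and
      ((c3.continuousAt.eventually_ne n3).and (c4.continuousAt.eventually_ne n4))⟩

theorem C2_J {x : ℝ} (hx : 0 < x) : C2_L 1 0 1 x - C2_L 0 0 1 x = J x := by
  have h3 : √3 ^ 2 = 3 := Real.sq_sqrt (by norm_num)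
  have e1 : (1 + √3 / 2 * x) ^ 2 + (3 * (x * 1 / 2)) ^ 2 = 1 + √3 * x + 3 * x ^ 2 := by
    linear_combination x ^ 2 / 4 * h3
  have e2 : (1 + √3 / 2 * x) ^ 2 + (x * 1 / 2) ^ 2 = 1 + √3 * x + x ^ 2 := by
    linear_combination x ^ 2 / 4 * h3
  have e3 : (1 + √3 * x) ^ 2 + 0 ^ 2 = 1 + 2 * √3 * x + 3 * x ^ 2 := by
    linear_combination x ^ 2 * h3
  have e4 : 1 ^ 2 + (x * 1) ^ 2 = 1 + x ^ 2 := by ring
  have e5 : (0 + √3 / 2 * x) ^ 2 + (3 * (x * 1 / 2)) ^ 2 = (0 + √3 * x) ^ 2 + 0 ^ 2 := by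
    linear_combination -(3 * x ^ 2 / 4) * h3
  have e6 : (0 + √3 / 2 * x) ^ 2 + (x * 1 / 2) ^ 2 = 0 ^ 2 + (x * 1) ^ 2 := by
    linear_combination x ^ 2 / 4 * h3
  simp only [C2_L, C2_k0]
  rw [e1, e2, e3, e4, e5, e6, J, Real.log_div (by positivity) (by positivity),
    Real.log_mul (by positivity) (by positivity), Real.log_mul (by positivity) (by positivity)]
  ring

theorem Is_mid {M η : ℝ} (hM : 1 ≤ M) (hη : 0 < η) : ∃ ε ∈ Ioc (0 : ℝ) (1 / 10),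
    ∀ᶠ δ in 𝓝[>] (0 : ℝ), ∀ m ∈ Cone ε, δ / M ≤ ca m → ca m ≤ M * δ →
      |Is (Real.exp (-δ)) m - Is 1 m - J (ca m / δ)| ≤ η := by
  have hM0 : 0 < M := one_pos.trans_le hM
  obtain ⟨r, hr, h⟩ := Metric.eventually_nhds_iff.1
    ((isCompact_Icc (a := 1 / M) (b := M)).eventually_forall_of_forall_eventually
      (x₀ := ((0, 1) : ℝ × ℝ)) (P := fun p x => (C2_N 1 p.1 p.2 x ∧ C2_N 0 p.1 p.2 x) ∧
        |C2_L 1 p.1 p.2 x - C2_L 0 p.1 p.2 x - (C2_L 1 0 1 x - C2_L 0 0 1 x)| < η) fun x hx => by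
      have hx0 : 0 < x := (one_div_pos.2 hM0).trans_le hx.1
      obtain ⟨a1, a2, a3⟩ := C2_near zero_le_one hx0
      obtain ⟨b1, b2, b3⟩ := C2_near le_rfl hx0
      exact (a3.and b3).and (((a1.sub b1).sub (a2.sub b2)).abs.eventually_lt continuousAt_const
        (by simpa using hη)))
  refine ⟨min (1 / 10) (r / 2), ⟨lt_min (by norm_num) (half_pos hr), min_le_left _ _⟩, ?_⟩
  filter_upwards [Ioo_mem_nhdsGT hr] with δ hδ m hm h1 h2
  obtain ⟨m1, m2, -, m4⟩ := hm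
  have d0 := hδ.1
  have h3 : √3 ≠ 0 := by positivity
  obtain ⟨⟨n1, n0⟩, h4⟩ := h (y := (δ, 2 * |m.2| / ca m)) (by
    rw [Prod.dist_eq, Real.dist_eq, Real.dist_eq, sub_zero, abs_of_pos d0, div_sub_one m2.ne',
      abs_div, abs_of_pos m2]
    exact max_lt hδ.2 (((div_le_iff₀ m2).2 m4).trans_lt
      ((min_le_right _ _).trans_lt (half_lt_self hr)))) (ca m / δ)
    ⟨(le_div_iff₀ d0).2 (by rwa [one_div_mul_eq_div]), (div_le_iff₀ d0).2 h2⟩
  have e1 : m.1 = Real.exp (-(δ * (√3 / 2 * (ca m / δ)))) := by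
    rw [← Real.exp_log m1, ca]
    refine congrArg _ ?_
    field_simp
  have e2 : |m.2| = δ * (ca m / δ * (2 * |m.2| / ca m) / 2) := by field_simp
  have e3 := C2_Is d0.ne' n1 e1 e2
  have e4 := C2_Is d0.ne' n0 e1 e2
  rw [mul_one] at e3
  rw [mul_zero, neg_zero, Real.exp_zero] at e4
  rw [e3, e4, ← C2_J (div_pos m2 d0)]
  exact h4.le

end Vale.Agent.P153C
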