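import Vale.Agent.P153C.A3
import Vale.Agent.P153C.B6
import Vale.Agent.P153C.C1
import Vale.Agent.P153C.C2

/-! Conservation law. int (Is s - Is 1) = - int Is 1. Fix M, eta, eps (Is_mid; Cone eps is inside Near). Off Cone eps
(finite measure): dominated convergence for Is s - Is 1 (Is_dom, Is_tend) and for indicator Near * J(ca/d) (bounded,
tends to 0). On Cone eps the error is at most (C/M)(mn(ca/(d/M)) + mn(ca/(dM))) + eta M mn(ca/d) +
|Is 1| indicator{ca <= d/M}; the last integral tends to 0. integral_map for rho. -/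

open MeasureTheory Filter Topology Set
open scoped InnerProductSpace ComplexConjugate

noncomputable section

namespace Vale.Agent.P153C

theorem C3_mn_pos {x : ℝ} (hx : 0 < x) : 0 < mn x := lt_min hx (inv_pos.2 hx)

theorem C3_mn_le {x : ℝ} (hx : 0 < x) : mn x ≤ 1 := by
  rcases le_total x 1 with h | h
  · exact (min_le_left _ _).trans h
  · exact (min_le_right _ _).trans (inv_le_one_of_one_le₀ h)

theorem C3_pt {K M η x a b j : ℝ} (hK : 0 ≤ K) (hM : 1 ≤ M) (hη : 0 ≤ η) (hx : 0 < x)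
    (h1 : |a| ≤ K * x) (h2 : |a - b| ≤ K * x⁻¹) (h3 : |j| ≤ K * mn x)
    (h4 : M⁻¹ ≤ x → x ≤ M → |a - b - j| ≤ η) :
    |a - b - j| ≤ 2 * K / M * (mn (x * M) + mn (x / M)) + η * M * mn x +
      if x ≤ 1 then |b| else 0 := by
  have hM0 : 0 < M := by linarith
  have p1 := (C3_mn_pos (mul_pos hx hM0)).le
  have p2 := (C3_mn_pos (div_pos hx hM0)).le
  have p3 := (C3_mn_pos hx).le
  have p4 : 0 ≤ if x ≤ 1 then |b| else 0 := by split_ifs <;> positivity
  have p5 : 0 ≤ 2 * K / M := by positivity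
  have p6 : 0 ≤ η * M * mn x := by positivity
  have p7 := mul_nonneg p5 p1
  have p8 := mul_nonneg p5 p2
  rw [mul_add]
  by_cases c1 : x < M⁻¹
  · have e1 : x * M ≤ 1 := by
      have := mul_lt_mul_of_pos_right c1 hM0
      rw [inv_mul_cancel₀ hM0.ne'] at this
      exact this.le
    have e2 : mn (x * M) = x * M :=
      min_eq_left (e1.trans ((one_le_inv₀ (mul_pos hx hM0)).2 e1))
    have e3 : 2 * K / M * (x * M) = 2 * (K * x) := by field_simp
    have e4 : K * mn x ≤ K * x := mul_le_mul_of_nonneg_left (min_le_left _ _) hK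
    rw [e2, e3, if_pos (by nlinarith)]
    have := abs_sub (a - b) j
    have := abs_sub a b
    linarith
  by_cases c2 : M < x
  · have e1 : 1 ≤ x / M := (one_le_div hM0).2 c2.le
    have e2 : mn (x / M) = (x / M)⁻¹ := min_eq_right ((inv_le_one_of_one_le₀ e1).trans e1)
    have e3 : 2 * K / M * (x / M)⁻¹ = 2 * (K * x⁻¹) := by field_simp
    have e4 : K * mn x ≤ K * x⁻¹ := mul_le_mul_of_nonneg_left (min_le_right _ _) hK
    rw [e2, e3]
    have := abs_sub (a - b) j
    linarith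
  · have e1 : M⁻¹ ≤ mn x := le_min (not_lt.1 c1) (inv_anti₀ hx (not_lt.1 c2))
    have e2 : η * M * M⁻¹ ≤ η * M * mn x := mul_le_mul_of_nonneg_left e1 (by positivity)
    rw [mul_inv_cancel_right₀ hM0.ne'] at e2
    have := h4 (not_lt.1 c1) (not_lt.1 c2)
    linarith

theorem C3_int (ν : Measure (ℝ × ℝ)) {φ : ℝ → ℝ} (hφ : Measurable φ) :
    ∫ a, φ a ∂rho ν = ∫ m, Near.indicator (fun m => φ (ca m)) m ∂ν := by
  rw [rho, integral_map ca_meas.aemeasurable hφ.aestronglyMeasurable,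
    integral_indicator (s := Near) (cone_meas _)]

theorem C3_intg {ν : Measure (ℝ × ℝ)} {φ : ℝ → ℝ} (hφ : Measurable φ) (h : Integrable φ (rho ν)) :
    Integrable (Near.indicator fun m => φ (ca m)) ν :=
  (integrable_indicator_iff (s := Near) (cone_meas _)).2
    ((integrable_map_measure hφ.aestronglyMeasurable ca_meas.aemeasurable).1 h)

theorem C3_Jm (δ : ℝ) : Measurable fun a => J (a / δ) := by unfold J; fun_prop

theorem C3_mnm (δ : ℝ) : Measurable fun a => mn (a / δ) := by unfold mn; fun_prop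

/-- The error. -/
def C3_E (δ : ℝ) (m : ℝ × ℝ) : ℝ :=
  Is (Real.exp (-δ)) m - Is 1 m - Near.indicator (fun m => J (ca m / δ)) m

/-- The part that tends to zero by dominated convergence. -/
def C3_H (ε δ : ℝ) (m : ℝ × ℝ) : ℝ :=
  (Cone ε)ᶜ.indicator (fun m => |C3_E δ m|) m +
    Near.indicator (fun m => if ca m / δ ≤ 1 then |Is 1 m| else 0) m

theorem C3_Em (δ : ℝ) : Measurable (C3_E δ) :=
  ((Is_meas _).sub (Is_meas _)).sub (((C3_Jm δ).comp ca_meas).indicator (cone_meas _))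

theorem C3_Hm (ε δ : ℝ) : Measurable (C3_H ε δ) :=
  ((C3_Em δ).abs.indicator (cone_meas _).compl).add
    ((Measurable.ite (measurableSet_le (ca_meas.div_const δ) measurable_const) (Is_meas 1).abs
      measurable_const).indicator (cone_meas _))

theorem C3_exp : Tendsto (fun δ : ℝ => Real.exp (-δ)) (𝓝[>] 0) (𝓝[<] 1) := by
  refine tendsto_nhdsWithin_iff.2 ⟨?_, ?_⟩
  · have h : Continuous fun δ : ℝ => Real.exp (-δ) := by fun_prop
    simpa using (h.tendsto 0).mono_left nhdsWithin_le_nhds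
  · filter_upwards [self_mem_nhdsWithin] with δ hδ
    exact Real.exp_lt_one_iff.2 (neg_lt_zero.2 hδ)

theorem C3_dom {ν : Measure (ℝ × ℝ)} (h : Ana ν) (h2 : Ana2 ν) {ε : ℝ}
    (hε : ε ∈ Ioc (0 : ℝ) (1 / 10)) :
    (∀ᶠ δ in 𝓝[>] (0 : ℝ), Integrable (C3_H ε δ) ν) ∧
      Tendsto (fun δ => ∫ m, C3_H ε δ m ∂ν) (𝓝[>] 0) (𝓝 0) := by
  obtain ⟨C, hC⟩ := Is_dom
  obtain ⟨K, hK⟩ := J_le
  have hb : Integrable (fun m => (Cone ε)ᶜ.indicator (fun _ => C + |K|) m + 3 * |Is 1 m|) ν :=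
    ((integrable_indicator_iff (cone_meas ε).compl).2
      (integrableOn_const (h2.fin ε hε))).add (h2.int1.abs.const_mul 3)
  have hle : ∀ᶠ δ in 𝓝[>] (0 : ℝ), ∀ᵐ m ∂ν, ‖C3_H ε δ m‖ ≤
      (Cone ε)ᶜ.indicator (fun _ => C + |K|) m + 3 * |Is 1 m| := by
    filter_upwards [C3_exp (Ico_mem_nhdsLT (show (1 / 2 : ℝ) < 1 by norm_num)),
      self_mem_nhdsWithin] with δ h1 hδ
    filter_upwards [h.supp, h2.good] with m m1 m2
    have a1 := hC _ h1 m m1 m2
    have a2 : |Near.indicator (fun m => J (ca m / δ)) m| ≤ |K| := by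
      by_cases c : m ∈ Near
      · have hx : 0 < ca m / δ := div_pos c.2.1 hδ
        rw [indicator_of_mem c]
        exact (hK _ hx).trans ((mul_le_mul_of_nonneg_right (le_abs_self K)
          (C3_mn_pos hx).le).trans (mul_le_of_le_one_right (abs_nonneg K) (C3_mn_le hx)))
      · simp [c]
    have a3 : |Near.indicator (fun m => if ca m / δ ≤ 1 then |Is 1 m| else 0) m| ≤ |Is 1 m| := by
      by_cases c : m ∈ Near
      · rw [indicator_of_mem c]
        split_ifs <;> simp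
      · simp [c]
    have a4 : |C3_E δ m| ≤ C + |K| + 2 * |Is 1 m| := by
      have := abs_sub (Is (Real.exp (-δ)) m - Is 1 m) (Near.indicator (fun m => J (ca m / δ)) m)
      have := abs_sub (Is (Real.exp (-δ)) m) (Is 1 m)
      unfold C3_E
      linarith
    refine (abs_add_le _ _).trans ?_
    have a5 := abs_nonneg (Is 1 m)
    by_cases c : m ∈ (Cone ε)ᶜ
    · rw [indicator_of_mem c, indicator_of_mem c, abs_abs]
      linarith
    · rw [indicator_of_notMem c, indicator_of_notMem c, abs_zero]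
      linarith
  refine ⟨hle.mono fun δ hδ => hb.mono' (C3_Hm ε δ).aestronglyMeasurable hδ, ?_⟩
  have := tendsto_integral_filter_of_dominated_convergence (f := fun _ => (0 : ℝ)) _
    (Eventually.of_forall fun δ => (C3_Hm ε δ).aestronglyMeasurable) hle hb ?_
  · simpa using this
  filter_upwards [h.supp, h2.good] with m m1 m2
  have b1 : Tendsto (fun δ => Near.indicator (fun m => J (ca m / δ)) m) (𝓝[>] 0) (𝓝 0) := by
    by_cases c : m ∈ Near
    · simp only [indicator_of_mem c]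
      have t1 : Tendsto (fun δ : ℝ => |K| * (δ / ca m)) (𝓝[>] 0) (𝓝 0) := by
        have hc : Continuous fun δ : ℝ => |K| * (δ / ca m) := by fun_prop
        simpa using (hc.tendsto 0).mono_left nhdsWithin_le_nhds
      refine squeeze_zero_norm' ?_ t1
      filter_upwards [self_mem_nhdsWithin] with δ hδ
      have hx : 0 < ca m / δ := div_pos c.2.1 hδ
      rw [← inv_div (ca m) δ]
      exact (hK _ hx).trans (mul_le_mul (le_abs_self K) (min_le_right _ _) (C3_mn_pos hx).le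
        (abs_nonneg K))
    · simp [c]
  have b2 : Tendsto (fun δ => |C3_E δ m|) (𝓝[>] 0) (𝓝 0) := by
    simpa [C3_E] using ((((Is_tend m1 m2).comp C3_exp).sub_const (Is 1 m)).sub b1).abs
  have b3 : Tendsto (fun δ => (Cone ε)ᶜ.indicator (fun m => |C3_E δ m|) m) (𝓝[>] 0) (𝓝 0) := by
    by_cases c : m ∈ (Cone ε)ᶜ
    · simpa only [indicator_of_mem c] using b2
    · simpa only [indicator_of_notMem c] using tendsto_const_nhds
  have b4 : Tendsto (fun δ => Near.indicator
      (fun m => if ca m / δ ≤ 1 then |Is 1 m| else 0) m) (𝓝[>] 0) (𝓝 0) := by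
    by_cases c : m ∈ Near
    · refine tendsto_const_nhds.congr' ?_
      filter_upwards [Ioo_mem_nhdsGT c.2.1] with δ hδ
      rw [indicator_of_mem c, if_neg (not_le.2 ((one_lt_div hδ.1).2 hδ.2))]
    · simpa only [indicator_of_notMem c] using tendsto_const_nhds
  simpa [C3_H] using b3.add b4

theorem C3_sub {ε : ℝ} (hε : ε ∈ Ioc (0 : ℝ) (1 / 10)) : Cone ε ⊆ Near := fun _ hm =>
  ⟨hm.1, hm.2.1, hm.2.2.1.trans hε.2,
    hm.2.2.2.trans (mul_le_mul_of_nonneg_right hε.2 hm.2.1.le)⟩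

theorem cons {ν : Measure (ℝ × ℝ)} {B : ℝ} (h : Ana ν) (h2 : Ana2 ν) (hm : Mass (rho ν) B) :
    Tendsto (fun δ => ∫ a, J (a / δ) ∂(rho ν)) (𝓝[>] 0) (𝓝 (-∫ m, Is 1 m ∂ν)) := by
  obtain ⟨K1, hK1⟩ := Is_small
  obtain ⟨K2, hK2⟩ := Is_large
  obtain ⟨K3, hK3⟩ := J_le
  obtain ⟨K, hK, k1, k2, k3⟩ : ∃ K : ℝ, 0 < K ∧ K1 ≤ K ∧ K2 ≤ K ∧ K3 ≤ K :=
    ⟨max 1 (max K1 (max K2 K3)), by simp, by simp, by simp, by simp⟩
  obtain ⟨A, hA, hB⟩ : ∃ A : ℝ, 0 < A ∧ B ≤ A := ⟨max 1 B, by simp, by simp⟩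
  refine Metric.tendsto_nhds.2 fun θ hθ => ?_
  obtain ⟨M, hM, hM1⟩ : ∃ M : ℝ, 1 ≤ M ∧ 16 * K * A / θ ≤ M := ⟨max 1 _, by simp, le_max_right _ _⟩
  have hM0 : 0 < M := by linarith
  have hη : 0 < θ / (4 * M * A) := by positivity
  obtain ⟨ε, hε, hmid⟩ := Is_mid hM hη
  obtain ⟨d1, d2⟩ := C3_dom h h2 hε
  filter_upwards [hmid, d1, d2.eventually (gt_mem_nhds (half_pos hθ)),
    Ioc_mem_nhdsGT one_pos, C3_exp (Ioo_mem_nhdsLT one_pos)] with δ a1 a2 a3 hδ a4
  have i1 := hm.le _ (div_pos hδ.1 hM0)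
  have i2 := hm.le _ (mul_pos hδ.1 hM0)
  have i3 := hm.le _ hδ.1
  have iJ : Integrable (fun a => J (a / δ)) (rho ν) :=
    (i3.1.const_mul K3).mono' (C3_Jm δ).aestronglyMeasurable
      (hm.pos.mono fun a ha => hK3 _ (div_pos ha hδ.1))
  have e1 : ∫ m, C3_E δ m ∂ν = -(∫ a, J (a / δ) ∂rho ν - -∫ m, Is 1 m ∂ν) := by
    have s1 := h.sum (Real.exp (-δ)) a4
    have s2 : Integrable (fun m => Is (Real.exp (-δ)) m - Is 1 m) ν := s1.1.sub h2.int1
    unfold C3_E
    rw [integral_sub s2 (C3_intg (C3_Jm δ) iJ), integral_sub s1.1 h2.int1, s1.2,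
      C3_int ν (C3_Jm δ)]
    ring
  have iφ : Integrable (fun a => 2 * K / M * (mn (a / (δ / M)) + mn (a / (δ * M))) +
      θ / (4 * M * A) * M * mn (a / δ)) (rho ν) :=
    ((i1.1.add i2.1).const_mul _).add (i3.1.const_mul _)
  have mφ : Measurable fun a => 2 * K / M * (mn (a / (δ / M)) + mn (a / (δ * M))) +
      θ / (4 * M * A) * M * mn (a / δ) :=
    (((C3_mnm _).add (C3_mnm _)).const_mul _).add ((C3_mnm _).const_mul _)
  have bφ : ∫ a, (2 * K / M * (mn (a / (δ / M)) + mn (a / (δ * M))) +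
      θ / (4 * M * A) * M * mn (a / δ)) ∂rho ν ≤ θ / 2 := by
    have s2 : Integrable (fun a => mn (a / (δ / M)) + mn (a / (δ * M))) (rho ν) := i1.1.add i2.1
    rw [integral_add (s2.const_mul _) (i3.1.const_mul _), integral_const_mul,
      integral_const_mul, integral_add i1.1 i2.1]
    have c1 := mul_le_mul_of_nonneg_left (add_le_add (i1.2.trans hB) (i2.2.trans hB))
      (show 0 ≤ 2 * K / M by positivity)
    have c2 := mul_le_mul_of_nonneg_left (i3.2.trans hB)
      (show 0 ≤ θ / (4 * M * A) * M by positivity)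
    have c3 : θ / (4 * M * A) * M * A = θ / 4 := by field_simp
    have c4 : 2 * K / M * (A + A) ≤ θ / 4 := by
      rw [div_le_iff₀ hθ] at hM1
      rw [div_mul_eq_mul_div, div_le_iff₀ hM0]
      linarith
    linarith
  rw [C3_int ν mφ] at bφ
  rw [Real.dist_eq, ← abs_neg, ← e1, ← Real.norm_eq_abs]
  refine (norm_integral_le_of_norm_le (a2.add (C3_intg mφ iφ))
    (Eventually.of_forall fun m => ?_)).trans_lt ?_
  · simp only [Pi.add_apply, C3_H, Real.norm_eq_abs]
    by_cases c : m ∈ Cone ε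
    · have c' := C3_sub hε c
      have hx : 0 < ca m / δ := div_pos c.2.1 hδ.1
      have := C3_pt hK.le hM hη.le hx
        ((hK1 δ hδ m c').trans (mul_le_mul_of_nonneg_right k1 hx.le))
        (b := Is 1 m) (by
          rw [inv_div]
          exact (hK2 δ hδ m c').trans (mul_le_mul_of_nonneg_right k2 (div_pos hδ.1 c.2.1).le))
        ((hK3 _ hx).trans (mul_le_mul_of_nonneg_right k3 (C3_mn_pos hx).le)) fun u v =>
          a1 m c (by rwa [le_div_iff₀ hδ.1, ← div_eq_inv_mul] at u) ((div_le_iff₀ hδ.1).1 v)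
      rw [indicator_of_notMem (notMem_compl_iff.2 c), C3_E, indicator_of_mem c',
        indicator_of_mem c', indicator_of_mem c', div_div_eq_mul_div, ← div_div,
        mul_div_right_comm (ca m)]
      linarith
    · rw [indicator_of_mem (mem_compl c), add_assoc]
      refine le_add_of_nonneg_right (add_nonneg (indicator_nonneg (fun m _ => ?_) m)
        (indicator_nonneg (fun m c' => ?_) m))
      · split_ifs <;> positivity
      · have := C3_mn_pos (div_pos c'.2.1 (div_pos hδ.1 hM0))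
        have := C3_mn_pos (div_pos c'.2.1 (mul_pos hδ.1 hM0))
        have := C3_mn_pos (div_pos c'.2.1 hδ.1)
        positivity
  · rw [integral_add' a2 (C3_intg mφ iφ)]
    linarith

end Vale.Agent.P153C
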