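import Vale.Agent.P153C.B1
import Vale.Agent.P153C.D1

/-! Lattice comparison. Eventually (p i).2 > 0; x = (p i).1, y = toNat (p i).2 -> oo. V p - V q = 2 int (ch q - ch p)
split over Near and its complement; on Near replace ch by re exp(i a pos) (near), giving
2 re (F (delta pos p) - F (delta pos q)) (F_int, integral_map); F delta is Lipschitz near z uniformly (F_deriv). -/

open MeasureTheory Filter Topology Set
open scoped InnerProductSpace ComplexConjugate

noncomputable section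

namespace Vale.Agent.P153C

theorem d2_lip {ρ : Measure ℝ} {B : ℝ} (hm : Mass ρ B) {ι : Type} {l : Filter ι} {δ : ι → ℝ}
    {u : ι → ℂ} {z : ℂ} (hz : 0 < z.im) (hδ : ∀ᶠ i in l, 0 < δ i) (hu : Tendsto u l (𝓝 z)) :
    Tendsto (fun i => (F ρ (δ i) (u i)).re - (F ρ (δ i) z).re) l (𝓝 0) := by
  have hB : 0 ≤ B := (cf_le hm one_pos).1.trans (cf_le hm one_pos).2
  have h1 : ∀ᶠ i in l, z.im / 2 < (u i).im :=
    ((Complex.continuous_im.tendsto z).comp hu).eventually (lt_mem_nhds (half_lt_self hz))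
  have h2 : Tendsto (fun i => B / (z.im / 2) * ‖u i - z‖) l (𝓝 0) := by
    simpa using (tendsto_iff_norm_sub_tendsto_zero.1 hu).const_mul (B / (z.im / 2))
  refine squeeze_zero_norm' ?_ h2
  filter_upwards [hδ, h1] with i a1 a2
  rw [← Complex.sub_re]
  refine (Complex.abs_re_le_norm _).trans ?_
  have hp : ∀ v ∈ {v : ℂ | z.im / 2 < v.im}, 0 < v.im := fun v hv => (half_pos hz).trans hv
  exact (convex_halfSpace_im_gt (z.im / 2)).norm_image_sub_le_of_norm_hasDerivWithin_le
    (f' := F1 ρ (δ i)) (fun v hv => (F_deriv hm a1 (hp v hv)).1.hasDerivWithinAt)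
    (fun v hv => (F_deriv hm a1 (hp v hv)).2.trans
      (div_le_div_of_nonneg_left hB (half_pos hz) (le_of_lt hv))) (half_lt_self hz) a2

theorem d2_one {ν : Measure (ℝ × ℝ)} {B δ : ℝ} (hm : Mass (rho ν) B) (hδ : 0 < δ) {u : ℂ}
    (hu : 0 < u.im) {c : ℝ × ℝ → ℝ} (h1 : IntegrableOn (fun m => 1 - c m) Near ν)
    (h2 : IntegrableOn (fun m => c m - (Complex.exp (Complex.I * ca m * u)).re) Near ν) :
    ∫ m in Near, (1 - c m) ∂ν = ∫ m in Near, (1 - (Complex.exp (-(ca m / δ : ℝ))).re) ∂ν +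
      (F (rho ν) δ (δ * u)).re - ∫ m in Near, (c m - (Complex.exp (Complex.I * ca m * u)).re) ∂ν := by
  have hz : 0 < ((δ : ℂ) * u).im := by simpa using mul_pos hδ hu
  have hi := F_int hm hδ hz
  have hd : (δ : ℂ) ≠ 0 := Complex.ofReal_ne_zero.2 hδ.ne'
  have e : ∀ a : ℝ, Complex.I * (a / δ : ℝ) * (δ * u) = Complex.I * a * u := fun a => by
    push_cast
    field_simp
  have h3 := (integrable_map_measure hi.aestronglyMeasurable ca_meas.aemeasurable).1 hi
  have h4 : F (rho ν) δ (δ * u) = ∫ m in Near,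
      (Complex.exp (-(ca m / δ : ℝ)) - Complex.exp (Complex.I * (ca m / δ : ℝ) * (δ * u))) ∂ν :=
    integral_map ca_meas.aemeasurable hi.aestronglyMeasurable
  have h5 : (F (rho ν) δ (δ * u)).re = ∫ m in Near,
      ((Complex.exp (-(ca m / δ : ℝ))).re - (Complex.exp (Complex.I * ca m * u)).re) ∂ν := by
    rw [h4]
    refine (integral_re h3).symm.trans ?_
    simp only [Function.comp_apply, e, RCLike.re_to_complex, Complex.sub_re]
  have h6 : IntegrableOn (fun m => (Complex.exp (-(ca m / δ : ℝ))).re -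
      (Complex.exp (Complex.I * ca m * u)).re) Near ν := by
    have := h3.re
    simp only [Function.comp_apply, e, RCLike.re_to_complex, Complex.sub_re] at this
    exact this
  have h7 : IntegrableOn (fun m => 1 - (Complex.exp (-(ca m / δ : ℝ))).re) Near ν :=
    ((h1.add h2).sub h6).congr (Eventually.of_forall fun m => by
      simp only [Pi.add_apply, Pi.sub_apply]
      ring)
  rw [h5, eq_sub_iff_add_eq, ← integral_add h7 h6, ← integral_add h1 h2]
  exact integral_congr_ae (Eventually.of_forall fun m => by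
    simp only
    ring)

theorem d2_co {ι : Type} {l : Filter ι} {δ : ι → ℝ} {p : ι → ℤ × ℤ} {z : ℂ} (hz : 0 < z.im)
    (hδ : Tendsto δ l (𝓝[>] 0)) (hp : Tendsto (fun i => (δ i : ℂ) * pos (p i)) l (𝓝 z)) :
    Tendsto (fun i => (p i).2.toNat) l atTop ∧ (∀ᶠ i in l, 0 < (pos (p i)).im) ∧
      (∀ᶠ i in l, ((p i).1 - (p i).2 + (p i).2.toNat, ((p i).2.toNat : ℤ)) = p i) ∧
      ∀ᶠ i in l, |(pos (p i)).re| ≤ (|z.re| + 1) / (z.im / 2) * (pos (p i)).im := by
  have h0 : ∀ᶠ i in l, 0 < δ i := hδ.eventually self_mem_nhdsWithin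
  have h1 : Tendsto (fun i => δ i * (pos (p i)).im) l (𝓝 z.im) := by
    simpa [Function.comp_def] using (Complex.continuous_im.tendsto z).comp hp
  have h2 : Tendsto (fun i => |δ i * (pos (p i)).re|) l (𝓝 |z.re|) := by
    refine Tendsto.abs ?_
    simpa [Function.comp_def] using (Complex.continuous_re.tendsto z).comp hp
  have h3 : Tendsto (fun i => (pos (p i)).im) l atTop := by
    refine (h1.pos_mul_atTop hz (tendsto_inv_nhdsGT_zero.comp hδ)).congr' ?_
    filter_upwards [h0] with i hi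
    simp only [Function.comp_apply]
    field_simp
  have s3 : (0 : ℝ) < √3 := by positivity
  have h4 : Tendsto (fun i => ((p i).2 : ℝ)) l atTop := by
    refine (h3.atTop_mul_const (r := 2 / √3) (by positivity)).congr fun i => ?_
    simp only [pos]
    field_simp
  have h5 : Tendsto (fun i => (p i).2) l atTop := tendsto_intCast_atTop_iff.1 h4
  refine ⟨tendsto_atTop.2 fun n => (h5.eventually_ge_atTop n).mono fun i hi => by omega,
    h3.eventually_gt_atTop 0, (h5.eventually_ge_atTop 0).mono fun i hi => ?_, ?_⟩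
  · exact Prod.ext (by simp only; omega) (by simp only; omega)
  · filter_upwards [h0, h1.eventually (lt_mem_nhds (half_lt_self hz)),
      h2.eventually (gt_mem_nhds (lt_add_one _))] with i a1 a2 a3
    rw [abs_mul, abs_of_pos a1] at a3
    rw [div_mul_eq_mul_div, le_div_iff₀ (half_pos hz)]
    refine le_of_mul_le_mul_left ?_ a1
    have := mul_le_mul a3.le a2.le (half_pos hz).le (by positivity)
    linarith

theorem d2_side {V : ℤ × ℤ → ℝ} {ν : Measure (ℝ × ℝ)} {B : ℝ} (hR : Rep V ν 0)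
    (h2 : Ana2 ν) (hm : Mass (rho ν) B) {ι : Type} {l : Filter ι} [l.IsCountablyGenerated]
    {δ : ι → ℝ} {p : ι → ℤ × ℤ} {z : ℂ} (hz : 0 < z.im) (hδ : Tendsto δ l (𝓝[>] 0))
    (hp : Tendsto (fun i => (δ i : ℂ) * pos (p i)) l (𝓝 z)) :
    Tendsto (fun i => V (p i) - 2 * (F (rho ν) (δ i) z).re -
      2 * ∫ m in Near, (1 - (Complex.exp (-(ca m / δ i : ℝ))).re) ∂ν -
      2 * ∫ m in Nearᶜ, (1 - ch ((p i).1 - (p i).2 + (p i).2.toNat) (p i).2.toNat m) ∂ν) l
      (𝓝 0) := by
  obtain ⟨c1, c2, c3, c4⟩ := d2_co hz hδ hp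
  have h0 : ∀ᶠ i in l, 0 < δ i := hδ.eventually self_mem_nhdsWithin
  obtain ⟨n1, n2⟩ := near h2 hm (x := fun i => (p i).1 - (p i).2 + (p i).2.toNat) c1
    (L := (|z.re| + 1) / (z.im / 2)) (by
      filter_upwards [c3, c4] with i a1 a2
      rw [a1]
      exact a2)
  have n3 := squeeze_zero_norm (fun i => (Real.norm_eq_abs _).trans_le abs_integral_le_integral_abs) n1
  have t := ((d2_lip hm hz h0 hp).sub n3).const_mul 2
  rw [sub_zero, mul_zero] at t
  refine t.congr' ?_
  filter_upwards [h0, c2, c3, n2] with i a0 a1 a2 a3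
  obtain ⟨r1, r2⟩ := hR.eq ((p i).1 - (p i).2 + (p i).2.toNat) (p i).2.toNat
  rw [a2] at a3 r2 ⊢
  rw [r2, integral_const_mul, ← integral_add_compl (cone_meas (1 / 10)) r1]
  have := d2_one hm a0 a1 r1.integrableOn a3
  unfold Near at this ⊢
  rw [this]
  ring

theorem latt {V : ℤ × ℤ → ℝ} {ν : Measure (ℝ × ℝ)} {B : ℝ} (hR : Rep V ν 0) (h : Ana ν)
    (h2 : Ana2 ν) (hm : Mass (rho ν) B) {ι : Type} {l : Filter ι} [l.IsCountablyGenerated]
    {δ : ι → ℝ} {p q : ι → ℤ × ℤ} {z w : ℂ} (hz : 0 < z.im) (hw : 0 < w.im)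
    (hδ : Tendsto δ l (𝓝[>] 0)) (hp : Tendsto (fun i => (δ i : ℂ) * pos (p i)) l (𝓝 z))
    (hq : Tendsto (fun i => (δ i : ℂ) * pos (q i)) l (𝓝 w))
    (hc : ∀ i, (3 : ℤ) ∣ (p i).1 - (p i).2 ↔ (3 : ℤ) ∣ (q i).1 - (q i).2) :
    Tendsto (fun i => V (p i) - V (q i) -
      2 * ((F (rho ν) (δ i) z).re - (F (rho ν) (δ i) w).re)) l (𝓝 0) := by
  have t := ((d2_side hR h2 hm hz hδ hp).sub (d2_side hR h2 hm hw hδ hq)).add
    ((far h h2 (x := fun i => (q i).1 - (q i).2 + (q i).2.toNat)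
      (x' := fun i => (p i).1 - (p i).2 + (p i).2.toNat) (d2_co hw hδ hq).1 (d2_co hz hδ hp).1
      fun i => by simpa only [add_sub_cancel_right] using (hc i).symm).const_mul 2)
  rw [sub_zero, mul_zero, add_zero] at t
  refine t.congr fun i => ?_
  have r1 := (hR.eq ((p i).1 - (p i).2 + (p i).2.toNat) (p i).2.toNat).1.integrableOn (s := Nearᶜ)
  have r2 := (hR.eq ((q i).1 - (q i).2 + (q i).2.toNat) (q i).2.toNat).1.integrableOn (s := Nearᶜ)
  have e := integral_sub r1 r2
  simp only [sub_sub_sub_cancel_left] at e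
  rw [e]
  ring

end Vale.Agent.P153C
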