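import Vale.Agent.P153C.R5
import Vale.Agent.P153C.A1
import Vale.Agent.P153C.A5
import Vale.Agent.P153C.A6
import Vale.Agent.P153C.A7
import Vale.Agent.P153C.B4
import Vale.Agent.P153C.B5
import Vale.Agent.P153C.C3
import Vale.Agent.P153C.D2

/-! The limit in the upper half plane. -/

open MeasureTheory Filter Topology Set
open scoped InnerProductSpace ComplexConjugate

noncomputable section

namespace Vale.Agent.P153C

theorem d3_floor (t : ℝ) : Tendsto (fun δ : ℝ => δ * (⌊t / δ⌋ : ℝ)) (𝓝[>] 0) (𝓝 t) := by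
  have h1 : Tendsto (fun δ : ℝ => t - δ) (𝓝[>] 0) (𝓝 t) := by
    have : Tendsto (fun δ : ℝ => t - δ) (𝓝 0) (𝓝 (t - 0)) :=
      (continuous_const.sub continuous_id).tendsto 0
    rw [sub_zero] at this
    exact this.mono_left nhdsWithin_le_nhds
  refine tendsto_of_tendsto_of_tendsto_of_le_of_le' h1 tendsto_const_nhds ?_ ?_
  · filter_upwards [self_mem_nhdsWithin] with δ hδ
    have hδ' : (0 : ℝ) < δ := hδ
    have h2 := mul_lt_mul_of_pos_left (Int.lt_floor_add_one (t / δ)) hδ'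
    rw [mul_div_cancel₀ _ hδ'.ne'] at h2
    linarith
  · filter_upwards [self_mem_nhdsWithin] with δ hδ
    have hδ' : (0 : ℝ) < δ := hδ
    have h2 := mul_le_mul_of_nonneg_left (Int.floor_le (t / δ)) hδ'.le
    rwa [mul_div_cancel₀ _ hδ'.ne'] at h2

theorem d3_pos (p : ℤ × ℤ) : pos p = (p.1 : ℝ) + (p.2 : ℝ) * om := by
  apply Complex.ext <;> simp [pos, om] <;> ring

theorem d3_rot (x y : ℤ) : pos (-y, x + y) = om * pos (x, y) := by
  have h3 : √3 * √3 = (3 : ℝ) := Real.mul_self_sqrt (by norm_num)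
  apply Complex.ext
  · simp only [pos, om, Complex.mul_re]
    push_cast
    linear_combination (y / 4 : ℝ) * h3
  · simp only [pos, om, Complex.mul_im]
    push_cast
    ring

theorem d3_approx (z : ℂ) : ∃ p : ℝ → ℤ × ℤ,
    Tendsto (fun δ : ℝ => (δ : ℂ) * pos (p δ)) (𝓝[>] 0) (𝓝 z) := by
  have h3 : √3 ≠ (0 : ℝ) := by positivity
  refine ⟨fun δ => (⌊(z.re - z.im / √3) / δ⌋, ⌊(2 * z.im / √3) / δ⌋), ?_⟩
  have h1 := (Complex.continuous_ofReal.tendsto _).comp (d3_floor (z.re - z.im / √3))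
  have h2 := (Complex.continuous_ofReal.tendsto _).comp (d3_floor (2 * z.im / √3))
  have h := h1.add (h2.mul_const om)
  have e : ((z.re - z.im / √3 : ℝ) : ℂ) + ((2 * z.im / √3 : ℝ) : ℂ) * om = z := by
    apply Complex.ext
    · simp only [om, Complex.add_re, Complex.mul_re, Complex.ofReal_re, Complex.ofReal_im]
      ring
    · simp only [om, Complex.add_im, Complex.mul_im, Complex.ofReal_re, Complex.ofReal_im]
      field_simp
      ring
  rw [e] at h
  refine h.congr fun δ => ?_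
  simp only [Function.comp, d3_pos]
  push_cast
  ring

theorem upper {V : ℤ × ℤ → ℝ} (h : RPV V) : ∃ c : ℝ, 0 ≤ c ∧
    ∀ (δ : ℕ → ℝ) (p q : ℕ → ℤ × ℤ) (z w : ℂ), 0 < z.im → 0 < w.im →
      Tendsto δ atTop (𝓝[>] 0) → Tendsto (fun i => (δ i : ℂ) * pos (p i)) atTop (𝓝 z) →
      Tendsto (fun i => (δ i : ℂ) * pos (q i)) atTop (𝓝 w) →
      (∀ i, (3 : ℤ) ∣ (p i).1 - (p i).2 ↔ (3 : ℤ) ∣ (q i).1 - (q i).2) →
      Tendsto (fun i => V (p i) - V (q i)) atTop (𝓝 (c * Real.log (‖z‖ / ‖w‖))) := by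
  obtain ⟨ν, A, hR⟩ := rep h
  have hA := sumrule h hR
  have h2 := fatou hA
  obtain ⟨B, hm⟩ := mass hA
  obtain rfl := lin_zero h hR h2
  have hpos : ∀ᶠ δ in 𝓝[>] (0 : ℝ), 0 < δ := self_mem_nhdsWithin
  have hd : ∀ᶠ δ in 𝓝[>] (0 : ℝ), F (rho ν) δ Complex.I = 0 ∧ ∀ z : ℂ, 0 < z.im →
      HasDerivAt (F (rho ν) δ) (F1 (rho ν) δ z) z ∧ ‖F1 (rho ν) δ z‖ ≤ B / z.im :=
    hpos.mono fun δ hδ => ⟨F_I _ _, fun z hz => F_deriv hm hδ hz⟩
  have hs : ∀ z : ℂ, 0 < z.im → 0 < (om * z).im → Tendsto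
      (fun δ => (F (rho ν) δ (om * z)).re - (F (rho ν) δ z).re) (𝓝[>] 0) (𝓝 0) := by
    intro z hz hz'
    obtain ⟨p, hp⟩ := d3_approx z
    have h1 := latt hR hA h2 hm (l := 𝓝[>] (0 : ℝ)) (δ := fun δ => δ)
      (p := fun δ => (-(p δ).2, (p δ).1 + (p δ).2)) (q := p) hz' hz tendsto_id
      ((hp.const_mul om).congr fun δ => by rw [d3_rot]; ring) hp (fun δ => by
        simp only []
        omega)
    have h3 := h1.const_mul (-(1 / 2) : ℝ)
    rw [mul_zero] at h3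
    refine h3.congr fun δ => ?_
    rw [h.rot]
    ring
  have hI : ∀ δ, Complex.I * F1 (rho ν) δ Complex.I = (cf (rho ν) δ : ℝ) := fun δ => by
    have := F1_I (rho ν) δ 1
    simpa [cf] using this
  have hk : ∀ k : ℕ, Tendsto (fun δ => (∫ a, a / δ * Real.exp (-((k + 1) * (a / δ))) ∂(rho ν)) -
      cf (rho ν) δ / (k + 1)) (𝓝[>] 0) (𝓝 0) := fun k => by
    have hk0 : (0 : ℝ) < k + 1 := by positivity
    have h1 := (liou hd hs (z := ((k + 1 : ℝ) : ℂ) * Complex.I) (by simpa using hk0)).1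
    have h3 := ((Complex.continuous_re.tendsto _).comp h1).div_const ((k : ℝ) + 1)
    rw [Complex.zero_re, zero_div] at h3
    refine h3.congr fun δ => ?_
    simp only [Function.comp, F1_I, hI, Complex.sub_re, Complex.ofReal_re]
    field_simp
  obtain ⟨CJ, hJ⟩ := J_le
  have hK := karamata hm hk J_cont hJ
  have hc : Tendsto (cf (rho ν)) (𝓝[>] 0)
      (𝓝 ((-∫ m, Is 1 m ∂ν) / ∫ x in Ioi (0 : ℝ), J x / x)) := by
    have h1 := ((cons hA h2 hm).sub hK).div_const (∫ x in Ioi (0 : ℝ), J x / x)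
    rw [sub_zero] at h1
    refine h1.congr fun δ => ?_
    have := J_pos.ne'
    field_simp
    ring
  set c := (-∫ m, Is 1 m ∂ν) / ∫ x in Ioi (0 : ℝ), J x / x
  have hc0 : 0 ≤ c := ge_of_tendsto hc (hpos.mono fun δ hδ => (cf_le hm hδ).1)
  have hF : ∀ z : ℂ, 0 < z.im →
      Tendsto (fun δ => (F (rho ν) δ z).re) (𝓝[>] 0) (𝓝 (c * Real.log ‖z‖)) := fun z hz => by
    have h1 := (Complex.continuous_re.tendsto _).comp (liou hd hs hz).2
    have h3 := h1.add (hc.mul_const (Real.log ‖z‖))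
    rw [Complex.zero_re, zero_add] at h3
    refine h3.congr fun δ => ?_
    simp only [Function.comp, hI, Complex.sub_re, Complex.re_ofReal_mul, Complex.log_re, norm_div,
      Complex.norm_I, div_one]
    ring
  refine ⟨2 * c, by positivity, fun δ p q z w hz hw hδ hp hq h3 => ?_⟩
  have h1 := (latt hR hA h2 hm hz hw hδ hp hq h3).add
    ((((hF z hz).comp hδ).sub ((hF w hw).comp hδ)).const_mul 2)
  have hz0 : ‖z‖ ≠ 0 := norm_ne_zero_iff.2 fun e => by simp [e] at hz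
  have hw0 : ‖w‖ ≠ 0 := norm_ne_zero_iff.2 fun e => by simp [e] at hw
  have e : 2 * c * Real.log (‖z‖ / ‖w‖) = 0 + 2 * (c * Real.log ‖z‖ - c * Real.log ‖w‖) := by
    rw [Real.log_div hz0 hw0]
    ring
  rw [e]
  refine h1.congr fun i => ?_
  simp only [Function.comp]
  ring

end Vale.Agent.P153C
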