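import Vale.Agent.P153C.M3
import Vale.Agent.P153C.D3
import Vale.Agent.P153C.D4

/-! Assembly. -/

open Filter Topology

namespace Vale.Agent.P153C

theorem main_rpv {V : ℤ × ℤ → ℝ} (h : RPV V) : ∃ σ : ℝ, 0 ≤ σ ∧
    (∀ (δ : ℕ → ℝ) (p q : ℕ → ℤ × ℤ) (z w : ℂ), z ≠ 0 → w ≠ 0 →
      Tendsto δ atTop (𝓝[>] 0) → Tendsto (fun i => (δ i : ℂ) * pos (p i)) atTop (𝓝 z) →
      Tendsto (fun i => (δ i : ℂ) * pos (q i)) atTop (𝓝 w) →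
      (∀ i, (3 : ℤ) ∣ (p i).1 - (p i).2 ↔ (3 : ℤ) ∣ (q i).1 - (q i).2) →
      Tendsto (fun i => V (p i) - V (q i)) atTop
        (𝓝 (σ ^ 2 / Real.pi * Real.log (‖z‖ / ‖w‖)))) ∧
    Tendsto (fun k : ℕ => V (3 * 2 ^ k, 0) / Real.log (2 ^ k)) atTop (𝓝 (σ ^ 2 / Real.pi)) := by
  obtain ⟨c, hc, hu⟩ := upper h
  have e : √(Real.pi * c) ^ 2 / Real.pi = c := by
    rw [Real.sq_sqrt (by positivity)]
    field_simp
  refine ⟨√(Real.pi * c), Real.sqrt_nonneg _, ?_⟩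
  rw [e]
  exact whole h hu

end Vale.Agent.P153C
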