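import Vale.Agent.P153C.Defs

/-! The core inequality. nq (e^-A) psi = 2 e^-A (cosh A - cos psi), so Is = log (N/D) with p = cosh(d+a)-1,
u = cosh a - 1, v = 1 - cos phi, N = (p+v)(p+v(3-2v)^2), D = (cosh(d+2a)-1)(cosh d - cos 2phi)
= (p-u)^2 + 2v(2-v)(cosh(d+2a)-1), and cosh(d+2a) - 1 <= 2(p+u+pu) (cosh(d+2a) + cosh d = 2(1+p)(1+u)).
N - D >= Q - (8pv^2+12v^3+8puv), Q = (u-3v)^2+2(p-u)(u+v); u <= p; (p+v)^2 <= N <= (p+9v)^2 for v <= 1/2;
log (N/D) >= 1 - D/N. -/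

open MeasureTheory Filter Topology Set
open scoped InnerProductSpace ComplexConjugate

noncomputable section

namespace Vale.Agent.P153C

theorem A2_nq (A ψ : ℝ) :
    nq (Real.exp (-A)) ψ = 2 * Real.exp (-A) * (Real.cosh A - Real.cos ψ) := by
  unfold nq
  rw [Real.cosh_eq]
  have h : Real.exp (-A) * Real.exp A = 1 := by rw [← Real.exp_add]; simp
  linear_combination (-1 : ℝ) * h

theorem A2_log (A ψ : ℝ) (h : 0 < Real.cosh A - Real.cos ψ) :
    Real.log (nq (Real.exp (-A)) ψ) = Real.log 2 - A + Real.log (Real.cosh A - Real.cos ψ) := by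
  rw [A2_nq, Real.log_mul (by positivity) h.ne', Real.log_mul two_ne_zero (Real.exp_pos _).ne',
    Real.log_exp]
  ring

theorem A2_alg {p u v w D : ℝ} (hp : 0 < p) (hu : 0 ≤ u) (hup : u ≤ p) (hv0 : 0 ≤ v)
    (hv : v ≤ 1 / 2) (hw : w ≤ 2 * (p + u + p * u))
    (hD : D = (p - u) ^ 2 + 2 * v * (2 - v) * w) (hD0 : 0 < D) :
    ((u - 3 * v) ^ 2 + 2 * (p - u) * (u + v)) / (p + 9 * v) ^ 2 - 12 * v ≤
      Real.log ((p + v * (3 - 2 * v) ^ 2) * (p + v)) - Real.log D := by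
  have a1 : v ≤ v * (3 - 2 * v) ^ 2 := le_mul_of_one_le_right hv0 (by nlinarith)
  have a2 : v * (3 - 2 * v) ^ 2 ≤ v * 9 := mul_le_mul_of_nonneg_left (by nlinarith) hv0
  obtain ⟨N, hN⟩ : ∃ N, N = (p + v * (3 - 2 * v) ^ 2) * (p + v) := ⟨_, rfl⟩
  have hN1 : (p + v) ^ 2 ≤ N := by
    rw [hN, sq]; exact mul_le_mul_of_nonneg_right (by linarith) (by linarith)
  have hN2 : N ≤ (p + 9 * v) ^ 2 := by
    rw [hN, sq (p + 9 * v)]; exact mul_le_mul (by linarith) (by linarith) (by linarith) (by linarith)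
  have hN0 : 0 < N := lt_of_lt_of_le (by positivity) hN1
  obtain ⟨Q, hQ⟩ : ∃ Q, Q = (u - 3 * v) ^ 2 + 2 * (p - u) * (u + v) := ⟨_, rfl⟩
  have hQ0 : 0 ≤ Q := by
    have : 0 ≤ p - u := by linarith
    rw [hQ]; positivity
  have b1 : D ≤ (p - u) ^ 2 + 2 * v * (2 - v) * (2 * (p + u + p * u)) := by
    have : 0 ≤ 2 * v * (2 - v) := mul_nonneg (by linarith) (by linarith)
    rw [hD]; linarith [mul_le_mul_of_nonneg_left hw this]
  have b2 : Q - (8 * p * v ^ 2 + 12 * v ^ 3 + 8 * p * u * v) ≤ N - D := by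
    have e : N - ((p - u) ^ 2 + 2 * v * (2 - v) * (2 * (p + u + p * u))) =
        Q - (8 * p * v ^ 2 + 12 * v ^ 3 + 8 * p * u * v) +
          (4 * p * v ^ 3 + 4 * v ^ 4 + 4 * u * v ^ 2 + 4 * p * u * v ^ 2) := by
      rw [hN, hQ]; ring
    have : 0 ≤ 4 * p * v ^ 3 + 4 * v ^ 4 + 4 * u * v ^ 2 + 4 * p * u * v ^ 2 := by positivity
    linarith
  have b3 : 8 * p * v ^ 2 + 12 * v ^ 3 + 8 * p * u * v ≤ 12 * v * N := by
    have c1 : 12 * v * (p + v) ^ 2 ≤ 12 * v * N := mul_le_mul_of_nonneg_left hN1 (by linarith)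
    have c2 : p * v * u ≤ p * v * p := mul_le_mul_of_nonneg_left hup (by positivity)
    have c3 : 0 ≤ p * v ^ 2 := by positivity
    have c4 : 0 ≤ p * v * p := by positivity
    nlinarith
  have b4 : Q / (p + 9 * v) ^ 2 ≤ Q / N := div_le_div_of_nonneg_left hQ0 hN0 hN2
  have b5 : Real.log (D / N) ≤ D / N - 1 := Real.log_le_sub_one_of_pos (div_pos hD0 hN0)
  have b6 : Q / N - 12 * v ≤ 1 - D / N := by
    have e1 : Q / N - 12 * v = (Q - 12 * v * N) / N := by field_simp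
    have e2 : 1 - D / N = (N - D) / N := by field_simp
    rw [e1, e2]
    exact div_le_div_of_nonneg_right (by linarith) hN0.le
  rw [Real.log_div hD0.ne' hN0.ne'] at b5
  rw [← hN, ← hQ]
  linarith

theorem Is_core {d a φ : ℝ} (hd : 0 ≤ d) (ha : 0 ≤ a) (hv : 1 - Real.cos φ ≤ 1 / 2)
    (h0 : 0 < d ∨ 0 < a ∧ Real.cos φ < 1) :
    ((Real.cosh a - 1 - 3 * (1 - Real.cos φ)) ^ 2 + 2 * (Real.cosh (d + a) - Real.cosh a) *
        (Real.cosh a - 1 + (1 - Real.cos φ))) /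
        (Real.cosh (d + a) - 1 + 9 * (1 - Real.cos φ)) ^ 2 - 12 * (1 - Real.cos φ) ≤
      Is (Real.exp (-d)) (Real.exp (-a), φ) := by
  have hda : 0 < d + a := by rcases h0 with h | h <;> [linarith; linarith [h.1]]
  have hc1 := Real.cos_le_one φ
  have hp : 1 < Real.cosh (d + a) := Real.one_lt_cosh.2 hda.ne'
  have hw : 1 < Real.cosh (d + 2 * a) := Real.one_lt_cosh.2 (by linarith : 0 < d + 2 * a).ne'
  have hu : 1 ≤ Real.cosh a := Real.one_le_cosh a
  have hd1 : 1 ≤ Real.cosh d := Real.one_le_cosh d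
  have hup : Real.cosh a ≤ Real.cosh (d + a) := by
    rw [Real.cosh_le_cosh, abs_of_nonneg ha, abs_of_nonneg hda.le]; linarith
  have k1 : 0 < Real.cosh (d + a) - Real.cos (3 * φ) := by linarith [Real.cos_le_one (3 * φ)]
  have k2 : 0 < Real.cosh (d + a) - Real.cos φ := by linarith
  have k3 : 0 < Real.cosh (d + 2 * a) - Real.cos 0 := by rw [Real.cos_zero]; linarith
  have k4 : 0 < Real.cosh d - Real.cos (2 * φ) := by
    rcases h0 with h | h
    · linarith [Real.one_lt_cosh.2 h.ne', Real.cos_le_one (2 * φ)]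
    · rw [Real.cos_two_mul]; nlinarith [h.2]
  have e1 : Real.exp (-d) * Real.exp (-a) = Real.exp (-(d + a)) := by
    rw [← Real.exp_add]; congr 1; ring
  have e2 : Real.exp (-d) * Real.exp (-a) ^ 2 = Real.exp (-(d + 2 * a)) := by
    rw [sq, ← Real.exp_add, ← Real.exp_add]; congr 1; ring
  have s1 : Real.cosh (d + 2 * a) + Real.cosh d = 2 * Real.cosh (d + a) * Real.cosh a := by
    have f1 : d + 2 * a = (d + a) + a := by ring
    have f2 : Real.cosh d = Real.cosh ((d + a) - a) := by congr 1; ring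
    rw [f1, f2, Real.cosh_add, Real.cosh_sub]; ring
  have s2 : (Real.cosh (d + 2 * a) - 1) * (Real.cosh d - 1) =
      (Real.cosh (d + a) - Real.cosh a) ^ 2 := by
    have f1 : d + 2 * a = (d + a) + a := by ring
    have f2 : Real.cosh d = Real.cosh ((d + a) - a) := by congr 1; ring
    rw [f1, f2, Real.cosh_add (d + a) a, Real.cosh_sub]
    have g1 := Real.cosh_sq (d + a)
    have g2 := Real.cosh_sq a
    linear_combination (Real.cosh a ^ 2 - 1) * g1 + Real.sinh (d + a) ^ 2 * g2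
  have key := A2_alg (p := Real.cosh (d + a) - 1) (u := Real.cosh a - 1) (v := 1 - Real.cos φ)
    (w := Real.cosh (d + 2 * a) - 1)
    (D := (Real.cosh (d + 2 * a) - Real.cos 0) * (Real.cosh d - Real.cos (2 * φ)))
    (by linarith) (by linarith) (by linarith) (by linarith) hv (by nlinarith)
    (by rw [Real.cos_zero, Real.cos_two_mul]; linear_combination s2) (mul_pos k3 k4)
  have m1 : Real.cosh (d + a) - 1 + (1 - Real.cos φ) * (3 - 2 * (1 - Real.cos φ)) ^ 2 =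
      Real.cosh (d + a) - Real.cos (3 * φ) := by rw [Real.cos_three_mul]; ring
  have m2 : Real.cosh (d + a) - 1 + (1 - Real.cos φ) = Real.cosh (d + a) - Real.cos φ := by ring
  have m3 : Real.cosh (d + a) - 1 - (Real.cosh a - 1) = Real.cosh (d + a) - Real.cosh a := by ring
  rw [m1, m2, m3, Real.log_mul k1.ne' k2.ne', Real.log_mul k3.ne' k4.ne'] at key
  unfold Is
  simp only
  rw [e1, e2, A2_log _ _ k1, A2_log _ _ k2, A2_log _ _ k3, A2_log _ _ k4]
  linarith

end Vale.Agent.P153C
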