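import Vale.Agent.P153C.Defs

/-! Pointwise facts as s -> 1. With w in the closed disc, |1 - s w| is comparable to (1-s) + s|1-w|
(re(1-w) >= 0). Ratios R1 = nq(sr,3phi)/nq(sr^2,0), R2 = nq(sr,phi)/nq(s,2phi) are >= 1/16 (1-r^2 <= 2|1-w|,
|1-u| = 2|sin phi| <= 2|1-lam|) and <= 4 max(1, value at s=1) (mediant); Is = log R1 + log R2. At r = 1,
cos 3phi = 1, phi != 0: Is s = 0 for all s (cos 2phi = cos phi). -/

open MeasureTheory Filter Topology Set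
open scoped InnerProductSpace ComplexConjugate

noncomputable section

namespace Vale.Agent.P153C

lemma A3_id (s r ψ : ℝ) : nq (s * r) ψ = (1 - s) * (1 - s * r ^ 2) + s * nq r ψ := by
  unfold nq
  ring

lemma A3_zero (t : ℝ) : nq t 0 = (1 - t) ^ 2 := by
  unfold nq
  rw [Real.cos_zero]
  ring

lemma A3_ge {t : ℝ} (ht : 0 ≤ t) (ψ : ℝ) : (1 - t) ^ 2 ≤ nq t ψ := by
  unfold nq
  nlinarith [Real.cos_le_one ψ]

lemma A3_sin (t ψ : ℝ) : Real.sin ψ ^ 2 ≤ nq t ψ := by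
  unfold nq
  nlinarith [Real.sin_sq_add_cos_sq ψ, sq_nonneg (t - Real.cos ψ)]

lemma A3_two (s ψ : ℝ) : nq s (2 * ψ) = (1 - s) ^ 2 + s * (4 * Real.sin ψ ^ 2) := by
  unfold nq
  rw [Real.cos_two_mul, Real.sin_sq]
  ring

lemma A3_pos {t : ℝ} (ht : 0 ≤ t) (h1 : t < 1) (ψ : ℝ) : 0 < nq t ψ :=
  (pow_pos (by linarith) 2).trans_le (A3_ge ht ψ)

lemma A3_log {a b K : ℝ} (ha : 0 < a) (hK : 0 < K) (hb : 0 < b) (h : a ≤ K * b) :
    Real.log a ≤ Real.log K + Real.log b := by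
  rw [← Real.log_mul hK.ne' hb.ne']
  exact Real.log_le_log ha h

section
variable {s r : ℝ} (h0 : 0 ≤ s) (h1 : s ≤ 1) (r0 : 0 ≤ r) (r1 : r ≤ 1) (ψ : ℝ)
include h0 h1 r0 r1

lemma A3_lo1 : nq (s * r ^ 2) 0 ≤ 4 * nq (s * r) ψ := by
  have a1 := A3_ge (mul_nonneg h0 r0) ψ
  have a2 : 1 - s * r ^ 2 ≤ 2 * (1 - s * r) := by nlinarith [mul_nonneg h0 (sq_nonneg (1 - r))]
  have a3 : 0 ≤ 1 - s * r ^ 2 := by
    have := mul_le_one₀ h1 (sq_nonneg r) (pow_le_one₀ r0 r1)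
    linarith
  have a4 := pow_le_pow_left₀ a3 a2 2
  rw [A3_zero]
  linarith [mul_pow 2 (1 - s * r) 2]

lemma A3_lo2 : nq s (2 * ψ) ≤ 4 * nq (s * r) ψ := by
  have a1 := mul_le_mul_of_nonneg_left (A3_sin r ψ) h0
  have a2 : s * r ^ 2 ≤ s := mul_le_of_le_one_right h0 (pow_le_one₀ r0 r1)
  have a3 : (1 - s) * (1 - s) ≤ (1 - s) * (1 - s * r ^ 2) :=
    mul_le_mul_of_nonneg_left (by linarith) (by linarith)
  rw [A3_two, A3_id]
  nlinarith [sq_nonneg (1 - s)]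

lemma A3_up1 : nq (s * r) ψ * nq (1 * r ^ 2) 0 ≤ 5 * (nq (1 * r) ψ * nq (s * r ^ 2) 0) := by
  have a0 := A3_lo1 zero_le_one le_rfl r0 r1 ψ
  rw [A3_id, A3_zero (s * r ^ 2)]
  rw [one_mul, one_mul, A3_zero] at a0 ⊢
  have b0 : r ^ 2 ≤ 1 := pow_le_one₀ r0 r1
  have b1 : s * r ^ 2 ≤ r ^ 2 := mul_le_of_le_one_left (sq_nonneg r) h1
  have b2 : s * r ^ 2 ≤ s := mul_le_of_le_one_right h0 b0
  have b3 : (1 - r ^ 2) ^ 2 ≤ (1 - s * r ^ 2) ^ 2 := pow_le_pow_left₀ (by linarith) (by linarith) 2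
  have b4 : (1 - s) * (1 - s * r ^ 2) ≤ (1 - s * r ^ 2) ^ 2 := by
    rw [sq (1 - s * r ^ 2)]
    exact mul_le_mul_of_nonneg_right (by linarith) (by linarith)
  have b5 : 0 ≤ nq r ψ := (sq_nonneg _).trans (A3_sin r ψ)
  have b6 : s * nq r ψ ≤ nq r ψ := mul_le_of_le_one_left b5 h1
  have b7 := mul_le_mul b4 a0 (sq_nonneg _) (sq_nonneg _)
  have b8 := mul_le_mul b6 b3 (sq_nonneg _) b5
  nlinarith

lemma A3_up2 : nq (s * r) ψ * nq 1 (2 * ψ) ≤ 7 * (nq (1 * r) ψ * nq s (2 * ψ)) := by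
  rw [A3_id, A3_two, A3_two, one_mul r, ← sq_abs (Real.sin ψ)]
  have a1 := A3_sin r ψ
  have a2 := A3_ge r0 ψ
  rw [← sq_abs] at a1
  have a3 := abs_nonneg (Real.sin ψ)
  generalize |Real.sin ψ| = σ at a1 a3 ⊢
  generalize nq r ψ = N at a1 a2 ⊢
  have N0 : 0 ≤ N := (sq_nonneg _).trans a1
  have s1 : 0 ≤ 1 - s := by linarith
  have b1 : σ * (1 - r) ≤ N := by nlinarith [sq_nonneg (σ - (1 - r))]
  have b2 : 4 * (1 - s) * σ * s ≤ (1 - s) ^ 2 + s * (4 * σ ^ 2) := by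
    nlinarith [sq_nonneg (1 - s - 2 * σ * s), mul_nonneg (mul_nonneg h0 (sq_nonneg σ)) s1]
  have b3 := mul_le_mul b1 b2 (by positivity) N0
  have b4 : (1 - s) * s * σ ^ 2 * (1 - r ^ 2) ≤ (1 - s) * s * σ ^ 2 * (2 * (1 - r)) :=
    mul_le_mul_of_nonneg_left (by nlinarith [sq_nonneg (1 - r)]) (by positivity)
  have b5 : (1 - s) ^ 2 * σ ^ 2 ≤ (1 - s) ^ 2 * N := mul_le_mul_of_nonneg_left a1 (sq_nonneg _)
  have b6 : 0 ≤ N * (s * σ ^ 2) := by positivity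
  have b7 : 0 ≤ N * (1 - s) ^ 2 := by positivity
  nlinarith

end

lemma A3_l1 {s r : ℝ} (h0 : 0 ≤ s) (h1 : s < 1) (r0 : 0 ≤ r) (r1 : r ≤ 1) (ψ : ℝ) :
    Real.log (nq (s * r ^ 2) 0) ≤ Real.log 4 + Real.log (nq (s * r) ψ) :=
  A3_log (A3_pos (by positivity) ((mul_le_of_le_one_right h0 (pow_le_one₀ r0 r1)).trans_lt h1) 0)
    (by norm_num) (A3_pos (mul_nonneg h0 r0) ((mul_le_of_le_one_right h0 r1).trans_lt h1) ψ)
    (A3_lo1 h0 h1.le r0 r1 ψ)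

lemma A3_l2 {s r : ℝ} (h0 : 0 ≤ s) (h1 : s < 1) (r0 : 0 ≤ r) (r1 : r ≤ 1) (ψ : ℝ) :
    Real.log (nq s (2 * ψ)) ≤ Real.log 4 + Real.log (nq (s * r) ψ) :=
  A3_log (A3_pos h0 h1 _) (by norm_num)
    (A3_pos (mul_nonneg h0 r0) ((mul_le_of_le_one_right h0 r1).trans_lt h1) ψ)
    (A3_lo2 h0 h1.le r0 r1 ψ)

lemma A3_low {s : ℝ} (h0 : 0 ≤ s) (h1 : s < 1) {m : ℝ × ℝ} (h : m ∈ Dom) :
    -(2 * Real.log 4) ≤ Is s m := by
  have a1 := A3_l1 h0 h1 h.1.1 h.1.2 (3 * m.2)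
  have a2 := A3_l2 h0 h1 h.1.1 h.1.2 m.2
  unfold Is
  linarith

lemma A3_null {m : ℝ × ℝ} (h1 : m.1 = 1) (h2 : Real.cos (3 * m.2) = 1) (s : ℝ) : Is s m = 0 := by
  have a1 : Real.cos (2 * m.2) = Real.cos m.2 := by
    rw [Real.cos_three_mul] at h2
    have a2 : (Real.cos m.2 - 1) * (2 * Real.cos m.2 + 1) ^ 2 = 0 := by linear_combination h2
    rw [Real.cos_two_mul]
    rcases mul_eq_zero.1 a2 with e | e
    · linear_combination (2 * Real.cos m.2 + 1) * e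
    · have e' := (pow_eq_zero_iff two_ne_zero).1 e
      linear_combination (Real.cos m.2 - 1) * e'
  simp only [Is, nq, h1, h2, a1, Real.cos_zero, one_pow, mul_one]
  ring

lemma A3_p1 {r : ℝ} (r0 : 0 ≤ r) (r1 : r < 1) (ψ : ℝ) : 0 < nq (1 * r) ψ := by
  rw [one_mul]
  exact A3_pos r0 r1 ψ

lemma A3_p2 {r : ℝ} (r0 : 0 ≤ r) (r1 : r < 1) : 0 < nq (1 * r ^ 2) 0 :=
  A3_p1 (sq_nonneg r) (pow_lt_one₀ r0 r1 two_ne_zero) 0

lemma A3_p3 {ψ : ℝ} (h : Real.sin ψ ≠ 0) : 0 < nq 1 (2 * ψ) := by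
  rw [A3_two]
  positivity

lemma A3_cont (r ψ : ℝ) (h : 0 < nq (1 * r) ψ) :
    Tendsto (fun s => Real.log (nq (s * r) ψ)) (𝓝[<] 1) (𝓝 (Real.log (nq (1 * r) ψ))) := by
  have h1 : ContinuousAt (fun s => nq (s * r) ψ) 1 := by
    unfold nq
    fun_prop
  exact (h1.log h.ne').tendsto.mono_left nhdsWithin_le_nhds

lemma A3_top {g : ℝ → ℝ} {c : ℝ} (hg : Tendsto g (𝓝[<] 1) (𝓝 c)) :
    Tendsto (fun s => g s - Real.log ((1 - s) ^ 2) - Real.log 4) (𝓝[<] 1) atTop := by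
  have h1 : Tendsto (fun s : ℝ => (1 - s) ^ 2) (𝓝[<] 1) (𝓝[>] 0) := by
    refine tendsto_nhdsWithin_iff.2 ⟨?_, ?_⟩
    · have h2 : ContinuousAt (fun s : ℝ => (1 - s) ^ 2) 1 := by fun_prop
      simpa using h2.tendsto.mono_left (nhdsWithin_le_nhds (s := Iio 1))
    · filter_upwards [self_mem_nhdsWithin] with s hs
      have h4 : 0 < 1 - s := sub_pos.2 hs
      exact pow_pos h4 2
  have h3 := tendsto_neg_atBot_atTop.comp (Real.tendsto_log_nhdsGT_zero.comp h1)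
  refine ((hg.sub_const (Real.log 4)).add_atTop h3).congr fun s => ?_
  simp only [Function.comp]
  ring

theorem Is_ge : ∃ C : ℝ, ∀ s ∈ Ico (1 / 2 : ℝ) 1, ∀ m ∈ Dom, -C ≤ Is s m :=
  ⟨2 * Real.log 4, fun _ hs _ hm => A3_low (by linarith [hs.1]) hs.2 hm⟩

theorem Is_dom : ∃ C : ℝ, ∀ s ∈ Ico (1 / 2 : ℝ) 1, ∀ m ∈ Dom, m ∈ Good →
    |Is s m| ≤ C + |Is 1 m| := by
  have l4 : 0 ≤ Real.log 4 := Real.log_nonneg (by norm_num)
  have l5 : 0 ≤ Real.log 5 := Real.log_nonneg (by norm_num)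
  have l7 : 0 ≤ Real.log 7 := Real.log_nonneg (by norm_num)
  refine ⟨2 * Real.log 4 + Real.log 5 + Real.log 7, fun s hs m hm hg => ?_⟩
  have h0 : 0 ≤ s := by linarith [hs.1]
  have a0 := abs_nonneg (Is 1 m)
  rcases hg with hg | hg
  · have r0 := hm.1.1
    have p1 := fun ψ => A3_pos (mul_nonneg h0 r0)
      ((mul_le_of_le_one_right h0 hg.1.le).trans_lt hs.2) ψ
    have p2 := A3_pos (mul_nonneg h0 (sq_nonneg m.1))
      ((mul_le_of_le_one_right h0 (pow_le_one₀ r0 hg.1.le)).trans_lt hs.2) 0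
    have p3 := A3_pos h0 hs.2 (2 * m.2)
    have q1 := A3_p1 r0 hg.1
    have q2 := A3_p2 r0 hg.1
    have q3 := A3_p3 hg.2
    have u1 := A3_log (mul_pos (p1 _) q2) (by norm_num) (mul_pos (q1 _) p2)
      (A3_up1 h0 hs.2.le r0 hg.1.le (3 * m.2))
    have u2 := A3_log (mul_pos (p1 _) q3) (by norm_num) (mul_pos (q1 _) p3)
      (A3_up2 h0 hs.2.le r0 hg.1.le m.2)
    rw [Real.log_mul (p1 _).ne' q2.ne', Real.log_mul (q1 _).ne' p2.ne'] at u1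
    rw [Real.log_mul (p1 _).ne' q3.ne', Real.log_mul (q1 _).ne' p3.ne'] at u2
    have a1 := A3_low h0 hs.2 hm
    have a2 := le_abs_self (Is 1 m)
    have a3 : Is s m ≤ Real.log 5 + Real.log 7 + Is 1 m := by
      unfold Is
      linarith
    exact abs_le.2 ⟨by linarith, by linarith⟩
  · rw [A3_null hg.1 hg.2 s, abs_zero]
    linarith

theorem Is_tend {m : ℝ × ℝ} (h : m ∈ Dom) (hg : m ∈ Good) :
    Tendsto (fun s => Is s m) (𝓝[<] 1) (𝓝 (Is 1 m)) := by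
  rcases hg with hg | hg
  · have k := A3_cont 1 (2 * m.2) (by rw [one_mul]; exact A3_p3 hg.2)
    simp only [mul_one] at k
    exact (((A3_cont _ _ (A3_p1 h.1.1 hg.1 _)).add (A3_cont _ _ (A3_p1 h.1.1 hg.1 _))).sub
      (A3_cont _ _ (A3_p2 h.1.1 hg.1))).sub k
  · simp only [A3_null hg.1 hg.2]
    exact tendsto_const_nhds

theorem Is_top {m : ℝ × ℝ} (h : m ∈ Dom) (hg : m ∉ Good) :
    Tendsto (fun s => Is s m) (𝓝[<] 1) atTop := by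
  have ev : ∀ᶠ s in 𝓝[<] (1 : ℝ), s ∈ Ioo (0 : ℝ) 1 := Ioo_mem_nhdsLT zero_lt_one
  rcases h.1.2.lt_or_eq with r1 | r1
  · have hs : Real.sin m.2 = 0 := by
      by_contra e
      exact hg (Or.inl ⟨r1, e⟩)
    refine tendsto_atTop_mono' _ ?_ (A3_top (A3_cont _ _ (A3_p1 h.1.1 r1 m.2)))
    filter_upwards [ev] with s hs'
    have a1 := A3_l1 hs'.1.le hs'.2 h.1.1 h.1.2 (3 * m.2)
    have a2 : nq s (2 * m.2) = (1 - s) ^ 2 := by
      rw [A3_two, hs]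
      ring
    unfold Is
    rw [a2]
    linarith
  · have hc : Real.cos (3 * m.2) < 1 :=
      (Real.cos_le_one _).lt_of_ne fun e => hg (Or.inr ⟨r1, e⟩)
    have hp : 0 < nq (1 * m.1) (3 * m.2) := by
      rw [r1]
      unfold nq
      linarith
    refine tendsto_atTop_mono' _ ?_ (A3_top (A3_cont _ _ hp))
    filter_upwards [ev] with s hs'
    have a1 := A3_l2 hs'.1.le hs'.2 h.1.1 h.1.2 m.2
    have a2 : nq (s * m.1 ^ 2) 0 = (1 - s) ^ 2 := by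
      rw [A3_zero, r1]
      ring
    unfold Is
    rw [a2]
    linarith

end Vale.Agent.P153C
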