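import Vale.Agent.P153C.A2
import Vale.Agent.P153C.A3

/-! Consequences of the core inequality (r = e^-a', a' = sqrt3/2 * ca m, v = 1 - cos phi <= gp for v <= 1).
low: if v <= 1/2 and r > 0 use Is_core, else gp >= 1/2 and Is_ge. shell: Q >= 2(p-u)u, p-u >= d a' , x^2/2 <= cosh x - 1
<= x^2 for |x| <= 1, v <= phi^2/2. off: d = 0, (u-3v)/(u+9v) with u = a'^2/2 (1+O(a'^2)), v = phi^2/2 (1+O(phi^2)):
u - 3v is (3/8)(a^2-b^2) up to order four, b = 2|phi|; gp small forces r near 1, ca m <= eps and phi near 0. -/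

open MeasureTheory Filter Topology Set
open scoped InnerProductSpace ComplexConjugate

noncomputable section

namespace Vale.Agent.P153C

theorem a4_cosh_ge {x : ℝ} (hx : 0 ≤ x) : x ^ 2 / 2 ≤ Real.cosh x - 1 := by
  have h1 := Real.cosh_two_mul (x / 2)
  have h2 := Real.cosh_sq (x / 2)
  have h3 : x / 2 ≤ Real.sinh (x / 2) := Real.self_le_sinh_iff.2 (by linarith)
  rw [show 2 * (x / 2) = x by ring] at h1
  nlinarith

theorem a4_cosh_le {x : ℝ} (hx : x ^ 2 ≤ 1) : Real.cosh x - 1 ≤ x ^ 2 / 2 + x ^ 4 / 4 := by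
  have h1 := Real.cosh_le_exp_half_sq x
  have h2 := Real.abs_exp_sub_one_sub_id_le (x := x ^ 2 / 2)
    (by rw [abs_of_nonneg (by positivity)]; linarith)
  have h3 := (abs_le.1 h2).2
  nlinarith

theorem a4_cosh_add {x y : ℝ} (hx : 0 ≤ x) (hy : 0 ≤ y) :
    x * y ≤ Real.cosh (x + y) - Real.cosh y := by
  have h1 : x ≤ Real.sinh x := Real.self_le_sinh_iff.2 hx
  have h2 : y ≤ Real.sinh y := Real.self_le_sinh_iff.2 hy
  have h3 := mul_le_mul h1 h2 hy (hx.trans h1)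
  have h4 := mul_le_mul_of_nonneg_right (Real.one_le_cosh x) (Real.cosh_pos y).le
  rw [Real.cosh_add]
  linarith

theorem a4_gp {m : ℝ × ℝ} (h1 : m.1 ≤ 1) (hv : 1 - Real.cos m.2 ≤ 1 / 2) :
    1 - Real.cos m.2 ≤ gp m := by
  unfold gp
  nlinarith

theorem a4_ca (m : ℝ × ℝ) : -Real.log m.1 = √3 / 2 * ca m := by
  have : (√3 : ℝ) ≠ 0 := by positivity
  unfold ca
  field_simp

theorem a4_s3 : (8 / 5 : ℝ) ≤ √3 ∧ (√3 : ℝ) ≤ 2 ∧ (√3 : ℝ) ^ 2 = 3 :=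
  ⟨Real.le_sqrt_of_sq_le (by norm_num), Real.sqrt_le_iff.2 ⟨by norm_num, by norm_num⟩,
    Real.sq_sqrt (by norm_num)⟩

theorem a4_ratio {ε a b u v : ℝ} (h0 : 0 < ε) (h1 : ε ≤ 1 / 10) (ha : 0 < a) (hb : 0 ≤ b)
    (ha1 : a ≤ ε) (hb1 : b ^ 2 ≤ ε / 2) (u1 : 3 * a ^ 2 / 8 ≤ u)
    (u2 : u ≤ 3 * a ^ 2 / 8 + 9 * a ^ 4 / 64) (v1 : b ^ 2 / 8 - b ^ 4 / 256 ≤ v)
    (v2 : v ≤ b ^ 2 / 8) (v0 : 0 ≤ v) (h : ε * a < |b - a|) :
    ε ^ 2 / 64 ≤ (u - 3 * v) ^ 2 / (u + 9 * v) ^ 2 := by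
  have a2 : 0 < a ^ 2 := by positivity
  have a3 : a ^ 2 ≤ 1 := by nlinarith
  have a4 : a ^ 4 ≤ a ^ 2 := by nlinarith
  have hp : 0 < u + 9 * v := by linarith
  have key : ε / 8 * (u + 9 * v) ≤ |u - 3 * v| := by
    rcases lt_abs.1 h with h | h
    · have e1 : a ≤ b := by nlinarith
      have e2 : a ^ 2 ≤ b ^ 2 := by gcongr
      have e3 : ((1 + ε) * a) ^ 2 ≤ b ^ 2 := by gcongr; linarith
      have e4 : a ^ 2 ≤ (1 - ε) * b ^ 2 := by
        have h2 : 0 ≤ 1 - ε - ε ^ 2 := by nlinarith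
        have h3 := mul_nonneg (mul_nonneg h0.le h2) a2.le
        have h4 := mul_le_mul_of_nonneg_left e3 (show 0 ≤ 1 - ε by linarith)
        nlinarith
      have e5 : b ^ 4 ≤ ε / 2 * b ^ 2 := by nlinarith [sq_nonneg b]
      have e6 : a ^ 4 ≤ b ^ 4 := by gcongr
      have e7 : u + 9 * v ≤ 2 * b ^ 2 := by linarith
      have e8 : ε / 8 * (u + 9 * v) ≤ ε / 8 * (2 * b ^ 2) := by gcongr
      have e9 : 0 ≤ ε * b ^ 2 := by positivity
      refine le_trans ?_ (neg_le_abs _)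
      nlinarith
    · have e1 : b ≤ (1 - ε) * a := by linarith
      have e3 : b ^ 2 ≤ ((1 - ε) * a) ^ 2 := by gcongr
      have e9 : 0 ≤ ε * a ^ 2 := by positivity
      have e4 : b ^ 2 ≤ (1 - ε) * a ^ 2 := by nlinarith
      have e7 : u + 9 * v ≤ 2 * a ^ 2 := by nlinarith
      have e8 : ε / 8 * (u + 9 * v) ≤ ε / 8 * (2 * a ^ 2) := by gcongr
      refine le_trans ?_ (le_abs_self _)
      nlinarith
  rw [le_div_iff₀ (by positivity), ← sq_abs (u - 3 * v)]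
  calc ε ^ 2 / 64 * (u + 9 * v) ^ 2 = (ε / 8 * (u + 9 * v)) ^ 2 := by ring
    _ ≤ _ := by gcongr

theorem Is_low : ∃ C : ℝ, ∀ s ∈ Ico (1 / 2 : ℝ) 1, ∀ m ∈ Dom, -(C * gp m) ≤ Is s m := by
  obtain ⟨C, hC⟩ := Is_ge
  refine ⟨12 + 2 * |C|, fun s hs m hm => ?_⟩
  obtain ⟨⟨r0, r1⟩, -, -⟩ := id hm
  have c1 := Real.cos_le_one m.2
  have g0 : 0 ≤ gp m := by
    unfold gp
    nlinarith
  have aC := abs_nonneg C
  by_cases h : 1 - Real.cos m.2 ≤ 1 / 2 ∧ 0 < m.1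
  · have s0 : 0 < s := by linarith [hs.1]
    have d0 : 0 < -Real.log s := neg_pos.2 (Real.log_neg s0 hs.2)
    have a0 : 0 ≤ -Real.log m.1 := neg_nonneg.2 (Real.log_nonpos r0 r1)
    have k := Is_core d0.le a0 h.1 (.inl d0)
    rw [neg_neg, neg_neg, Real.exp_log s0, Real.exp_log h.2] at k
    refine le_trans ?_ k
    have q1 := (mul_nonneg d0.le a0).trans (a4_cosh_add d0.le a0)
    have q2 := Real.one_le_cosh (-Real.log m.1)
    have q3 := a4_gp r1 h.1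
    have q4 := mul_nonneg aC g0
    refine le_trans ?_ (sub_le_sub_right (div_nonneg (add_nonneg (sq_nonneg _)
      (mul_nonneg (by linarith) (by linarith))) (sq_nonneg _)) _)
    linarith
  · have g1 : 1 / 2 ≤ gp m := by
      unfold gp
      rcases not_and_or.1 h with h | h
      · nlinarith
      · rw [le_antisymm (not_lt.1 h) r0]
        norm_num
    have := hC s hs m hm
    nlinarith [le_abs_self C]

theorem a4_shell {δ A v : ℝ} (d0 : 0 < δ) (d1 : δ ≤ 1 / 10) (A1 : 4 / 5 * δ ≤ A) (A2 : A ≤ 2 * δ)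
    (v0 : 0 ≤ v) (v1 : v ≤ δ ^ 2) :
    1 / 648 ≤ ((Real.cosh A - 1 - 3 * v) ^ 2 + 2 * (Real.cosh (δ + A) - Real.cosh A) *
      (Real.cosh A - 1 + v)) / (Real.cosh (δ + A) - 1 + 9 * v) ^ 2 := by
  have A0 : 0 ≤ A := by linarith
  have dd : δ ^ 2 ≤ (1 / 10) ^ 2 := by gcongr
  have q1 := a4_cosh_add d0.le A0
  have q2 := a4_cosh_ge A0
  have q3 : (δ + A) ^ 2 ≤ (3 * δ) ^ 2 := by gcongr; linarith
  have q3' : (δ + A) ^ 2 ≤ 1 := by linarith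
  have q4 := a4_cosh_le q3'
  have q5 := a4_cosh_ge (add_nonneg d0.le A0)
  have q6 : 0 < (δ + A) ^ 2 := by positivity
  have q7 := mul_le_mul_of_nonneg_left q3' q6.le
  have p0 : 0 < Real.cosh (δ + A) - 1 + 9 * v := by linarith
  have q8 : (Real.cosh (δ + A) - 1 + 9 * v) ^ 2 ≤ (18 * δ ^ 2) ^ 2 :=
    pow_le_pow_left₀ p0.le (by linarith) 2
  have r1 : (4 / 5 * δ) ^ 2 ≤ A ^ 2 := by gcongr
  have r2 : δ * (4 / 5 * δ) ≤ δ * A := by gcongr
  have q9 : δ * (4 / 5 * δ) * ((4 / 5 * δ) ^ 2 / 2) ≤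
      (Real.cosh (δ + A) - Real.cosh A) * (Real.cosh A - 1 + v) :=
    mul_le_mul (r2.trans q1) (by linarith) (by positivity)
      ((mul_nonneg d0.le A0).trans q1)
  rw [le_div_iff₀ (pow_pos p0 2)]
  linarith [sq_nonneg (Real.cosh A - 1 - 3 * v), pow_pos d0 4]

theorem Is_shell : ∃ c > 0, ∀ δ ∈ Ioc (0 : ℝ) (1 / 10), ∀ m ∈ Near, δ ≤ ca m → ca m ≤ 2 * δ →
    c - 12 * gp m ≤ Is (Real.exp (-δ)) m := by
  refine ⟨1 / 648, by norm_num, fun δ ⟨d0, d1⟩ m ⟨r0, a0, a1, hb⟩ l1 l2 => ?_⟩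
  obtain ⟨s1, s2, -⟩ := a4_s3
  have e := a4_ca m
  obtain ⟨A, hA⟩ : ∃ A, A = -Real.log m.1 := ⟨_, rfl⟩
  rw [← hA] at e
  have A1 : 4 / 5 * δ ≤ A := by linarith [mul_le_mul_of_nonneg_right s1 a0.le]
  have A2 : A ≤ 2 * δ := by linarith [mul_le_mul_of_nonneg_right s2 a0.le]
  have A0 : 0 ≤ A := by linarith
  have er : Real.exp (-A) = m.1 := by rw [hA, neg_neg, Real.exp_log r0]
  have r1 : m.1 ≤ 1 := er ▸ Real.exp_le_one_iff.2 (by linarith)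
  have p1 : |m.2| ≤ 11 / 10 * δ := by linarith [(abs_le.1 hb).2]
  have p2 : m.2 ^ 2 ≤ (11 / 10 * δ) ^ 2 := by
    rw [← sq_abs]
    exact pow_le_pow_left₀ (abs_nonneg _) p1 2
  have v2 := Real.one_sub_sq_div_two_le_cos (x := m.2)
  have v0 := Real.cos_le_one m.2
  have dd : δ ^ 2 ≤ (1 / 10) ^ 2 := pow_le_pow_left₀ d0.le d1 2
  have d2 := sq_nonneg δ
  have hv : 1 - Real.cos m.2 ≤ 1 / 2 := by linarith
  have k := Is_core d0.le A0 hv (.inl d0)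
  rw [er] at k
  exact le_trans (sub_le_sub (a4_shell d0 d1 A1 A2 (by linarith) (by linarith))
    (by linarith [a4_gp r1 hv])) k

theorem a4_near {η r c : ℝ} (h1 : η ≤ 1 / 2) (r0 : 0 ≤ r) (r1 : r ≤ 1) (c1 : c ≤ 1)
    (h : 1 - r * c ≤ η) : 1 - η ≤ c ∧ 1 - η ≤ r := by
  have c0 : 0 ≤ c := by
    by_contra h
    nlinarith [mul_nonneg r0 (neg_nonneg.2 (not_le.1 h).le)]
  exact ⟨by nlinarith, by nlinarith⟩

theorem a4_phi {φ η : ℝ} (hφ : |φ| ≤ Real.pi) (h : 1 - η ≤ Real.cos φ) : φ ^ 2 ≤ 8 * η := by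
  have pi4 := Real.pi_le_four
  have pi0 := Real.pi_pos
  have h2 := Real.cos_le_one_sub_mul_cos_sq hφ
  have h3 : 2 / Real.pi ^ 2 * φ ^ 2 ≤ η := by linarith
  have h4 : Real.pi ^ 2 ≤ 16 := by nlinarith
  have h5 : 0 ≤ η := le_trans (by positivity) h3
  rw [div_mul_eq_mul_div, div_le_iff₀ (by positivity)] at h3
  nlinarith

theorem a4_log {r η : ℝ} (h0 : 0 ≤ η) (h1 : η ≤ 1 / 2) (h : 1 - η ≤ r) : -Real.log r ≤ 2 * η := by
  have r3 : 0 < r := by linarith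
  have h2 := Real.one_sub_inv_le_log_of_pos r3
  have h3 : r⁻¹ ≤ 1 + 2 * η := by
    rw [inv_le_iff_one_le_mul₀ r3]
    nlinarith
  linarith

theorem Is_off {ε : ℝ} (h0 : 0 < ε) (h1 : ε ≤ 1 / 10) : ∃ c > 0, ∃ η > 0, ∀ m ∈ Dom, m ∈ Good →
    gp m ≤ η → m ∉ Cone ε → c - 12 * gp m ≤ Is 1 m := by
  refine ⟨ε ^ 2 / 64, by positivity, ε / 100, by positivity,
    fun m ⟨⟨r0, r1⟩, hφ, hne⟩ hg hη hc => ?_⟩
  obtain ⟨s1, s2, s3⟩ := a4_s3
  have v0 := Real.cos_le_one m.2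
  obtain ⟨c1, r2⟩ := a4_near (by linarith) r0 r1 v0 hη
  have c0 : 0 < Real.cos m.2 := by linarith
  have r3 : 0 < m.1 := by linarith
  have pi0 := Real.pi_pos
  rcases hg with ⟨r4, hs⟩ | ⟨r4, hs⟩
  swap
  · exfalso
    rw [Real.cos_three_mul] at hs
    have h2 : (Real.cos m.2 - 1) * (2 * Real.cos m.2 + 1) ^ 2 = 0 := by linear_combination hs
    have h3 : Real.cos m.2 = 1 := sub_eq_zero.1 ((mul_eq_zero.1 h2).resolve_right (by positivity))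
    exact hne (Prod.ext r4 ((Real.cos_eq_one_iff_of_lt_of_lt (by linarith [hφ.1])
      (by linarith [hφ.2])).1 h3))
  have c2 : Real.cos m.2 < 1 := lt_of_le_of_ne v0 fun h => hs (by
    have := Real.sin_sq_add_cos_sq m.2
    rw [h] at this
    exact pow_eq_zero_iff two_ne_zero |>.1 (by linarith))
  have e := a4_ca m
  have A1 := a4_log (by linarith) (by linarith) r2
  obtain ⟨A, hA⟩ : ∃ A, A = -Real.log m.1 := ⟨_, rfl⟩
  rw [← hA] at e A1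
  have A0 : 0 < A := hA ▸ neg_pos.2 (Real.log_neg r3 r4)
  have er : Real.exp (-A) = m.1 := by rw [hA, neg_neg, Real.exp_log r3]
  have a0 : 0 < ca m := (mul_pos_iff_of_pos_left (by positivity)).1 (e ▸ A0)
  have a1 : ca m ≤ ε := by linarith [mul_le_mul_of_nonneg_right s1 a0.le]
  have hv : 1 - Real.cos m.2 ≤ 1 / 2 := by linarith
  have k := Is_core le_rfl A0.le hv (.inr ⟨A0, c2⟩)
  rw [er, neg_zero, Real.exp_zero, zero_add, sub_self, mul_zero, zero_mul, add_zero] at k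
  refine le_trans (sub_le_sub ?_ (by linarith [a4_gp r1 hv])) k
  have p1 := a4_phi (abs_le.2 hφ) c1
  have p2 : |m.2| ≤ 1 := (sq_le_one_iff_abs_le_one _).1 (by linarith)
  have p3 := (abs_le.1 (Real.cos_bound p2)).2
  have p4 : (2 * |m.2|) ^ 2 = 4 * m.2 ^ 2 := by rw [mul_pow, sq_abs]; norm_num
  have p5 : (2 * |m.2|) ^ 4 = 16 * |m.2| ^ 4 := by ring
  have p6 := pow_nonneg (abs_nonneg m.2) 4
  have eA : A ^ 2 = 3 * ca m ^ 2 / 4 := by
    rw [e, mul_pow, div_pow, s3]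
    ring
  have eA4 : A ^ 4 = 9 * ca m ^ 4 / 16 := by
    rw [show A ^ 4 = (A ^ 2) ^ 2 by ring, eA]
    ring
  have u1 := a4_cosh_ge A0.le
  have u2 := a4_cosh_le (x := A) (pow_le_one₀ A0.le (by linarith))
  have v2 := Real.one_sub_sq_div_two_le_cos (x := m.2)
  exact a4_ratio h0 h1 a0 (b := 2 * |m.2|) (by positivity) a1 (by linarith) (by linarith)
    (by linarith) (by linarith) (by linarith) (by linarith)
    (not_le.1 fun h => hc ⟨r3, a0, a1, h⟩)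

end Vale.Agent.P153C
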