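import Vale.Agent.P153C.Defs

/-! Rigidity. E zeta = G (exp (zeta - i k pi/3)) with k = floor (3 im zeta / pi) - 1 is entire (near each point it is
G (exp (zeta - i k0 pi/3)) for a fixed k0, by invariance), bounded by 2B; Differentiable.apply_eq_apply_of_bounded;
every z in the upper half plane is reached (z = exp (log z), invariance). -/

open MeasureTheory Filter Topology Set
open scoped InnerProductSpace ComplexConjugate

noncomputable section

namespace Vale.Agent.P153C

theorem b2_om : Complex.exp (((Real.pi / 3 : ℝ) : ℂ) * Complex.I) = om := by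
  apply Complex.ext
  · rw [Complex.exp_ofReal_mul_I_re, Real.cos_pi_div_three]; rfl
  · rw [Complex.exp_ofReal_mul_I_im, Real.sin_pi_div_three]; rfl

theorem b2_pos {w : ℂ} (h0 : 0 < w.im) (h1 : w.im < Real.pi) : 0 < (Complex.exp w).im := by
  rw [Complex.exp_im]
  exact mul_pos (Real.exp_pos _) (Real.sin_pos_of_pos_of_lt_pi h0 h1)

theorem b2_im (w : ℂ) (t : ℝ) : (w + (t : ℂ) * Complex.I).im = w.im + t := by simp

theorem b2_nat {G : ℂ → ℂ}
    (hs : ∀ z : ℂ, 0 < z.im → 0 < (om * z).im → G (om * z) = G z) {w : ℂ} (h0 : 0 < w.im) (n : ℕ)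
    (h1 : w.im + n * (Real.pi / 3) < Real.pi) :
    G (Complex.exp (w + ((n * (Real.pi / 3) : ℝ) : ℂ) * Complex.I)) = G (Complex.exp w) := by
  induction n with
  | zero => simp
  | succ n ih =>
    have hp := Real.pi_pos
    have hn : (0 : ℝ) ≤ n * (Real.pi / 3) := by positivity
    have e1 : (((n + 1 : ℕ) : ℝ)) * (Real.pi / 3) = n * (Real.pi / 3) + Real.pi / 3 := by
      push_cast; ring
    have e2 : Complex.exp (w + ((((n + 1 : ℕ) : ℝ) * (Real.pi / 3) : ℝ) : ℂ) * Complex.I) =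
        om * Complex.exp (w + ((n * (Real.pi / 3) : ℝ) : ℂ) * Complex.I) := by
      rw [← b2_om, ← Complex.exp_add, e1]
      congr 1
      push_cast; ring
    have h2 : w.im + n * (Real.pi / 3) < Real.pi := by linarith
    rw [← ih h2, e2]
    refine hs _ (b2_pos ?_ ?_) ?_
    · rw [b2_im]; linarith
    · rw [b2_im]; exact h2
    · rw [← e2]
      refine b2_pos ?_ ?_
      · rw [b2_im]; linarith
      · rw [b2_im]; exact h1

theorem b2_le {G : ℂ → ℂ}
    (hs : ∀ z : ℂ, 0 < z.im → 0 < (om * z).im → G (om * z) = G z) {w : ℂ} {j k : ℤ} (hjk : j ≤ k)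
    (h0 : 0 < w.im + j * (Real.pi / 3)) (h1 : w.im + k * (Real.pi / 3) < Real.pi) :
    G (Complex.exp (w + ((k * (Real.pi / 3) : ℝ) : ℂ) * Complex.I)) =
      G (Complex.exp (w + ((j * (Real.pi / 3) : ℝ) : ℂ) * Complex.I)) := by
  obtain ⟨n, rfl⟩ := Int.le.dest hjk
  have h := b2_nat hs (w := w + ((j * (Real.pi / 3) : ℝ) : ℂ) * Complex.I)
    (by rw [b2_im]; exact h0) n (by rw [b2_im]; push_cast at h1; linarith)
  rw [← h]
  congr 2
  push_cast; ring

theorem b2_int {G : ℂ → ℂ}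
    (hs : ∀ z : ℂ, 0 < z.im → 0 < (om * z).im → G (om * z) = G z) {w : ℂ} {j k : ℤ}
    (h0 : 0 < w.im + j * (Real.pi / 3)) (h1 : w.im + j * (Real.pi / 3) < Real.pi)
    (h2 : 0 < w.im + k * (Real.pi / 3)) (h3 : w.im + k * (Real.pi / 3) < Real.pi) :
    G (Complex.exp (w + ((k * (Real.pi / 3) : ℝ) : ℂ) * Complex.I)) =
      G (Complex.exp (w + ((j * (Real.pi / 3) : ℝ) : ℂ) * Complex.I)) := by
  rcases le_total j k with h | h
  · exact b2_le hs h h0 h3
  · exact (b2_le hs h h2 h1).symm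

/-- The number of rotations. -/
def b2k (w : ℂ) : ℤ := 1 - ⌊w.im / (Real.pi / 3)⌋

theorem b2_k (w : ℂ) : Real.pi / 3 ≤ w.im + b2k w * (Real.pi / 3) ∧
    w.im + b2k w * (Real.pi / 3) ≤ 2 * (Real.pi / 3) := by
  have hp : 0 < Real.pi / 3 := by positivity
  have h1 := (le_div_iff₀ hp).1 (Int.floor_le (w.im / (Real.pi / 3)))
  have h2 := (div_lt_iff₀ hp).1 (Int.lt_floor_add_one (w.im / (Real.pi / 3)))
  unfold b2k
  push_cast
  constructor <;> linarith

theorem b2_sin {y : ℝ} (h0 : Real.pi / 3 ≤ y) (h1 : y ≤ 2 * (Real.pi / 3)) : 1 / 2 ≤ Real.sin y := by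
  have hp := Real.pi_lt_four
  have h2 := Real.one_sub_sq_div_two_le_cos (x := Real.pi / 2 - y)
  have h3 : (Real.pi / 2 - y) ^ 2 ≤ 1 ^ 2 := sq_le_sq' (by linarith) (by linarith)
  rw [Real.cos_pi_div_two_sub] at h2
  linarith

theorem rigid {G : ℂ → ℂ} {B : ℝ} (hd : DifferentiableOn ℂ G {z | 0 < z.im})
    (hb : ∀ z : ℂ, 0 < z.im → ‖G z‖ ≤ B * ‖z‖ / z.im)
    (hs : ∀ z : ℂ, 0 < z.im → 0 < (om * z).im → G (om * z) = G z) {z : ℂ} (hz : 0 < z.im) :
    G z = G Complex.I := by
  have hp := Real.pi_pos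
  set E : ℂ → ℂ := fun w => G (Complex.exp (w + ((b2k w * (Real.pi / 3) : ℝ) : ℂ) * Complex.I))
    with hE
  have key : ∀ (w : ℂ) (j : ℤ), 0 < w.im + j * (Real.pi / 3) → w.im + j * (Real.pi / 3) < Real.pi →
      E w = G (Complex.exp (w + ((j * (Real.pi / 3) : ℝ) : ℂ) * Complex.I)) := fun w j h0 h1 =>
    b2_int hs h0 h1 (by linarith [(b2_k w).1]) (by linarith [(b2_k w).2])
  have hD : Differentiable ℂ E := by
    intro w
    have h0 : 0 < w.im + b2k w * (Real.pi / 3) := by linarith [(b2_k w).1]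
    have h1 : w.im + b2k w * (Real.pi / 3) < Real.pi := by linarith [(b2_k w).2]
    have hc : Continuous fun v : ℂ => v.im + b2k w * (Real.pi / 3) := by fun_prop
    have e : E =ᶠ[𝓝 w] fun v =>
        G (Complex.exp (v + ((b2k w * (Real.pi / 3) : ℝ) : ℂ) * Complex.I)) := by
      filter_upwards [hc.continuousAt.eventually (lt_mem_nhds h0),
        hc.continuousAt.eventually (gt_mem_nhds h1)] with v a b
      exact key v _ a b
    refine DifferentiableAt.congr_of_eventuallyEq ?_ e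
    have hO : IsOpen {z : ℂ | 0 < z.im} := isOpen_lt continuous_const Complex.continuous_im
    have h2 : DifferentiableAt ℂ G
        (Complex.exp (w + ((b2k w * (Real.pi / 3) : ℝ) : ℂ) * Complex.I)) :=
      hd.differentiableAt (hO.mem_nhds
        (b2_pos (by rw [b2_im]; exact h0) (by rw [b2_im]; exact h1)))
    exact h2.comp w (f := fun v : ℂ =>
      Complex.exp (v + ((b2k w * (Real.pi / 3) : ℝ) : ℂ) * Complex.I)) (by fun_prop)
  have hB : Bornology.IsBounded (range E) := by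
    refine isBounded_iff_forall_norm_le.2 ⟨2 * |B|, ?_⟩
    rintro _ ⟨w, rfl⟩
    obtain ⟨h0, h1⟩ := b2_k w
    have h2 := hb (Complex.exp (w + ((b2k w * (Real.pi / 3) : ℝ) : ℂ) * Complex.I))
      (b2_pos (by rw [b2_im]; linarith) (by rw [b2_im]; linarith))
    have h3 := b2_sin h0 h1
    rw [Complex.norm_exp, Complex.exp_im, b2_im, mul_comm B,
      mul_div_mul_left _ _ (Real.exp_pos _).ne'] at h2
    refine h2.trans ?_
    rw [div_le_iff₀ (by linarith)]
    have h4 := mul_le_mul_of_nonneg_left h3 (abs_nonneg B)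
    linarith [le_abs_self B]
  have fin : ∀ v : ℂ, 0 < v.im → E (Complex.log v) = G v := fun v hv => by
    have hv0 : v ≠ 0 := fun h => by simp [h] at hv
    have a0 : 0 < v.arg := lt_of_le_of_ne (Complex.arg_nonneg_iff.2 hv.le)
      fun h => hv.ne' (Complex.arg_eq_zero_iff.1 h.symm).2
    have a1 : v.arg < Real.pi := Complex.arg_lt_pi_iff.2 (Or.inr hv.ne')
    rw [key _ 0 (by simpa [Complex.log_im] using a0) (by simpa [Complex.log_im] using a1)]
    simp [Complex.exp_log hv0]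
  rw [← fin z hz, ← fin Complex.I (by simp)]
  exact hD.apply_eq_apply_of_bounded hB _ _

end Vale.Agent.P153C
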