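import Vale.Agent.P153C.Defs

/-! Finiteness. Hint: |h p - 1| <= 2(2n+2) on the finite hexagon (walk right until outside), h = 1
outside; inject into functions on the finite set (Set.Finite.pi / Fintype.piFinset). Constant 1 is admissible. -/

open MeasureTheory Filter Topology Set
open scoped InnerProductSpace ComplexConjugate

noncomputable section

namespace Vale.Agent.P153C

theorem m0_walk {n : ℕ} {h : ℤ × ℤ → ℤ} (hh : h ∈ Adm n) (x y : ℤ) (k : ℕ) :
    |h (x + k, y) - h (x, y)| ≤ 2 * k := by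
  induction k with
  | zero => simp
  | succ k ih =>
    have h1 := (hh.2.2 (x + k) y).1
    rw [Nat.cast_succ, ← add_assoc]
    rw [abs_le] at *
    omega

theorem adm_fin (n : ℕ) : (Adm n).Finite ∧ (Adm n).Nonempty := by
  refine ⟨?_, fun _ => 1, fun _ => odd_one, fun _ _ => rfl, fun _ _ => by simp⟩
  have h1 : (hex n).Finite := ((finite_Icc (-n : ℤ) n).prod (finite_Icc (-n : ℤ) n)).subset
    fun p hp => ⟨abs_le.1 hp.1, abs_le.1 hp.2.1⟩
  haveI := h1.to_subtype
  refine Finite.of_finite_image (f := fun h (p : hex n) => h p)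
    ((Finite.pi' fun _ : hex n => finite_Icc (-(4 * n + 3) : ℤ) (4 * n + 3)).subset ?_) ?_
  · rintro _ ⟨h, hh, rfl⟩ ⟨⟨x, y⟩, hp⟩
    have h2 := m0_walk hh x y (2 * n + 1)
    have h3 := abs_le.1 hp.1
    rw [hh.2.1 _ fun k => by have := abs_le.1 k.1; simp only at this h3; omega, abs_le] at h2
    simp only [mem_Icc]
    omega
  · intro a ha b hb h
    funext p
    by_cases hp : p ∈ hex n
    · exact congrFun h ⟨p, hp⟩
    · rw [ha.2.1 p hp, hb.2.1 p hp]

end Vale.Agent.P153C
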