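import Vale.Agent.P153C.M0

/-! Symmetries in finite volume. Hint: finsum_mem_eq_finite_toFinset_sum; the maps
h -> h o rot, h -> h o refl are bijections of Adm n (finsum_mem_eq_of_bijOn); rot (x,y) = (-y,x+y) has
inverse (x,y) -> (x+y,-x); refl is an involution. -/

open MeasureTheory Filter Topology Set
open scoped InnerProductSpace ComplexConjugate

noncomputable section

namespace Vale.Agent.P153C

theorem m1_nb {n : ℕ} {h : ℤ × ℤ → ℤ} (hh : h ∈ Adm n) {a b c d : ℤ}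
    (e : (c = a + 1 ∧ d = b) ∨ (c = a ∧ d = b + 1) ∨ (c = a - 1 ∧ d = b + 1) ∨
      (a = c + 1 ∧ b = d) ∨ (a = c ∧ b = d + 1) ∨ (a = c - 1 ∧ b = d + 1)) :
    |h (c, d) - h (a, b)| ≤ 2 := by
  rcases e with ⟨rfl, rfl⟩ | ⟨rfl, rfl⟩ | ⟨rfl, rfl⟩ | ⟨rfl, rfl⟩ | ⟨rfl, rfl⟩ | ⟨rfl, rfl⟩
  · exact (hh.2.2 _ _).1
  · exact (hh.2.2 _ _).2.1
  · exact (hh.2.2 _ _).2.2
  · rw [abs_sub_comm]; exact (hh.2.2 _ _).1
  · rw [abs_sub_comm]; exact (hh.2.2 _ _).2.1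
  · rw [abs_sub_comm]; exact (hh.2.2 _ _).2.2

theorem m1_sym (n : ℕ) {φ : ℤ × ℤ → ℤ × ℤ} (hs : Function.Surjective φ)
    (hm : ∀ h ∈ Adm n, h ∘ φ ∈ Adm n) (p q : ℤ × ℤ) : var n (φ p) (φ q) = var n p q := by
  unfold var
  congr 1
  exact finsum_mem_eq_of_bijOn (fun h => h ∘ φ)
    (((adm_fin n).1.injOn_iff_bijOn_of_mapsTo hm).1 hs.injective_comp_right.injOn) fun _ _ => rfl

theorem m1_hex {n : ℕ} {p : ℤ × ℤ} : p ∈ hex n ↔ (-(n : ℤ) ≤ p.1 ∧ p.1 ≤ n) ∧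
    (-(n : ℤ) ≤ p.2 ∧ p.2 ≤ n) ∧ -(n : ℤ) ≤ p.1 + p.2 ∧ p.1 + p.2 ≤ n := by
  simp only [hex, mem_ofPred_eq, abs_le]

theorem var_rot (n : ℕ) (x y : ℤ) : var n (-y, x + y) 0 = var n (x, y) 0 := by
  have h := m1_sym n (φ := fun p => (-p.2, p.1 + p.2))
    (fun p => ⟨(p.1 + p.2, -p.1), by ext <;> simp⟩) (fun h hh => ⟨fun p => hh.1 _,
      fun p hp => hh.2.1 _ fun k => hp (by rw [m1_hex] at k ⊢; dsimp only at k; omega),
      fun x y => ⟨m1_nb hh (by dsimp only; omega), m1_nb hh (by dsimp only; omega),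
        m1_nb hh (by dsimp only; omega)⟩⟩) (x, y) 0
  exact h

theorem var_refl (n : ℕ) (x y : ℤ) : var n (x + y, -y) 0 = var n (x, y) 0 := by
  have h := m1_sym n (φ := fun p => (p.1 + p.2, -p.2))
    (fun p => ⟨(p.1 + p.2, -p.2), by ext <;> simp⟩) (fun h hh => ⟨fun p => hh.1 _,
      fun p hp => hh.2.1 _ fun k => hp (by rw [m1_hex] at k ⊢; dsimp only at k; omega),
      fun x y => ⟨m1_nb hh (by dsimp only; omega), m1_nb hh (by dsimp only; omega),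
        m1_nb hh (by dsimp only; omega)⟩⟩) (x, y) 0
  exact h

theorem var_self (n : ℕ) (p : ℤ × ℤ) : var n p p = 0 := by
  simp [var]

theorem var_nonneg (n : ℕ) (p q : ℤ × ℤ) : 0 ≤ var n p q := by
  exact div_nonneg (finsum_nonneg fun _ => finsum_nonneg fun _ => sq_nonneg _) (Nat.cast_nonneg _)

theorem var_tri (n : ℕ) (p q r : ℤ × ℤ) : var n p r ≤ 2 * var n p q + 2 * var n q r := by
  simp only [var, finsum_mem_eq_finite_toFinset_sum _ (adm_fin n).1]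
  rw [← mul_div_assoc, ← mul_div_assoc, ← add_div, Finset.mul_sum, Finset.mul_sum,
    ← Finset.sum_add_distrib]
  refine div_le_div_of_nonneg_right (Finset.sum_le_sum fun h _ => ?_) (Nat.cast_nonneg _)
  push_cast
  nlinarith [sq_nonneg ((h p : ℝ) - 2 * h q + h r)]

end Vale.Agent.P153C
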