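import Vale.Agent.P153C.M0

/-! Reflection positivity in finite volume. Hint: th (x,y) = (x+y,-y). With G h = sum f p * h (p.1,p.2),
sum f = 0 gives  sum_p sum_q f p f q (h q - h (th p))^2 = -2 G h * G (h o th). Let sy h p = if 0 <= p.2 then h p
else h (th p). h -> (sy h, sy (h o th)) is a bijection from Adm n onto pairs (g1,g2) of th-symmetric admissible
functions with the same row 0 (inverse: g1 above, g2 below; every edge lies in a closed half plane), and G h = G (sy h).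
So sum_h G h * G (h o th) = sum over rows b of (sum_{g symmetric, row g = b} G g)^2 >= 0
(Finset.sum_fiberwise / sum_comm). -/

open MeasureTheory Filter Topology Set
open scoped InnerProductSpace ComplexConjugate

noncomputable section

namespace Vale.Agent.P153C

/-- The reflection in the row zero. -/
def m2th (h : ℤ × ℤ → ℤ) : ℤ × ℤ → ℤ := fun p => h (p.1 + p.2, -p.2)

/-- The first function above, the second below. -/
def m2gl (h k : ℤ × ℤ → ℤ) : ℤ × ℤ → ℤ := fun p => if 0 ≤ p.2 then h p else k p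

theorem m2th_th (h : ℤ × ℤ → ℤ) : m2th (m2th h) = h := by
  funext p
  simp [m2th]

theorem m2gl_gl (h k : ℤ × ℤ → ℤ) : m2gl (m2gl h k) (m2gl k h) = h := by
  funext p
  by_cases e : 0 ≤ p.2 <;> simp [m2gl, e]

theorem m2th_adm {n : ℕ} {h : ℤ × ℤ → ℤ} (H : h ∈ Adm n) : m2th h ∈ Adm n := by
  refine ⟨fun p => H.1 _, fun p hp => H.2.1 _ fun k => hp ?_, fun x y => ⟨?_, ?_, ?_⟩⟩
  · obtain ⟨k1, k2, k3⟩ := k
    refine ⟨?_, ?_, k1⟩
    · simpa using k3
    · simpa using k2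
  · have := (H.2.2 (x + y) (-y)).1
    rwa [show x + y + 1 = x + 1 + y by ring] at this
  · have := (H.2.2 (x + (y + 1)) (-(y + 1))).2.2
    rwa [show x + (y + 1) - 1 = x + y by ring, show -(y + 1) + 1 = -y by ring, abs_sub_comm] at this
  · have := (H.2.2 (x - 1 + (y + 1)) (-(y + 1))).2.1
    rw [show -(y + 1) + 1 = -y by ring, abs_sub_comm] at this
    have e : x + y = x - 1 + (y + 1) := by ring
    change |h (x - 1 + (y + 1), -(y + 1)) - h (x + y, -y)| ≤ 2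
    rwa [e]

theorem m2gl_low {h k : ℤ × ℤ → ℤ} (e : ∀ x, h (x, 0) = k (x, 0)) (x : ℤ) {y : ℤ} (hy : y ≤ 0) :
    m2gl h k (x, y) = k (x, y) := by
  unfold m2gl
  split_ifs with c
  · obtain rfl : y = 0 := le_antisymm hy c
    exact e x
  · rfl

theorem m2gl_up (h k : ℤ × ℤ → ℤ) (x : ℤ) {y : ℤ} (hy : 0 ≤ y) : m2gl h k (x, y) = h (x, y) :=
  if_pos hy

theorem m2gl_adm {n : ℕ} {h k : ℤ × ℤ → ℤ} (H : h ∈ Adm n) (K : k ∈ Adm n)
    (e : ∀ x, h (x, 0) = k (x, 0)) : m2gl h k ∈ Adm n := by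
  refine ⟨fun p => ?_, fun p hp => ?_, fun x y => ?_⟩
  · unfold m2gl
    split_ifs
    exacts [H.1 p, K.1 p]
  · unfold m2gl
    split_ifs
    exacts [H.2.1 p hp, K.2.1 p hp]
  · rcases le_or_gt 0 y with hy | hy
    · rw [m2gl_up h k _ hy, m2gl_up h k _ hy, m2gl_up h k _ (by omega : 0 ≤ y + 1),
        m2gl_up h k _ (by omega : 0 ≤ y + 1)]
      exact H.2.2 x y
    · rw [m2gl_low e _ hy.le, m2gl_low e _ hy.le, m2gl_low e _ (by omega : y + 1 ≤ 0),
        m2gl_low e _ (by omega : y + 1 ≤ 0)]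
      exact K.2.2 x y

theorem m2_abs (B : Finset (ℤ × ℤ → ℤ)) (G : (ℤ × ℤ → ℤ) → ℝ) (h1 : ∀ h ∈ B, m2th h ∈ B)
    (h2 : ∀ h ∈ B, ∀ k ∈ B, m2gl h k ∈ B) (h3 : ∀ h k, G (m2gl h k) = G h)
    (h4 : ∀ h ∈ B, ∀ k ∈ B, G (m2th (m2gl h k)) = G (m2th k)) :
    0 ≤ ∑ h ∈ B, G h * G (m2th h) := by
  have e1 : ∑ h ∈ B, G (m2th h) = ∑ h ∈ B, G h :=
    Finset.sum_nbij' m2th m2th h1 h1 (fun h _ => m2th_th h) (fun h _ => m2th_th h) fun _ _ => rfl
  have hm : ∀ x ∈ B ×ˢ B, (m2gl x.1 x.2, m2gl x.2 x.1) ∈ B ×ˢ B := fun x hx => by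
    rw [Finset.mem_product] at hx ⊢
    exact ⟨h2 _ hx.1 _ hx.2, h2 _ hx.2 _ hx.1⟩
  have e2 : ∑ x ∈ B ×ˢ B, G x.1 * G (m2th x.2) = ∑ x ∈ B ×ˢ B, G x.1 * G (m2th x.1) :=
    Finset.sum_nbij' (fun x => (m2gl x.1 x.2, m2gl x.2 x.1))
      (fun x => (m2gl x.1 x.2, m2gl x.2 x.1)) hm hm
      (fun x _ => Prod.ext (m2gl_gl _ _) (m2gl_gl _ _))
      (fun x _ => Prod.ext (m2gl_gl _ _) (m2gl_gl _ _)) fun x hx => by
        rw [Finset.mem_product] at hx
        rw [h3, h4 _ hx.1 _ hx.2]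
  rw [Finset.sum_product' B B fun h k => G h * G (m2th k),
    Finset.sum_product' B B fun h _ => G h * G (m2th h), ← Finset.sum_mul_sum, e1] at e2
  simp only [Finset.sum_const, nsmul_eq_mul] at e2
  rw [← Finset.mul_sum] at e2
  rcases B.eq_empty_or_nonempty with rfl | hB
  · simp
  · have : (0 : ℝ) < B.card := by exact_mod_cast hB.card_pos
    exact nonneg_of_mul_nonneg_right (e2 ▸ mul_self_nonneg _) this

theorem m2_sq {ι : Type} (s : Finset ι) (f a b : ι → ℝ) (hf : ∑ p ∈ s, f p = 0) :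
    ∑ p ∈ s, ∑ q ∈ s, f p * f q * (a q - b p) ^ 2 =
      -2 * ((∑ q ∈ s, f q * a q) * ∑ p ∈ s, f p * b p) := by
  have e : ∀ p, ∑ q ∈ s, f p * f q * (a q - b p) ^ 2 = f p * ∑ q ∈ s, f q * a q ^ 2 +
      -2 * (∑ q ∈ s, f q * a q) * (f p * b p) + f p * b p ^ 2 * ∑ q ∈ s, f q := fun p => by
    rw [Finset.mul_sum, Finset.mul_sum, Finset.mul_sum, Finset.sum_mul, ← Finset.sum_add_distrib,
      ← Finset.sum_add_distrib]
    exact Finset.sum_congr rfl fun q _ => by ring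
  simp only [e, hf, mul_zero, add_zero, Finset.sum_add_distrib]
  rw [← Finset.sum_mul, hf, ← Finset.mul_sum]
  ring

theorem var_rp (n : ℕ) (s : Finset (ℤ × ℕ)) (f : ℤ × ℕ → ℝ) (hf : ∑ p ∈ s, f p = 0) :
    ∑ p ∈ s, ∑ q ∈ s, f p * f q * var n (q.1, q.2) (p.1 + p.2, -p.2) ≤ 0 := by
  classical
  have hA := (adm_fin n).1
  let G : (ℤ × ℤ → ℤ) → ℝ := fun h => ∑ q ∈ s, f q * (h (q.1, q.2) : ℝ)
  have key : 0 ≤ ∑ h ∈ hA.toFinset, G h * G (m2th h) := by
    rw [← Finset.sum_fiberwise_of_maps_to (g := fun h x => h (x, 0))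
      fun h hh => Finset.mem_image_of_mem _ hh]
    refine Finset.sum_nonneg fun b _ => m2_abs _ G (fun h hh => ?_) (fun h hh k hk => ?_)
      (fun h k => ?_) fun h hh k hk => ?_
    · rw [Finset.mem_filter, hA.mem_toFinset] at hh ⊢
      refine ⟨m2th_adm hh.1, Eq.trans ?_ hh.2⟩
      funext x
      simp [m2th]
    · rw [Finset.mem_filter, hA.mem_toFinset] at hh hk ⊢
      refine ⟨m2gl_adm hh.1 hk.1 (congrFun (hh.2.trans hk.2.symm)), Eq.trans ?_ hh.2⟩
      funext x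
      exact m2gl_up h k x le_rfl
    · exact Finset.sum_congr rfl fun q _ => by rw [m2gl_up h k _ (Int.natCast_nonneg _)]
    · rw [Finset.mem_filter] at hh hk
      refine Finset.sum_congr rfl fun q _ => ?_
      unfold m2th
      rw [m2gl_low (congrFun (hh.2.trans hk.2.symm)) _ (by simp)]
  have e : ∀ p q : ℤ × ℕ, f p * f q * var n (q.1, q.2) (p.1 + p.2, -p.2) =
      (∑ h ∈ hA.toFinset, f p * f q * ((h (q.1, q.2) : ℝ) - (m2th h (p.1, p.2) : ℝ)) ^ 2) /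
        (Adm n).ncard := fun p q => by
    rw [var, finsum_mem_eq_finite_toFinset_sum _ hA, ← Finset.mul_sum, mul_div_assoc]
    simp only [Int.cast_sub, m2th]
  simp only [e, ← Finset.sum_div]
  refine div_nonpos_of_nonpos_of_nonneg ?_ (Nat.cast_nonneg _)
  rw [Finset.sum_congr rfl fun p _ => Finset.sum_comm, Finset.sum_comm,
    Finset.sum_congr rfl fun h _ => m2_sq s f _ _ hf, ← Finset.mul_sum]
  exact mul_nonpos_of_nonpos_of_nonneg (by norm_num) key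

end Vale.Agent.P153C
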