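import Vale.Agent.P153C.M1
import Vale.Agent.P153C.M2

/-! Passing to the limit (tendsto_nhds_unique, le_of_tendsto', ge_of_tendsto'). -/

open MeasureTheory Filter Topology Set
open scoped InnerProductSpace ComplexConjugate

noncomputable section

namespace Vale.Agent.P153C

theorem rpv_of_lim {V : ℤ × ℤ → ℝ}
    (hV : ∀ p q, Tendsto (fun n => var n p q) atTop (𝓝 (V (p - q)))) : RPV V := by
  have h0 : ∀ p, Tendsto (fun n => var n p 0) atTop (𝓝 (V p)) := fun p => by
    simpa using hV p 0
  refine ⟨?_, fun p => ?_, fun x y => ?_, fun x y => ?_, fun p q => ?_, fun s f hf => ?_⟩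
  · refine tendsto_nhds_unique (h0 0) ?_
    simp only [var_self]
    exact tendsto_const_nhds
  · exact ge_of_tendsto' (h0 p) fun n => var_nonneg n p 0
  · refine tendsto_nhds_unique (h0 (-y, x + y)) ?_
    simp only [var_rot]
    exact h0 (x, y)
  · refine tendsto_nhds_unique (h0 (x + y, -y)) ?_
    simp only [var_refl]
    exact h0 (x, y)
  · have h1 := hV (p + q) q
    rw [add_sub_cancel_right] at h1
    exact le_of_tendsto_of_tendsto' (h0 (p + q)) ((h1.const_mul 2).add ((h0 q).const_mul 2))
      fun n => var_tri n (p + q) q 0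
  · have h1 : ∀ p q : ℤ × ℕ, Tendsto (fun n => var n (q.1, q.2) (p.1 + p.2, -p.2)) atTop
        (𝓝 (V (q.1 - p.1 - p.2, q.2 + p.2))) := by
      intro p q
      have h2 := hV (q.1, q.2) (p.1 + p.2, -p.2)
      have h3 : ((q.1, (q.2 : ℤ)) - (p.1 + p.2, -(p.2 : ℤ)) : ℤ × ℤ) =
          (q.1 - p.1 - p.2, (q.2 : ℤ) + (p.2 : ℤ)) := by
        refine Prod.ext ?_ ?_
        · simp only [Prod.fst_sub]
          ring
        · simp only [Prod.snd_sub]
          ring
      rwa [h3] at h2
    refine le_of_tendsto' (tendsto_finsetSum s fun p _ => tendsto_finsetSum s fun q _ =>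
      (h1 p q).const_mul (f p * f q)) fun n => var_rp n s f hf

end Vale.Agent.P153C
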