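import Vale.Agent.P153C.Defs

/-! Growth. incr: rp with s = {(0,n),(-1,n+2)}, f = 1,-1 gives concavity of v n = V (-n,2n) (note V(-x-y,y) =
V(x,y) from rot, refl); v >= 0 and concave give monotone and v n <= n * v 1. lin: rot gives the same bound in the
directions (1,1), (-1,2) and their negatives (rot three times is -id); 3p = (2x+y)(1,1) + (y-x)(-1,2); use sub.
star: V(-x-y,y) = V(x,y). -/

open MeasureTheory Filter Topology Set
open scoped InnerProductSpace ComplexConjugate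

noncomputable section

namespace Vale.Agent.P153C

theorem RPV.r0_neg {V : ℤ × ℤ → ℝ} (h : RPV V) (x y : ℤ) : V (-x, -y) = V (x, y) := by
  have h1 := h.rot x y
  have h2 := h.rot (-y) (x + y)
  have h3 := h.rot (-(x + y)) (-y + (x + y))
  have e1 : -(-y + (x + y)) = -x := by ring
  have e2 : -(x + y) + (-y + (x + y)) = -y := by ring
  rw [e1, e2] at h3
  rw [h3, h2, h1]

theorem RPV.star {V : ℤ × ℤ → ℝ} (h : RPV V) (x y : ℤ) : V (-x - y, y) = V (x, y) := by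
  have h1 := h.r0_neg (x + y) (-y)
  have e1 : -(x + y) = -x - y := by ring
  rw [e1, neg_neg] at h1
  rw [h1, h.refl]

theorem RPV.neg {V : ℤ × ℤ → ℝ} (h : RPV V) (p : ℤ × ℤ) : V (-p) = V p :=
  h.r0_neg p.1 p.2

/-- Concavity along the ray. -/
theorem RPV.r0_conc {V : ℤ × ℤ → ℝ} (h : RPV V) (n : ℕ) :
    V (-(n : ℤ), 2 * (n : ℤ)) + V (-((n + 2 : ℕ) : ℤ), 2 * ((n + 2 : ℕ) : ℤ)) ≤
      2 * V (-((n + 1 : ℕ) : ℤ), 2 * ((n + 1 : ℕ) : ℤ)) := by
  have hne : ((0 : ℤ), n) ≠ ((-1 : ℤ), n + 2) := by simp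
  have h1 := h.rp {((0 : ℤ), n), ((-1 : ℤ), n + 2)} (fun p => 2 * (p.1 : ℝ) + 1) (by
    rw [Finset.sum_pair hne]
    norm_num)
  rw [Finset.sum_pair hne, Finset.sum_pair hne, Finset.sum_pair hne] at h1
  have e1 : ((0 : ℤ) - 0 - (n : ℤ), (n : ℤ) + (n : ℤ)) = (-(n : ℤ), 2 * (n : ℤ)) := by
    refine Prod.ext ?_ ?_ <;> simp only [] <;> ring
  have e2 : ((-1 : ℤ) - 0 - (n : ℤ), ((n + 2 : ℕ) : ℤ) + (n : ℤ)) =
      (-((n + 1 : ℕ) : ℤ), 2 * ((n + 1 : ℕ) : ℤ)) := by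
    refine Prod.ext ?_ ?_ <;> simp only [] <;> push_cast <;> ring
  have e3 : ((0 : ℤ) - (-1) - ((n + 2 : ℕ) : ℤ), (n : ℤ) + ((n + 2 : ℕ) : ℤ)) =
      (-((n + 1 : ℕ) : ℤ), 2 * ((n + 1 : ℕ) : ℤ)) := by
    refine Prod.ext ?_ ?_ <;> simp only [] <;> push_cast <;> ring
  have e4 : ((-1 : ℤ) - (-1) - ((n + 2 : ℕ) : ℤ), ((n + 2 : ℕ) : ℤ) + ((n + 2 : ℕ) : ℤ)) =
      (-((n + 2 : ℕ) : ℤ), 2 * ((n + 2 : ℕ) : ℤ)) := by
    refine Prod.ext ?_ ?_ <;> simp only [] <;> push_cast <;> ring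
  simp only [] at h1
  rw [e1, e2, e3, e4] at h1
  push_cast at h1 ⊢
  linarith

/-- A nonnegative concave sequence is monotone and sublinear. -/
theorem r0_seq (v : ℕ → ℝ) (h0 : v 0 = 0) (hp : ∀ n, 0 ≤ v n)
    (hc : ∀ n, v n + v (n + 2) ≤ 2 * v (n + 1)) (n : ℕ) : v n ≤ v (n + 1) ∧ v n ≤ n * v 1 := by
  have hd : ∀ a k, v (a + k + 1) - v (a + k) ≤ v (a + 1) - v a := by
    intro a k
    induction k with
    | zero => simp
    | succ k ih =>
      have := hc (a + k)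
      have e1 : a + (k + 1) + 1 = a + k + 2 := by ring
      have e2 : a + (k + 1) = a + k + 1 := by ring
      rw [e1, e2]
      linarith
  have hs : ∀ a k, v (a + k) ≤ v a + k * (v (a + 1) - v a) := by
    intro a k
    induction k with
    | zero => simp
    | succ k ih =>
      have := hd a k
      have e2 : a + (k + 1) = a + k + 1 := by ring
      rw [e2]
      push_cast
      linarith
  refine ⟨?_, ?_⟩
  · by_contra hlt
    have hlt' : 0 < v n - v (n + 1) := by linarith [not_le.1 hlt]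
    obtain ⟨k, hk⟩ := exists_nat_gt (v n / (v n - v (n + 1)))
    rw [div_lt_iff₀ hlt'] at hk
    have h1 := hs n k
    have h2 := hp (n + k)
    linarith
  · have h1 := hs 0 n
    simp only [zero_add, h0, sub_zero] at h1
    exact h1

theorem RPV.incr {V : ℤ × ℤ → ℝ} (h : RPV V) (n : ℕ) :
    V (-n, 2 * n) ≤ V (-(n + 1 : ℕ), 2 * (n + 1 : ℕ)) ∧ V (-n, 2 * n) ≤ n * V (-1, 2) := by
  have h1 := r0_seq (fun n : ℕ => V (-(n : ℤ), 2 * (n : ℤ))) (by
    have h0 : V (0, 0) = 0 := h.zero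
    simpa using h0)
    (fun _ => h.nonneg _) (fun n => h.r0_conc n) n
  simpa using h1

/-- The bound along the whole line. -/
theorem RPV.r0_line {V : ℤ × ℤ → ℝ} (h : RPV V) (k : ℤ) :
    V (-k, 2 * k) ≤ |(k : ℝ)| * V (-1, 2) := by
  obtain ⟨n, rfl | rfl⟩ := Int.eq_nat_or_neg k
  · have h1 := (h.incr n).2
    simpa using h1
  · have h1 := (h.incr n).2
    have h2 := h.r0_neg (-(n : ℤ)) (2 * (n : ℤ))
    have e : (2 : ℤ) * -(n : ℤ) = -(2 * (n : ℤ)) := by ring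
    rw [e, h2]
    simpa using h1

theorem RPV.lin {V : ℤ × ℤ → ℝ} (h : RPV V) (p : ℤ × ℤ) :
    ∃ C : ℝ, ∀ m : ℕ, V (3 * m * p.1, 3 * m * p.2) ≤ C * m := by
  refine ⟨(2 * |(2 * p.1 + p.2 : ℝ)| + 2 * |(p.2 - p.1 : ℝ)|) * V (-1, 2), fun m => ?_⟩
  set a : ℤ := m * (2 * p.1 + p.2) with ha
  set b : ℤ := m * (p.2 - p.1) with hb
  have e : ((3 * m * p.1, 3 * m * p.2) : ℤ × ℤ) = (a, a) + (-b, 2 * b) := by
    refine Prod.ext ?_ ?_ <;> simp only [Prod.fst_add, Prod.snd_add, ha, hb] <;> ring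
  have h1 := h.sub (a, a) (-b, 2 * b)
  have h2 := h.rot a a
  have h3 := h.r0_line a
  have h4 := h.r0_line b
  have e2 : a + a = 2 * a := by ring
  rw [e2] at h2
  have ea : |(a : ℝ)| = m * |(2 * p.1 + p.2 : ℝ)| := by
    rw [ha]
    push_cast
    rw [abs_mul, Nat.abs_cast]
  have eb : |(b : ℝ)| = m * |(p.2 - p.1 : ℝ)| := by
    rw [hb]
    push_cast
    rw [abs_mul, Nat.abs_cast]
  rw [ea] at h3
  rw [eb] at h4
  rw [e]
  nlinarith

end Vale.Agent.P153C
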