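import Vale.Agent.P153C.Defs

/-! Joint functional calculus. Hint: as in P152/B2H (SA, Alg, gel): closed star subalgebra generated by T, U is
commutative (star T = T * star U); gelfandStarTransform; each character x gives (x T, x U) in DDs; compose with
ContinuousMap.compStarAlgHom' along this continuous map characterSpace -> DD. -/

open MeasureTheory Filter Topology Set
open scoped InnerProductSpace ComplexConjugate

noncomputable section

namespace Vale.Agent.P153C

variable {K : Type} [NormedAddCommGroup K] [InnerProductSpace ℂ K] [CompleteSpace K]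

theorem r2_comm {A : Type} [CommCStarAlgebra A] {t u : A} (ht : ‖t‖ ≤ 1) (hu : star u * u = 1)
    (ha : star t * u = t) : ∃ ρ : C(DD, ℂ) →⋆ₐ[ℂ] A, ρ lamF = t ∧ ρ uF = u := by
  let g := gelfandStarTransform A
  have hm : ∀ x : WeakDual.characterSpace ℂ A, (g t x, g u x) ∈ DDs := by
    intro x
    refine ⟨?_, ?_, ?_⟩
    · exact ((g t).norm_coe_le_norm x).trans ((StarAlgEquiv.norm_map g t).le.trans ht)
    · have h1 : (g (star u * u)) x = 1 := by rw [hu, map_one]; rfl
      rw [map_mul, map_star, ContinuousMap.mul_apply, ContinuousMap.star_apply] at h1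
      have h2 := congrArg norm h1
      rw [norm_mul, norm_star, norm_one] at h2
      change ‖g u x‖ = 1
      nlinarith [norm_nonneg (g u x)]
    · have h1 : (g (star t * u)) x = g t x := by rw [ha]
      rw [map_mul, map_star, ContinuousMap.mul_apply, ContinuousMap.star_apply] at h1
      exact h1
  let m : C(WeakDual.characterSpace ℂ A, DD) :=
    ⟨fun x => ⟨(g t x, g u x), hm x⟩,
      Continuous.subtype_mk ((g t).continuous.prodMk (g u).continuous) _⟩
  refine ⟨(g.symm : _ →⋆ₐ[ℂ] _).comp (ContinuousMap.compStarAlgHom' ℂ ℂ m), ?_, ?_⟩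
  · have e : ContinuousMap.compStarAlgHom' ℂ ℂ m lamF = g t := by ext x; rfl
    change g.symm (ContinuousMap.compStarAlgHom' ℂ ℂ m lamF) = t
    rw [e, g.symm_apply_apply]
  · have e : ContinuousMap.compStarAlgHom' ℂ ℂ m uF = g u := by ext x; rfl
    change g.symm (ContinuousMap.compStarAlgHom' ℂ ℂ m uF) = u
    rw [e, g.symm_apply_apply]

/-- The closed star algebra generated by a set. -/
def r2SA (S : Set (K →L[ℂ] K)) : StarSubalgebra ℂ (K →L[ℂ] K) :=
  (StarAlgebra.adjoin ℂ S).topologicalClosure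

theorem r2_closed (S : Set (K →L[ℂ] K)) : IsClosed (r2SA S : Set (K →L[ℂ] K)) :=
  StarSubalgebra.isClosed_topologicalClosure _

theorem r2_mem {S : Set (K →L[ℂ] K)} {z : K →L[ℂ] K} (hz : z ∈ S) : z ∈ r2SA S :=
  StarSubalgebra.le_topologicalClosure _ (StarAlgebra.subset_adjoin ℂ _ hz)

theorem r2_cent {S : Set (K →L[ℂ] K)} {y : K →L[ℂ] K} (h : ∀ z ∈ S, Commute y z)
    (h' : ∀ z ∈ S, Commute (star y) z) {a : K →L[ℂ] K} (ha : a ∈ r2SA S) :
    Commute y a := by
  have h1 : r2SA S ≤ StarSubalgebra.centralizer ℂ {y} := by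
    refine StarSubalgebra.topologicalClosure_minimal (StarAlgebra.adjoin_le fun z hz => ?_) ?_
    · rw [SetLike.mem_coe, StarSubalgebra.mem_centralizer_iff]
      rintro g rfl
      exact ⟨h z hz, h' z hz⟩
    · rw [StarSubalgebra.coe_centralizer]
      exact Set.isClosed_centralizer _
  exact ((StarSubalgebra.mem_centralizer_iff ℂ).1 (h1 ha) y rfl).1

theorem r2_mul_comm {S : Set (K →L[ℂ] K)} (h : ∀ y ∈ S, ∀ z ∈ S, Commute y z)
    (h' : ∀ y ∈ S, ∀ z ∈ S, Commute (star y) z) {a b : K →L[ℂ] K} (ha : a ∈ r2SA S)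
    (hb : b ∈ r2SA S) : Commute a b :=
  r2_cent (fun z hz => (r2_cent (h z hz) (h' z hz) ha).symm)
    (fun z hz => (r2_cent (h z hz) (h' z hz) (star_mem ha)).symm) hb

/-- A commuting family. -/
structure R2Fam (K : Type) [NormedAddCommGroup K] [InnerProductSpace ℂ K] [CompleteSpace K] where
  S : Set (K →L[ℂ] K)
  h : ∀ y ∈ S, ∀ z ∈ S, Commute y z
  h' : ∀ y ∈ S, ∀ z ∈ S, Commute (star y) z

/-- The algebra as a type. -/
def R2Alg (G : R2Fam K) : Type := ↥(r2SA G.S)

instance (G : R2Fam K) : CommCStarAlgebra (R2Alg G) :=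
  { StarSubalgebra.cstarAlgebra (r2SA G.S) (h_closed := r2_closed G.S) with
    mul_comm := fun a b => Subtype.ext (r2_mul_comm G.h G.h' a.2 b.2) }

/-- The inclusion. -/
def R2Alg.val (G : R2Fam K) : R2Alg G →⋆ₐ[ℂ] (K →L[ℂ] K) := (r2SA G.S).subtype

/-- Elements of the algebra. -/
def R2Alg.mk (G : R2Fam K) (A : K →L[ℂ] K) (h : A ∈ G.S) : R2Alg G := ⟨A, r2_mem h⟩

theorem jspec {T U : K →L[ℂ] K} (hT : ‖T‖ ≤ 1) (hU : U ∈ unitary (K →L[ℂ] K)) (hc : Commute T U)
    (ha : star T * U = T) :
    ∃ ρ : C(DD, ℂ) →⋆ₐ[ℂ] (K →L[ℂ] K), ρ lamF = T ∧ ρ uF = U := by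
  have h1 : star U * U = 1 := (Unitary.mem_iff.1 hU).1
  have h2 : U * star U = 1 := (Unitary.mem_iff.1 hU).2
  have hs : star T = T * star U := by
    calc star T = star T * (U * star U) := by rw [h2, mul_one]
      _ = T * star U := by rw [← mul_assoc, ha]
  have hUU : Commute (star U) U := h1.trans h2.symm
  have hUT : Commute (star U) T := by
    calc star U * T = star U * T * (U * star U) := by rw [h2, mul_one]
      _ = star U * (T * U) * star U := by simp only [mul_assoc]
      _ = star U * (U * T) * star U := by rw [hc.eq]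
      _ = (star U * U) * T * star U := by simp only [mul_assoc]
      _ = T * star U := by rw [h1, one_mul]
  let G : R2Fam K :=
    { S := {T, U}
      h := by
        rintro y (rfl | rfl) z (rfl | rfl)
        exacts [Commute.refl _, hc, hc.symm, Commute.refl _]
      h' := by
        rintro y (rfl | rfl) z (rfl | rfl)
        · rw [hs]; exact (Commute.refl _).mul_left hUT
        · rw [hs]; exact hc.mul_left hUU
        · exact hUT
        · exact hUU }
  obtain ⟨ρ, e1, e2⟩ := r2_comm (A := R2Alg G) (t := R2Alg.mk G T (Or.inl rfl))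
    (u := R2Alg.mk G U (Or.inr rfl)) hT (Subtype.ext h1) (Subtype.ext ha)
  refine ⟨(R2Alg.val G).comp ρ, ?_, ?_⟩
  · change R2Alg.val G (ρ lamF) = T
    rw [e1]; rfl
  · change R2Alg.val G (ρ uF) = U
    rw [e2]; rfl

end Vale.Agent.P153C
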