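import Vale.Agent.P153C.R0

/-! Levy-Khinchin algebra. conj (chi p) * chi q = chi (q.1-p.1-p.2, q.2+p.2). p = (0,n), q = (-1,n+2) give
|chi p - chi q|^2 = r^(2n) (1-r^2)^2, r = |lam|; telescoping with incr gives int (1-r^(2N))(1-r^2) <= v 1 / 2, so 1-r^2
is integrable (monotone convergence); 1 - re lam = (|1-lam|^2 + 1 - r^2)/2 and 1 - re chi p = (|1-chi p|^2 + 1 - r^(2y))/2,
1 - r^(2y) <= y (1-r^2). D = V - int 2(1 - re chi) satisfies D(q+p*) = D(p+p*)/2 + D(q+q*)/2, so D(x,y) = A y;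
0 <= v(N+1) - v N = 2A + int 2 r^(2N)(1-r^2) -> 2A + 0 (dominated; r = 1 contributes 0). -/

open MeasureTheory Filter Topology Set
open scoped InnerProductSpace ComplexConjugate

noncomputable section

namespace Vale.Agent.P153C

theorem lk_conj (z : DD) : (z.1.2)⁻¹ * z.1.1 = conj z.1.1 := by
  have h0 : z.1.2 ≠ 0 := norm_ne_zero_iff.1 (by rw [z.2.2.1]; exact one_ne_zero)
  rw [inv_mul_eq_iff_eq_mul₀ h0, mul_comm, z.2.2.2]

theorem lk_a (n : ℕ) (z : DD) : ‖chi (0, n) z - chi (-1, n + 2) z‖ ^ 2 =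
    (‖z.1.1‖ ^ 2) ^ n * (1 - ‖z.1.1‖ ^ 2) ^ 2 := by
  have e : chi (0, n) z - chi (-1, n + 2) z = z.1.1 ^ n * ((1 - ‖z.1.1‖ ^ 2 : ℝ) : ℂ) := by
    simp only [chi, zpow_zero, zpow_neg_one]
    push_cast
    rw [← Complex.conj_mul', ← lk_conj]
    ring
  rw [e, norm_mul, mul_pow, norm_pow, Complex.norm_real, Real.norm_eq_abs, sq_abs, ← pow_mul,
    ← pow_mul, mul_comm n]

theorem lk_b (q : ℤ × ℕ) (z : DD) : 2 * (1 - (chi q z).re) =
    ‖chi (0, 0) z - chi q z‖ ^ 2 + (1 - (‖z.1.1‖ ^ 2) ^ q.2) := by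
  have e : (‖z.1.1‖ ^ 2) ^ q.2 = ‖chi q z‖ ^ 2 := by
    rw [chi, norm_mul, norm_zpow, z.2.2.1, one_zpow, one_mul, norm_pow, ← pow_mul, ← pow_mul,
      mul_comm]
  have e0 : chi (0, 0) z = 1 := by simp [chi]
  rw [e, e0, Complex.sq_norm, Complex.sq_norm, Complex.normSq_apply, Complex.normSq_apply]
  simp only [Complex.sub_re, Complex.sub_im, Complex.one_re, Complex.one_im]
  ring

theorem lk_c {X : Type} [MeasurableSpace X] {ν : Measure X} {s : X → ℝ} (s0 : ∀ z, 0 ≤ s z)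
    (s1 : ∀ z, s z ≤ 1) {v : ℕ → ℝ} (v0 : v 0 = 0) (hv : ∀ n, v n ≤ v (n + 1))
    (h : ∀ n, Integrable (fun z => s z ^ n * (1 - s z) ^ 2) ν ∧
      v (n + 1) - v n / 2 - v (n + 2) / 2 = ∫ z, s z ^ n * (1 - s z) ^ 2 ∂ν) :
    ∃ A : ℝ, 0 ≤ A ∧ ∀ n : ℕ, Integrable (fun z => 1 - s z ^ n) ν ∧
      v n / 2 = A * n + ∫ z, 1 - s z ^ n ∂ν := by
  have a : ∀ n, Integrable (fun z => (1 - s z ^ n) * (1 - s z)) ν ∧
      (v 1 - (v (n + 1) - v n)) / 2 = ∫ z, (1 - s z ^ n) * (1 - s z) ∂ν := by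
    intro n
    induction n with
    | zero => simp [v0]
    | succ n ih =>
      have e : (fun z => (1 - s z ^ (n + 1)) * (1 - s z)) =
          fun z => (1 - s z ^ n) * (1 - s z) + s z ^ n * (1 - s z) ^ 2 := by
        ext z; ring
      rw [e, integral_add ih.1 (h n).1, ← ih.2, ← (h n).2]
      exact ⟨ih.1.add (h n).1, by ring⟩
  have p1 : ∀ n z, 0 ≤ 1 - s z ^ n := fun n z => sub_nonneg.2 (pow_le_one₀ (s0 z) (s1 z))
  have nn : ∀ n z, 0 ≤ (1 - s z ^ n) * (1 - s z) := fun n z =>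
    mul_nonneg (p1 n z) (sub_nonneg.2 (s1 z))
  have le : ∀ n, ∫ z, (1 - s z ^ n) * (1 - s z) ∂ν ≤ v 1 / 2 := fun n => by
    linarith [(a n).2, hv n]
  have lim : ∀ᵐ z ∂ν, Tendsto (fun n => (1 - s z ^ n) * (1 - s z)) atTop (𝓝 (1 - s z)) :=
    .of_forall fun z => by
      rcases (s1 z).eq_or_lt with e | e
      · simp [e]
      · simpa using ((tendsto_pow_atTop_nhds_zero_of_lt_one (s0 z) e).const_sub 1).mul_const
          (1 - s z)
  have I : Integrable (fun z => 1 - s z) ν := by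
    refine ⟨aestronglyMeasurable_of_tendsto_ae _ (fun n => (a n).1.1) lim, lt_of_le_of_lt
      ((lintegral_congr_ae (lim.mono fun z hz => hz.enorm.liminf_eq.symm)).trans_le
        ((lintegral_liminf_le' fun n => (a n).1.1.enorm).trans
          (liminf_le_of_frequently_le' (.of_forall fun n => ?_))))
      (ENNReal.ofReal_lt_top (r := v 1 / 2))⟩
    rw [← ofReal_integral_norm_eq_lintegral_enorm (a n).1]
    refine ENNReal.ofReal_le_ofReal (le_trans (le_of_eq ?_) (le n))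
    exact integral_congr_ae (.of_forall fun z => Real.norm_of_nonneg (nn n z))
  have T := tendsto_integral_of_dominated_convergence _ (fun n => (a n).1.1) I
    (fun n => .of_forall fun z => by
      rw [Real.norm_of_nonneg (nn n z)]
      exact mul_le_of_le_one_left (sub_nonneg.2 (s1 z)) (sub_le_self _ (pow_nonneg (s0 z) n))) lim
  refine ⟨v 1 / 2 - ∫ z, 1 - s z ∂ν, sub_nonneg.2 (le_of_tendsto' T le), fun n => ?_⟩
  induction n with
  | zero => simp [v0]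
  | succ n ih =>
    have e : (fun z => 1 - s z ^ (n + 1)) =
        fun z => (1 - s z ^ n + (1 - s z)) - (1 - s z ^ n) * (1 - s z) := by
      ext z; ring
    have J : Integrable (fun z => 1 - s z ^ n + (1 - s z)) ν := ih.1.add I
    rw [e, integral_sub J (a n).1, integral_add ih.1 I, ← (a n).2]
    refine ⟨J.sub (a n).1, ?_⟩
    push_cast
    linarith [ih.2]

theorem lk {V : ℤ × ℤ → ℝ} (h : RPV V) {ν : Measure DD}
    (hν : ∀ p q : ℤ × ℕ, Integrable (fun z => ‖chi p z - chi q z‖ ^ 2) ν ∧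
      V (q.1 - p.1 - p.2, q.2 + p.2) - V (-p.2, 2 * p.2) / 2 - V (-q.2, 2 * q.2) / 2 =
        ∫ z, ‖chi p z - chi q z‖ ^ 2 ∂ν) :
    ∃ A : ℝ, 0 ≤ A ∧ ∀ p : ℤ × ℕ, Integrable (fun z => 1 - (chi p z).re) ν ∧
      V (p.1, p.2) = A * p.2 + ∫ z, 2 * (1 - (chi p z).re) ∂ν := by
  have z0 : V (0, 0) = 0 := h.zero
  obtain ⟨A, A0, hA⟩ := lk_c (ν := ν) (s := fun z => ‖z.1.1‖ ^ 2) (fun z => sq_nonneg _)
    (fun z => pow_le_one₀ (norm_nonneg _) z.2.1) (v := fun n => V (-n, 2 * n))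
    (by simpa using z0) (fun n => (h.incr n).1) fun n => by
      have a := hν (0, n) (-1, n + 2)
      simp only [lk_a] at a
      refine ⟨a.1, ?_⟩
      rw [← a.2]
      congr 4 <;> push_cast <;> ring
  refine ⟨A, A0, fun p => ?_⟩
  have a := hν (0, 0) p
  have J := a.1.add (hA p.2).1
  constructor
  · refine (J.div_const 2).congr (.of_forall fun z => ?_)
    simp only [Pi.add_apply, ← lk_b]
    ring
  · simp only [lk_b]
    rw [integral_add a.1 (hA p.2).1, ← a.2]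
    have b := (hA p.2).2
    simp only [Nat.cast_zero, sub_zero, add_zero, neg_zero, mul_zero, z0] at b ⊢
    linarith

end Vale.Agent.P153C
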